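import Vale.Agent.P240.R2.H401.Lin4
import Vale.Agent.P240.R2.AS.Defs

/-!
Linear cycles inside the bracket calculus: a lower bound for `AS.t` of a set of frames with marked
letters by the dimension `U` of the words whose last letter is marked.
-/

set_option autoImplicit false

namespace Vale.Agent.P240.R2.H401

open Finset
open Vale.Agent.P240.R2.H986 (ev ev_cons ev_single ev_nil)
open scoped Classical

universe u v

noncomputable section

variable {L : Type u}

/-- `ev` vanishes if `z` does on all the words with the given end -/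
lemma ev_end_zero {𝕜 : Type v} [Field 𝕜] (z : List L → 𝕜) (g : List L) : ∀ (u v : List L),
    (∀ u', z (u' ++ v) = 0) → v ≠ [] → ev z g u v = 0 := by
  induction g with
  | nil => intro u v _ _; rw [ev_nil]
  | cons a g ih =>
    intro u v h hv
    rcases eq_or_ne g [] with rfl | hg
    · rw [ev_single]
      have := h (u ++ [a])
      simpa using this
    · rw [ev_cons z a hg, ih _ _ h hv, ih _ (a :: v) (fun u' => by
        have := h (u' ++ [a])
        simpa using this) (by simp)]
      simp

/-- only the first word of the bracket has a marked last letter -/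
lemma ev_marked {𝕜 : Type v} [Field 𝕜] (z : List L → 𝕜) (x : L) (w : List L) : ∀ u : List L,
    (∀ (u' : List L) (y : L), y ∈ w → z (u' ++ [y]) = 0) → ev z (w ++ [x]) u [] =
      z (u ++ (w ++ [x])) := by
  induction w with
  | nil => intro u _; rw [List.nil_append, ev_single]
  | cons a w ih =>
    intro u h
    have hne : w ++ [x] ≠ [] := by simp
    rw [List.cons_append, ev_cons z a hne, ih _ (fun u' y hy => h u' y (List.mem_cons_of_mem _ hy)),
      ev_end_zero z (w ++ [x]) u [a] (fun u' => h u' a (List.mem_cons_self ..)) (by simp)]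
    simp

variable [Fintype L]

/-- **The linear cycles inside the bracket calculus.** -/
theorem U_le_t {F F' : Finset (List L)} (hsub : F ⊆ F') (T : L → Prop)
    (hne : [] ∉ F) (hT : ∀ (w : List L) (x : L), w ++ [x] ∈ F → T x ∧ ∀ y ∈ w, ¬ T y) :
    U ℚ F ≤ AS.t F' := by
  have hval : ∀ z ∈ SL ℚ F, ∀ w ∈ F, AS.bm L z w = z w := by
    intro z hz w hw
    show ev z w [] [] = z w
    obtain ⟨w', x, rfl⟩ : ∃ w' x, w = w' ++ [x] := by
      rcases w.eq_nil_or_concat' with rfl | h
      · exact absurd hw hne
      · exact h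
    rw [ev_marked z x w' [] (fun u' y hy => hz.1 _ fun h => (hT _ _ hw).2 y hy (hT _ _ h).1),
      List.nil_append]
  let f : SL ℚ F →ₗ[ℚ] (AS.SOL F').map (AS.bm L) :=
    { toFun := fun z => ⟨AS.bm L z.1, Submodule.mem_map_of_mem
        ⟨fun w hw => z.2.1 w fun h => hw (hsub h), z.2.2⟩⟩
      map_add' := fun a b => Subtype.ext ((AS.bm L).map_add a.1 b.1)
      map_smul' := fun c a => Subtype.ext ((AS.bm L).map_smul c a.1) }
  have hinj : Function.Injective f := by
    rw [injective_iff_map_eq_zero]
    intro z hz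
    apply Subtype.ext
    funext w
    by_cases hw : w ∈ F
    · rw [← hval z.1 z.2 w hw]
      exact congrFun (congrArg Subtype.val hz) w
    · exact z.2.1 w hw
  have : Module.Finite ℚ ((AS.SOL F').map (AS.bm L)) := by
    have : Module.Finite ℚ (AS.SOL F') := by
      let g : AS.SOL F' →ₗ[ℚ] (F' → ℚ) :=
        { toFun := fun z w => z.1 w.1
          map_add' := fun _ _ => rfl
          map_smul' := fun _ _ => rfl }
      refine FiniteDimensional.of_injective g ?_
      rw [injective_iff_map_eq_zero]
      intro z hz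
      apply Subtype.ext
      funext w
      by_cases hw : w ∈ F'
      · exact congrFun hz ⟨w, hw⟩
      · exact z.2.1 w hw
    infer_instance
  exact LinearMap.finrank_le_finrank_of_injective hinj

/-- a nonzero value of the bracket -/
theorem exists_ev_ne {F F' : Finset (List L)} (hsub : F ⊆ F') (T : L → Prop) {n : ℕ}
    (hF : LG F (n + 1)) (hne : F.Nonempty)
    (hT : ∀ (w : List L) (x : L), w ++ [x] ∈ F → T x ∧ ∀ y ∈ w, ¬ T y) :
    0 < AS.t F' := by
  have h0 : [] ∉ F := fun h => by
    have := hF.len _ h
    simp at this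
  exact lt_of_lt_of_le ((LG.pos (𝕜 := ℚ) n F hF).2 hne) (U_le_t hsub T h0 hT)

/-- the number of words, `x ^ n #F ≤ t F'` -/
theorem card_le_t {F F' : Finset (List L)} (hsub : F ⊆ F') (T : L → Prop) {n b c : ℕ} {x : ℚ}
    (hx : 0 < x) (hx1 : x ≤ 1) (hb : 1 ≤ (1 - x) * (b * x)) (hc : 1 ≤ (1 - x) * c)
    (hF : LGb F (n + 1) b c)
    (hT : ∀ (w : List L) (x : L), w ++ [x] ∈ F → T x ∧ ∀ y ∈ w, ¬ T y) :
    x ^ n * F.card ≤ AS.t F' := by
  have h0 : [] ∉ F := fun h => by
    have := hF.len _ h
    simp at this
  refine ((LGb.main (𝕜 := ℚ) hx hx1 hb hc n F hF).2).trans ?_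
  exact_mod_cast U_le_t hsub T h0 hT

end

end Vale.Agent.P240.R2.H401
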