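import Vale.Agent.P240.R2.H401.E2
import Vale.Agent.P240.R2.H401.Lin5
import Vale.Agent.P240.R2.H145.EO2

/-!
The even orthogonal groups `PΩ(V)`, `V` of dimension `n = m + 1` even with nonsquare discriminant,
form `diag(1, .., 1, d)`, at the prime `2`: definitions and the list of statements.
-/

set_option autoImplicit false
set_option linter.all false

namespace Vale.Agent.P240.R2.H401.D

open Matrix Vale.Agent.P240.R2.AS Vale.Agent.P240.R2.H38 Vale.Agent.P240.K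
open Vale.Agent.P240.R2.H145.EO (B ac OD Big Ker)
open Vale.Agent.P240.R2.H938 (TC)
open Vale.Agent.P240.R2.H296.O (SOm)
open Vale.Agent.P240.R2.H487 (LocTopF)
open scoped Classical

universe u v w

noncomputable section

section
variable {K : Type u} [Field K] {n : ℕ}

/-- the orthogonal group modulo its center -/
abbrev POD (a : Fin n → K) : Type u := ↥(OD a) ⧸ Subgroup.center ↥(OD a)

/-- the preimage of the commutator subgroup of `POD a`, in `OD a` -/
def SD0 (a : Fin n → K) : Subgroup ↥(OD a) :=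
  (commutator (POD a)).comap (QuotientGroup.mk' (Subgroup.center ↥(OD a)))

/-- the preimage of the commutator subgroup of `POD a`, in `GL` -/
def SD (a : Fin n → K) : Subgroup (GL (Fin n) K) := (SD0 a).map (OD a).subtype

lemma mem_SD {a : Fin n → K} {g : GL (Fin n) K} :
    g ∈ SD a ↔ ∃ h : ↥(OD a), h ∈ SD0 a ∧ h.1 = g := Iff.rfl

lemma SD0_normal (a : Fin n → K) : (SD0 a).Normal := by
  unfold SD0
  infer_instance

lemma SD_conj {a : Fin n → K} (u : ↥(OD a)) {g : GL (Fin n) K} (hg : g ∈ SD a) :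
    u.1 * g * u.1⁻¹ ∈ SD a := by
  obtain ⟨h, hh, rfl⟩ := hg
  exact ⟨u * h * u⁻¹, (SD0_normal a).conj_mem h hh u, rfl⟩

/-- conjugation by an isometry -/
def cjD {a : Fin n → K} (u : ↥(OD a)) : SD a →* SD a where
  toFun h := ⟨u.1 * h.1 * u.1⁻¹, SD_conj u h.2⟩
  map_one' := by
    apply Subtype.ext
    show u.1 * 1 * u.1⁻¹ = 1
    rw [mul_one, mul_inv_cancel]
  map_mul' x y := by
    apply Subtype.ext
    show u.1 * (x.1 * y.1) * u.1⁻¹ = (u.1 * x.1 * u.1⁻¹) * (u.1 * y.1 * u.1⁻¹)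
    group

lemma cjD_coe {a : Fin n → K} (u : ↥(OD a)) (h : SD a) : (cjD u h).1 = u.1 * h.1 * u.1⁻¹ := rfl

lemma cjD_mul {a : Fin n → K} (u v : ↥(OD a)) (h : SD a) : cjD (u * v) h = cjD u (cjD v h) := by
  apply Subtype.ext
  show (u.1 * v.1) * h.1 * (u.1 * v.1)⁻¹ = u.1 * (v.1 * h.1 * v.1⁻¹) * u.1⁻¹
  group

lemma cjD_one {a : Fin n → K} (h : SD a) : cjD 1 h = h := by
  apply Subtype.ext
  show 1 * h.1 * 1⁻¹ = h.1
  group

/-- the diagonal matrices with entries `±1` in `SD a` -/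
def TS (a : Fin n → K) : Subgroup (SD a) where
  carrier := {g | ∃ c : Fin n → K, (∀ i, c i ^ 2 = 1) ∧ g.1.1 = diagonal c}
  mul_mem' := by
    rintro x y ⟨c, h1, h2⟩ ⟨c', h1', h2'⟩
    refine ⟨fun i => c i * c' i, fun i => by rw [mul_pow, h1, h1', one_mul], ?_⟩
    show x.1.1 * y.1.1 = _
    rw [h2, h2', diagonal_mul_diagonal]
  one_mem' := ⟨fun _ => 1, fun i => one_pow _, by
    show (1 : Matrix (Fin n) (Fin n) K) = _
    rw [diagonal_one]⟩
  inv_mem' := by
    rintro x ⟨c, h1, h2⟩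
    refine ⟨c, h1, ?_⟩
    have h3 : x.1 * x.1 = 1 := by
      apply Units.ext
      show x.1.1 * x.1.1 = 1
      rw [h2, diagonal_mul_diagonal, ← diagonal_one]
      congr 1
      funext i
      rw [← pow_two, h1]
    have h4 : x.1⁻¹ = x.1 := inv_eq_of_mul_eq_one_left h3
    show (x.1⁻¹).1 = _
    rw [h4, h2]

lemma mem_TS {a : Fin n → K} {g : SD a} :
    g ∈ TS a ↔ ∃ c : Fin n → K, (∀ i, c i ^ 2 = 1) ∧ g.1.1 = diagonal c := Iff.rfl

variable {G : Type v} [Group G]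

/-- the elementary abelian subgroup of `L` in the coordinates `u` -/
def Ad {a : Fin n → K} (ε : SD a →* G) (u : ↥(OD a)) : Subgroup G := (TS a).map (ε.comp (cjD u))

/-- the homomorphisms `SD a → L`; the elements of order `2` of the normalizer that commute with `Ad`
act as diagonal matrices with entries `±1` -/
structure DHom {a : Fin n → K} (L : Subgroup G) (ε : SD a →* G) : Prop where
  range : ε.range = L
  ker : ∀ g : SD a, ε g = 1 ↔ ∃ l : K, g.1.1 = l • (1 : Matrix (Fin n) (Fin n) K)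
  lin : ∀ u : ↥(OD a), ∀ x ∈ Subgroup.normalizer (L : Set G), x ^ 2 = 1 →
    (∀ y ∈ Ad ε u, x * y = y * x) → ∃ g : ↥(OD a),
      (∃ c : Fin n → K, (∀ i, c i ^ 2 = 1) ∧ (u⁻¹ * g * u).1.1 = diagonal c) ∧
      ∀ h : SD a, x * ε h * x⁻¹ = ε (cjD g h)

end

/-- the form `(1, .., 1, d)` -/
def fd {K : Type u} [Field K] (m : ℕ) (d : K) : Fin (m + 1) → K :=
  fun i => if i = Fin.last m then d else 1

/-- the hypotheses on the field and the dimension (`n = m + 1` even), `d` is not a square -/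
structure DNum (K : Type u) [Field K] [Fintype K] (m : ℕ) (d : K) : Prop where
  odd : Odd (Nat.card K)
  card : 7 ≤ Nat.card K
  modd : Odd m
  hm : 5 ≤ m
  ns : ¬ IsSquare d

/-- (DF) facts on the group `SD` (owner 275) -/
def StmtDF : Prop :=
  ∀ (K : Type u) [Field K] [Fintype K] (m : ℕ) (d : K), DNum K m d →
    Big (fd m d) (SD (fd m d)) ∧
    (∀ (c : Fin (m + 1) → K), (∀ i, c i ^ 2 = 1) → ∀ g : GL (Fin (m + 1)) K, g.1 = diagonal c →
      g ∈ OD (fd m d) ∧ (g ∈ SD (fd m d) ↔ ∏ i, c i = 1)) ∧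
    (∀ g ∈ SD (fd m d), g.1.det = 1) ∧
    (∀ u ∈ OD (fd m d), (∀ k ∈ SD (fd m d), ∃ l : K, u.1 * k.1 = l • (k.1 * u.1)) →
      ∃ l : K, u.1 = l • (1 : Matrix (Fin (m + 1)) (Fin (m + 1)) K))

/-- (DSem) the homomorphism (owner 651, 275): `StmtEO` of 145, then no field automorphism is possible,
since the norm of `c_n / c_1` would be `-1` -/
def StmtDSem : Prop :=
  ∀ (K : Type u) [Field K] [Fintype K] (m : ℕ) (d : K), DNum K m d →
    ∀ (G : Type v) [Group G] [Finite G] (L : Subgroup G) (e : commutator (POD (fd m d)) ≃* L),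
    ∃ ε : SD (fd m d) →* G, DHom L ε

/-- (DC) coordinates (owner 281, 296) -/
def StmtDC : Prop :=
  ∀ (K : Type u) [Field K] [Fintype K] (m : ℕ) (d : K), DNum K m d →
    ∀ (G : Type v) [Group G] [Finite G] (L : Subgroup G) (ε : SD (fd m d) →* G), DHom L ε →
    -- change of coordinates
    (∀ u : ↥(OD (fd m d)), DHom L (ε.comp (cjD u)) ∧
      (∀ u', Ad (ε.comp (cjD u)) u' = Ad ε (u * u'))) ∧
    -- the groups `Ad`
    (∀ u : ↥(OD (fd m d)), Ad ε u ≤ L ∧ Ad ε u ∈ ApS 2 G ∧ Nat.card (Ad ε u) = 2 ^ (m - 1)) ∧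
    L ⊓ Subgroup.centralizer (L : Set G) = ⊥ ∧
    (∀ l ∈ L, l ^ 2 = 1 → (∀ y ∈ Ad ε 1, l * y = y * l) → l ∈ Ad ε 1) ∧
    -- hF1
    (∀ e ∈ Subgroup.normalizer (L : Set G), ∀ x ∈ Subgroup.normalizer (L : Set G), e ^ 2 = 1 →
      x ^ 2 = 1 → e * x = x * e →
      (∀ a ∈ Ad ε 1, e * a = a * e) → (∀ a ∈ Ad ε 1, x * a = a * x) →
      e ∉ L ⊔ Subgroup.centralizer (L : Set G) →
      ∃ k : ℕ, x * e ^ k ∈ L ⊔ Subgroup.centralizer (L : Set G)) ∧
    -- the literal form of `e`: the reflection in the last coordinate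
    (∀ e ∈ Subgroup.normalizer (L : Set G), e ∉ L ⊔ Subgroup.centralizer (L : Set G) → e ^ 2 = 1 →
      (∀ a ∈ Ad ε 1, e * a = a * e) →
      ∃ a ∈ Ad ε 1, ∀ s : ↥(OD (fd m d)),
        s.1.1 = diagonal (fun i => if i = Fin.last m then -1 else 1) →
        ∀ h : SD (fd m d), (e * a) * ε h * (e * a)⁻¹ = ε (cjD s h))

/-- (DK) a quadratic extension (owner 730) -/
def StmtDK : Prop :=
  ∀ (K : Type u) [Field K] [Fintype K] (d : K), ¬ IsSquare d →
    ∃ (K' : Type u) (_ : Field K') (_ : Fintype K') (j : K →+* K') (δ : K'), δ ^ 2 = j d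

/-- (DG) `Comb` for a subgroup `S` and a permutation-closed set of frames whose words have their
elements in `S` (owner 829, 945) -/
def StmtDG : Prop :=
  ∀ (K : Type u) [Field K] [Fintype K] [StarRing K] (n p : ℕ) (ζ c : K) (G : Type v) [Group G],
    p.Prime → ζ ^ p = 1 → ζ ≠ 1 → ζ * star ζ = 1 → c ≠ 0 → 1 ≤ n →
    ∀ (S : Subgroup (GU K n)) (ε : S →* G),
    (∀ g : S, ε g = 1 ↔ ∃ l : K, mx g = l • (1 : Matrix (Fin n) (Fin n) K)) →
    ∀ F : Finset (List (Ln K n)), F ⊆ Fr K n → (∀ w ∈ F, ∀ w', w.Perm w' → w' ∈ F) → F.Nonempty →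
    (∀ u v, u ++ v ∈ F → ∃ g : S, mx g = sM ζ c u) → Comb p n F (eS S ζ c ε)

section ext
variable {K : Type u} [Field K] {K' : Type u} [Field K'] {m : ℕ}

/-- the vector `Δ j(y)`, `Δ = diag(1, .., 1, δ)` -/
def vd (j : K →+* K') (δ : K') (y : Fin (m + 1) → K) : Fin (m + 1) → K' :=
  fun i => if i = Fin.last m then δ * j (y i) else j (y i)

variable [StarRing K']

/-- the lines of value `1` -/
def LS (j : K →+* K') (d : K) (δ : K') (P : Ln K' (m + 1)) : Prop :=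
  ∃ y : Fin (m + 1) → K, B (fd m d) y y = 1 ∧ P.1 = vecMulVec (vd j δ y) (vd j δ y)

/-- the lines of value `d` -/
def LN (j : K →+* K') (d : K) (δ : K') (P : Ln K' (m + 1)) : Prop :=
  ∃ y : Fin (m + 1) → K, B (fd m d) y y = d ∧ P.1 = (j d)⁻¹ • vecMulVec (vd j δ y) (vd j δ y)

variable [Fintype K']

/-- the frames: one line of value `d`, the others of value `1` -/
def FA (j : K →+* K') (d : K) (δ : K') : Finset (List (Ln K' (m + 1))) :=
  (Fr K' (m + 1)).filter (fun w => ∃ v P v', w = v ++ P :: v' ∧ LN j d δ P ∧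
    ∀ Q ∈ v ++ v', LS j d δ Q)

/-- the frames: the last line of value `d`, the others of value `1` -/
def FB (j : K →+* K') (d : K) (δ : K') : Finset (List (Ln K' (m + 1))) :=
  (Fr K' (m + 1)).filter (fun w => ∃ v P, w = v ++ [P] ∧ LN j d δ P ∧ ∀ Q ∈ v, LS j d δ Q)

end ext

/-- (DL) the counts of lines (owner 281) -/
def StmtDL : Prop :=
  ∀ (K : Type u) [Field K] [Fintype K] (m : ℕ) (d : K), DNum K m d →
    ∀ (K' : Type u) [Field K'] [Fintype K'] [StarRing K'] (j : K →+* K') (δ : K'),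
    (∀ x : K', star x = x) → δ ^ 2 = j d →
    (∀ P : Ln K' (m + 1), LS j d δ P → ¬ LN j d δ P) ∧
    (FB (m := m) j d δ).Nonempty ∧ LG (FB (m := m) j d δ) (m + 1)

/-- (DT) the frames of `K'` are the images of the frames of `V` (owner 829) -/
def StmtDT : Prop :=
  ∀ (K : Type u) [Field K] [Fintype K] (m : ℕ) (d : K), DNum K m d →
    ∀ (K' : Type u) [Field K'] [Fintype K'] [StarRing K'] (j : K →+* K') (δ : K'),
    (∀ x : K', star x = x) → δ ^ 2 = j d →
    ∃ φ : ↥(OD (fd m d)) →* GU K' (m + 1), Function.Injective φ ∧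
      (∀ g i k, (φ g).1 i k = (if i = Fin.last m then δ else 1) * j (g.1.1 i k) *
        (if k = Fin.last m then δ⁻¹ else 1)) ∧
      (∀ w ∈ FA (m := m) j d δ, ∃ (u : ↥(OD (fd m d))) (w₀ : List (Ln K' (m + 1))),
        w₀.Perm (w0 K' (m + 1)) ∧ w = w₀.map (lnU (φ u)))

/-- (DII) the top cycle with the reflection (owner 401) -/
def StmtDII : Prop :=
  ∀ (K : Type u) [Field K] [Fintype K] (m : ℕ) (d : K), DNum K m d →
    ∀ (G : Type v) [Group G] [Finite G] (L : Subgroup G) (ε : SD (fd m d) →* G), DHom L ε →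
    ∀ (𝕜 : Type w) [Field 𝕜] (e : G), e ^ 2 = 1 → e ∉ L →
    (∀ s : ↥(OD (fd m d)), s.1.1 = diagonal (fun i => if i = Fin.last m then -1 else 1) →
      ∀ h : SD (fd m d), e * ε h * e⁻¹ = ε (cjD s h)) →
    ∃ (u : ↥(OD (fd m d))) (e' : G), e' * e⁻¹ ∈ L ∧ e' ^ 2 = 1 ∧ (∀ a ∈ Ad ε u, e' * a = a * e') ∧
      TC 𝕜 2 (L ⊔ Subgroup.zpowers e) (Ad ε u ⊔ Subgroup.zpowers e')

/-- the result -/
def StmtD : Prop :=
  ∀ (K : Type u) [Field K] [Fintype K] (m : ℕ) (d : K), DNum K m d →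
    ∀ (G : Type v) [Group G] [Finite G] (L : Subgroup G),
    Nonempty (commutator (POD (fd m d)) ≃* L) → ∀ (𝕜 : Type w) [Field 𝕜], LocTopF 𝕜 2 L

end

end Vale.Agent.P240.R2.H401.D
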