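import Vale.Agent.P240.R2.H401.E3
import Vale.Agent.P240.R2.H296.EC4
import Vale.Agent.P240.R2.H275.ESem
import Vale.Agent.P240.R2.H145.EO8
import Vale.Agent.P240.R2.H472.EN
import Vale.Agent.P240.R2.H829.EP3
import Vale.Agent.P240.R2.H487.TF

/-!
`LocTopF` at the prime `2` for the groups `PΩ_n(q)`, `n ≥ 6` even, standard form, `q` odd,
`q ∉ {3, 5, 9, 25}`.
-/

set_option autoImplicit false

namespace Vale.Agent.P240.R2.H401.E

open Matrix Vale.Agent.P240.R2.AS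
open Vale.Agent.P240.R2.H487 (LocTopF TopFac)

universe u v w

/-- **The even orthogonal groups, standard form.** -/
theorem stmtE : StmtE.{u, v, w} :=
  stmtE_of (H275.stmtESem_of H145.EO.stmtEO) H296.EC.stmtEC H472.stmtEN H829.EP.stmtEII

/-- `n ≥ 6` even -/
theorem locTopF_Even {K : Type u} [Field K] [Fintype K] [StarRing K] {n : ℕ} {G : Type v} [Group G]
    [Finite G] (𝕜 : Type w) [Field 𝕜] (hs : ∀ x : K, star x = x) (ho : Odd (Nat.card K))
    (h7 : 7 ≤ Nat.card K) (h9 : Nat.card K ≠ 9) (h25 : Nat.card K ≠ 25) (hn : Even n) (hn6 : 6 ≤ n)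
    {L : Subgroup G} (e : ↥(commutator (PGU K n)) ≃* ↥L) : LocTopF 𝕜 2 L := by
  obtain ⟨m, rfl⟩ : ∃ m, n = m + 1 := ⟨n - 1, by omega⟩
  have hm : Odd m := by
    rw [Nat.odd_iff]
    rw [Nat.even_iff] at hn
    omega
  exact stmtE K m ⟨hs, ho, h7, hm, by omega⟩ h9 h25 G L ⟨e⟩ 𝕜

/-- every group isomorphic to `PΩ_n(q)` (standard form, `n ≥ 6` even, `q` odd, `q ∉ {3, 5, 9, 25}`)
is a top factor at the prime `2` -/
theorem topFac_Even {K : Type} [Field K] [Fintype K] [StarRing K] {n : ℕ} (𝕜 : Type w) [Field 𝕜]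
    (hs : ∀ x : K, star x = x) (ho : Odd (Nat.card K)) (h7 : 7 ≤ Nat.card K)
    (h9 : Nat.card K ≠ 9) (h25 : Nat.card K ≠ 25) (hn : Even n) (hn6 : 6 ≤ n)
    {L : Type v} [Group L] (e : L ≃* ↥(commutator (PGU K n))) : TopFac 𝕜 2 L :=
  fun _ _ _ _ ⟨f⟩ => locTopF_Even 𝕜 hs ho h7 h9 h25 hn hn6 (e.symm.trans f)

end Vale.Agent.P240.R2.H401.E
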