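import Vale.Agent.P240.R2.H401.D1

/-!
`LocTopF` at the prime `2` for the groups `PΩ(V)`, nonsquare discriminant: the assembly.
-/

set_option autoImplicit false
set_option linter.all false

namespace Vale.Agent.P240.R2.H401.D

open Matrix Vale.Agent.P240.R2.AS Vale.Agent.P240.R2.H38 Vale.Agent.P240.K
open Vale.Agent.P240.R2.H145.EO (B ac OD Big Ker)
open Vale.Agent.P240.R2.H938 (TC)
open Vale.Agent.P240.R2.H487 (LocTopF)
open Vale.Agent.P240.R2.H401.E (tc_mono)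
open scoped Classical

universe u v w

noncomputable section

/-- **The assembly.** -/
theorem stmtD_of (hSem : StmtDSem.{u, v}) (hDF : StmtDF.{u}) (hDC : StmtDC.{u, v})
    (hDII : StmtDII.{u, v, w}) : StmtD.{u, v, w} := by
  intro K _ _ m d hE G _ _ L he 𝕜 _
  letI : StarRing K := starRingOfComm
  have hs : ∀ x : K, star x = x := fun _ => rfl
  obtain ⟨e₀⟩ := he
  obtain ⟨ε, hε⟩ := hSem K m d hE G L e₀
  have hm := hE.hm
  -- the last reflection
  obtain ⟨s, hs1⟩ : ∃ s : ↥(OD (fd m d)),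
      s.1.1 = diagonal (fun i => if i = Fin.last m then (-1 : K) else 1) := by
    have hsq : diagonal (fun i => if i = Fin.last m then (-1 : K) else 1) *
        diagonal (fun i => if i = Fin.last m then (-1 : K) else 1) =
        (1 : Matrix (Fin (m + 1)) (Fin (m + 1)) K) := by
      rw [diagonal_mul_diagonal, ← diagonal_one]
      congr 1
      funext i
      by_cases hi : i = Fin.last m <;> simp [hi]
    refine ⟨⟨⟨_, _, hsq, hsq⟩, ?_⟩, rfl⟩
    refine ((hDF K m d hE).2.1 (fun i => if i = Fin.last m then (-1 : K) else 1)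
      (fun i => ?_) _ rfl).1
    by_cases hi : i = Fin.last m <;> simp [hi]
  have hM : L ⊔ Subgroup.centralizer (L : Set G) ≤ Subgroup.normalizer (L : Set G) := by
    refine sup_le Subgroup.le_normalizer ?_
    intro x hx
    rw [Subgroup.mem_normalizer_iff]
    have hx' : ∀ l ∈ L, l * x = x * l := fun l hl => Subgroup.mem_centralizer_iff.1 hx l hl
    intro l
    constructor
    · intro hl
      have h1 : x * l * x⁻¹ = l := by rw [← hx' l hl]; group
      rwa [h1]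
    · intro hl
      have h1 := hx' _ hl
      have h2 : l = x * l * x⁻¹ := by
        have h3 : x * l * x⁻¹ * x = x * (x * l * x⁻¹) := h1
        have h4 : x * l = x * (x * l * x⁻¹) := by rw [← h3]; group
        exact mul_left_cancel h4
      rw [h2]
      exact hl
  have hab : ∀ ε : SD (fd m d) →* G, DHom L ε → ∀ u, ∀ a ∈ Ad ε u, a ^ 2 = 1 ∧ a ∈ L := by
    intro ε hε u a ha
    obtain ⟨h1, h2, -⟩ := (hDC K m d hE G L ε hε).2.1 u
    exact ⟨h2.2.2 a ha, h1 ha⟩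
  have key : ∀ ε : SD (fd m d) →* G, DHom L ε →
      (∀ e ∈ Subgroup.normalizer (L : Set G), e ∉ L ⊔ Subgroup.centralizer (L : Set G) → e ^ 2 = 1 →
        (∀ a ∈ Ad ε 1, e * a = a * e) →
        ∃ a ∈ Ad ε 1, (∀ s : ↥(OD (fd m d)),
          s.1.1 = diagonal (fun i => if i = Fin.last m then -1 else 1) →
          ∀ h : SD (fd m d), (e * a) * ε h * (e * a)⁻¹ = ε (cjD s h)) ∧ (e * a) ^ 2 = 1 ∧
          e * a ∉ L ∧ L ⊔ Subgroup.zpowers (e * a) = L ⊔ Subgroup.zpowers e ∧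
          (e * a) * e⁻¹ ∈ L) := by
    intro ε hε e heQ heM he2 hec
    obtain ⟨a, ha, h1⟩ := (hDC K m d hE G L ε hε).2.2.2.2.2 e heQ heM he2 hec
    obtain ⟨ha2, haL⟩ := hab ε hε 1 a ha
    refine ⟨a, ha, h1, ?_, ?_, ?_, ?_⟩
    · have hc : Commute e a := hec a ha
      rw [hc.mul_pow, he2, ha2, one_mul]
    · intro h
      apply heM
      have h2 : e = (e * a) * a⁻¹ := by group
      rw [h2]
      exact Subgroup.mem_sup_left (L.mul_mem h (L.inv_mem haL))
    · apply le_antisymm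
      · refine sup_le le_sup_left ?_
        rw [Subgroup.zpowers_le]
        exact Subgroup.mul_mem _ (Subgroup.mem_sup_right (Subgroup.mem_zpowers e))
          (Subgroup.mem_sup_left haL)
      · refine sup_le le_sup_left ?_
        rw [Subgroup.zpowers_le]
        have h2 : (e * a) * a⁻¹ = e := by group
        have h3 : (e * a) * a⁻¹ ∈ L ⊔ Subgroup.zpowers (e * a) :=
          Subgroup.mul_mem _ (Subgroup.mem_sup_right (Subgroup.mem_zpowers _))
            (Subgroup.mem_sup_left (L.inv_mem haL))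
        rwa [h2] at h3
    · rw [hec a ha, mul_inv_cancel_right]
      exact haL
  obtain ⟨-, hA, hZ, -⟩ := hDC K m d hE G L ε hε
  have htw : ∀ u : ↥(OD (fd m d)), DHom L (ε.comp (cjD u)) ∧ Ad (ε.comp (cjD u)) 1 = Ad ε u ∧
      (∀ u', Ad (ε.comp (cjD u)) u' = Ad ε (u * u')) := by
    intro u
    obtain ⟨h1, h2⟩ := (hDC K m d hE G L ε hε).1 u
    exact ⟨h1, by rw [h2, mul_one], h2⟩
  have hcard : ∀ ε : SD (fd m d) →* G, DHom L ε → ∀ u : ↥(OD (fd m d)),
      Nat.card (Ad ε u) = 2 ^ (m - 1) := fun ε hε u => ((hDC K m d hE G L ε hε).2.1 u).2.2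
  refine H938.locTopF_of2 𝕜 (Q := Subgroup.normalizer (L : Set G)) (𝒜 := {A | ∃ u, A = Ad ε u})
    (N := 2 ^ (m - 1)) hM le_rfl
    ⟨_, 1, rfl⟩ ?_ hZ ?_ ?_ ?_ ?_ ?_ ?_ ?_ ?_ ?_ ?_ ?_ ?_
  · rintro _ ⟨u, rfl⟩
    exact hA u
  · -- hC
    rintro _ ⟨u, rfl⟩ l hl hlp hlc
    obtain ⟨h1, h2, h3⟩ := htw u
    rw [← h2] at hlc ⊢
    exact (hDC K m d hE G L _ h1).2.2.2.1 l hl hlp hlc
  · -- hF1
    rintro _ ⟨u, rfl⟩ e he x hx hep hxp hex hec hxc heM
    obtain ⟨h1, h2, h3⟩ := htw u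
    rw [← h2] at hec hxc
    exact (hDC K m d hE G L _ h1).2.2.2.2.1 e he x hx hep hxp hex hec hxc heM
  · rintro _ ⟨u, rfl⟩ t ht x hx htp hxp htx htc hxc htQ
    exact absurd ht htQ
  · -- T1
    obtain ⟨u, -, h1⟩ := top1 𝕜 hs hE hε (hcard ε hε) (Lm_le hs hE hε)
    exact ⟨_, ⟨u, rfl⟩, h1⟩
  · -- Te
    rintro _ ⟨u, rfl⟩ e heQ heM he2 hec
    obtain ⟨h1, h2, h3⟩ := htw u
    rw [← h2] at hec
    obtain ⟨a, ha, hact, -⟩ := key _ h1 e heQ heM he2 hec
    have hcl := comm_Lm hs hE hs1 (hact s hs1)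
    obtain ⟨u', k1, k2⟩ := top1 𝕜 hs hE h1 (hcard _ h1)
      (H := L ⊓ Subgroup.centralizer ({e * a} : Set G))
      (le_inf (Lm_le hs hE h1) (fun y hy => Subgroup.mem_centralizer_iff.2 (by
        rintro _ rfl
        exact hcl y hy)))
    rw [h2] at ha
    refine ⟨a, ha, _, ⟨u * u', rfl⟩, ?_, ?_⟩
    · rw [← h3]
      exact fun c hc => hcl c (k1 hc)
    · rw [← h3]
      exact k2
  · rintro _ ⟨u, rfl⟩ t htN htQ
    exact absurd htN htQ
  · rintro _ ⟨u, rfl⟩ e heQ heM he2 hec t htN htQ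
    exact absurd htN htQ
  · -- Se
    rintro _ ⟨u, rfl⟩ e heQ heM he2 hec
    obtain ⟨h1, h2, h3⟩ := htw u
    rw [← h2] at hec
    obtain ⟨a, ha, hact, e1, e2, e3, e4⟩ := key _ h1 e heQ heM he2 hec
    obtain ⟨u', e', k1, k2, k3, k4⟩ := hDII K m d hE G L _ h1 𝕜 (e * a) e1 e2 hact
    refine ⟨_, ⟨u * u', rfl⟩, e', ?_, k2, ?_, ?_⟩
    · have h5 : e' * e⁻¹ = (e' * (e * a)⁻¹) * ((e * a) * e⁻¹) := by group
      rw [h5]
      exact L.mul_mem k1 e4
    · rw [← h3]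
      exact k3
    · rw [← h3, ← e3]
      exact k4
  · rintro _ ⟨u, rfl⟩ e heQ heM he2 hec t htN htQ
    exact absurd htN htQ
  · rintro _ ⟨u, rfl⟩ t htN htQ
    exact absurd htN htQ
  · rintro _ ⟨u, rfl⟩ e heQ heM he2 hec t htN htQ
    exact absurd htN htQ
  · rintro _ ⟨u, rfl⟩ e heQ heM he2 hec t htN htQ
    exact absurd htN htQ

end

end Vale.Agent.P240.R2.H401.D
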