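import Vale.Agent.P240.R2.H401.D4
import Vale.Agent.P240.R2.H401.D2
import Vale.Agent.P240.R2.H275.DF
import Vale.Agent.P240.R2.H829.DG
import Vale.Agent.P240.R2.H387.DL
import Vale.Agent.P240.R2.H613.DT
import Vale.Agent.P240.R2.H281.DC
import Vale.Agent.P240.R2.H651.DSem
import Vale.Agent.P240.R2.H145.EO8
import Vale.Agent.P240.R2.H730.DK
import Vale.Agent.P240.R2.H487.TF

/-!
The even orthogonal groups `PΩ(V)`, nonsquare discriminant, at the prime `2`: the result.
-/

set_option autoImplicit false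
set_option linter.all false

namespace Vale.Agent.P240.R2.H401.D

open Matrix Vale.Agent.P240.R2.AS Vale.Agent.P240.R2.H38 Vale.Agent.P240.K
open Vale.Agent.P240.R2.H487 (LocTopF TopFac)

universe u v w

theorem stmtDII : StmtDII.{u, v, w} :=
  stmtDII_of H275.stmtDF (H281DC.stmtDC_of H275.stmtDF) H730.stmtDK H829.DG.stmtDG
    H387DL.stmtDL H613.DT.stmtDT

theorem stmtD : StmtD.{u, v, w} :=
  stmtD_of (H651.DS.stmtDSem_of H145.EO.stmtEO H275.stmtDF) H275.stmtDF
    (H281DC.stmtDC_of H275.stmtDF) stmtDII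

/-- every group isomorphic to `PΩ(V)`, `dim V = m + 1 ≥ 6` even, the discriminant not a square,
`q ≥ 7` odd, is a top factor at the prime `2` -/
theorem topFac_D {K : Type} [Field K] [Fintype K] {m : ℕ} {d : K} (𝕜 : Type w) [Field 𝕜]
    (hE : DNum K m d) {L : Type v} [Group L] (e : L ≃* ↥(commutator (POD (fd m d)))) :
    TopFac 𝕜 2 L :=
  fun _ _ _ _ ⟨f⟩ => stmtD K m d hE _ _ ⟨e.symm.trans f⟩ 𝕜

end Vale.Agent.P240.R2.H401.D
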