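import Mathlib

/-!
Hilbert 90 for finite fields with an involution, odd prime.
-/

set_option autoImplicit false

namespace Vale.Agent.P240.R2.H401

open Finset Matrix

universe u

section aut

variable {K : Type u} [Field K]

lemma coe_pow_aut (s : RingAut K) (k : ℕ) (x : K) : (s ^ k) x = (s^[k]) x := by
  induction k generalizing x with
  | zero => rfl
  | succ k ih =>
    rw [pow_succ, RingAut.mul_apply, ih, Function.iterate_succ_apply]

lemma pow_eq_one_of_iterate (s : RingAut K) (p : ℕ) (hs : ∀ x, (s^[p]) x = x) : s ^ p = 1 := by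
  ext x
  rw [coe_pow_aut, hs]
  rfl

/-- Hilbert 90 -/
lemma hilbert90 (s : RingAut K) (p : ℕ) (hp : p.Prime) (hs : s ^ p = 1) (hs1 : s ≠ 1)
    (x : K) (hx : ∏ k ∈ range p, (s ^ k) x = 1) : ∃ y : K, y ≠ 0 ∧ x * s y = y := by
  have : Fact p.Prime := ⟨hp⟩
  have hord : orderOf s = p := orderOf_eq_prime hs hs1
  let c : ℕ → K := fun k => ∏ i ∈ range k, (s ^ i) x
  let f : Fin p → (K →* K) := fun k => ((s ^ (k : ℕ) : RingAut K) : K →+* K).toMonoidHom
  have hf : Function.Injective f := by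
    intro i j hij
    have h1 : (s ^ (i : ℕ) : RingAut K) = s ^ (j : ℕ) := by
      ext y
      exact DFunLike.congr_fun hij y
    have h2 := (pow_inj_mod (x := s)).1 h1
    rw [hord, Nat.mod_eq_of_lt i.2, Nat.mod_eq_of_lt j.2] at h2
    exact Fin.ext h2
  have hli := (linearIndependent_monoidHom K K).comp f hf
  have key : ∃ θ : K, ∑ k : Fin p, c k * (s ^ (k : ℕ)) θ ≠ 0 := by
    by_contra hcon
    push Not at hcon
    have h0 := Fintype.linearIndependent_iff.1 hli (fun k => c k) (by
      funext θ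
      simp only [Finset.sum_apply, Pi.smul_apply, smul_eq_mul, Pi.zero_apply, Function.comp]
      exact hcon θ) ⟨0, hp.pos⟩
    simp [c] at h0
  obtain ⟨θ, hθ⟩ := key
  refine ⟨_, hθ, ?_⟩
  have hsum : ∀ g : ℕ → K, ∑ k : Fin p, g k = ∑ k ∈ range p, g k := fun g =>
    (Finset.sum_range g).symm
  rw [hsum (fun k => c k * (s ^ k) θ), map_sum, Finset.mul_sum]
  have hstep : ∀ k ∈ range p, x * s (c k * (s ^ k) θ) = c (k + 1) * (s ^ (k + 1)) θ := by
    intro k _
    have h1 : c (k + 1) = x * s (c k) := by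
      show ∏ i ∈ range (k + 1), (s ^ i) x = x * s (∏ i ∈ range k, (s ^ i) x)
      rw [Finset.prod_range_succ', map_prod, mul_comm]
      congr 1
      refine Finset.prod_congr rfl fun i _ => ?_
      rw [pow_succ' s i, RingAut.mul_apply]
    rw [h1, map_mul, pow_succ' s k, RingAut.mul_apply]
    ring
  rw [Finset.sum_congr rfl hstep]
  have h1 := Finset.sum_range_succ' (fun k => c k * (s ^ k) θ) p
  have h2 := Finset.sum_range_succ (fun k => c k * (s ^ k) θ) p
  have hcp : c p * (s ^ p) θ = c 0 * (s ^ 0) θ := by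
    have : c p = 1 := hx
    rw [this, hs, pow_zero]
    simp [c]
  rw [h1, hcp] at h2
  exact add_right_cancel h2

end aut

section finite

variable {K : Type u} [Field K] [Finite K]

/-- roots in the cyclic group of units: `x ^ m = 1`, `m * k = |K| - 1` ⟹ `x` is a `k`-th power -/
lemma exists_pow_eq {m k : ℕ} (hmk : m * k = Nat.card K - 1) {x : K} (hx0 : x ≠ 0)
    (hx : x ^ m = 1) : ∃ y : K, y ≠ 0 ∧ y ^ k = x := by
  have := Fintype.ofFinite K
  obtain ⟨g, hg⟩ := IsCyclic.exists_generator (α := Kˣ)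
  obtain ⟨i, hi⟩ := Subgroup.mem_zpowers_iff.1 (hg (Units.mk0 x hx0))
  have hcard : orderOf g = m * k := by
    rw [orderOf_eq_card_of_forall_mem_zpowers hg, hmk, Nat.card_units]
  have hk : (g : Kˣ) ^ (i * m) = 1 := by
    rw [_root_.zpow_mul, hi]
    ext
    simpa using hx
  have hdvd : ((m * k : ℕ) : ℤ) ∣ i * m := by
    rw [← hcard]
    exact orderOf_dvd_iff_zpow_eq_one.2 hk
  have hpos : 0 < m * k := by
    rw [hmk]
    have : 1 < Nat.card K := Finite.one_lt_card
    omega
  have hm : (m : ℤ) ≠ 0 := by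
    rintro h
    have : m = 0 := by exact_mod_cast h
    simp [this] at hpos
  have hki : (k : ℤ) ∣ i := by
    have : (m : ℤ) * k ∣ m * i := by
      have h := hdvd
      push_cast at h
      rwa [mul_comm i] at h
    exact (mul_dvd_mul_iff_left hm).1 this
  obtain ⟨j, hj⟩ := hki
  refine ⟨((g ^ j : Kˣ) : K), Units.ne_zero _, ?_⟩
  rw [← Units.val_pow_eq_pow_val, ← zpow_natCast, ← _root_.zpow_mul, mul_comm j, ← hj, hi]
  rfl

variable [StarRing K] {q : ℕ}

omit [Field K] [Finite K] [StarRing K] in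
lemma card_sub_one (hK : Nat.card K = q ^ 2) : (q - 1) * (q + 1) = Nat.card K - 1 := by
  rw [hK]
  rcases q with _ | q
  · simp
  · simp only [Nat.add_sub_cancel]
    have : (q + 1) ^ 2 = q * (q + 1 + 1) + 1 := by ring
    omega

omit [StarRing K] in
lemma one_lt_q (hK : Nat.card K = q ^ 2) : 1 < q := by
  have : 1 < Nat.card K := Finite.one_lt_card
  rw [hK] at this
  by_contra h
  have : q ≤ 1 := by omega
  interval_cases q <;> simp_all

/-- the norm is onto the fixed field of `star` -/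
lemma exists_norm_eq (hK : Nat.card K = q ^ 2) (hstar : ∀ x : K, star x = x ^ q) {w : K}
    (hw0 : w ≠ 0) (hw : star w = w) : ∃ z : K, z ≠ 0 ∧ z * star z = w := by
  have hq := one_lt_q hK
  have h1 : w ^ (q - 1) = 1 := by
    rw [hstar] at hw
    have : w ^ (q - 1) * w = 1 * w := by
      rw [← pow_succ, Nat.sub_add_cancel hq.le, one_mul, hw]
    exact mul_right_cancel₀ hw0 this
  obtain ⟨z, hz0, hz⟩ := exists_pow_eq (card_sub_one hK) hw0 h1
  refine ⟨z, hz0, ?_⟩
  rw [hstar, ← pow_succ', hz]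

/-- Hilbert 90 for `star` -/
lemma exists_div_star_eq (hK : Nat.card K = q ^ 2) (hstar : ∀ x : K, star x = x ^ q) {a : K}
    (ha : a * star a = 1) : ∃ b : K, b ≠ 0 ∧ a = b / star b := by
  have hq := one_lt_q hK
  have ha0 : a ≠ 0 := left_ne_zero_of_mul_eq_one ha
  have h1 : a ^ (q + 1) = 1 := by rw [pow_succ', ← hstar, ha]
  obtain ⟨z, hz0, hz⟩ := exists_pow_eq (m := q + 1) (k := q - 1)
    (by rw [mul_comm]; exact card_sub_one hK) ha0 h1
  refine ⟨z⁻¹, inv_ne_zero hz0, ?_⟩
  have h2 : z ^ (q - 1) * z = z ^ q := by rw [← pow_succ, Nat.sub_add_cancel hq.le]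
  rw [star_inv₀, hstar, div_inv_eq_mul, ← h2, hz]
  field_simp

end finite

section odd

variable {K : Type u} [Field K] [Finite K] [StarRing K] {q : ℕ}

omit [Finite K] in
lemma aut_star (hstar : ∀ x : K, star x = x ^ q) (s : RingAut K) (x : K) :
    s (star x) = star (s x) := by
  rw [hstar, hstar, map_pow]

/-- (a), one element: `x` of norm `1` for `star` and for `s` is `b / s b` with `b` of norm `1` -/
lemma hilb_one (hK : Nat.card K = q ^ 2) (hstar : ∀ x : K, star x = x ^ q) {p : ℕ}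
    (hp : p.Prime) (hp2 : p ≠ 2) (s : RingAut K) (hs : s ^ p = 1) (hs1 : s ≠ 1) {x : K}
    (hx : x * star x = 1) (hxs : ∏ k ∈ range p, (s ^ k) x = 1) :
    ∃ b : K, b * star b = 1 ∧ x = b / s b := by
  obtain ⟨y, hy0, hy⟩ := hilbert90 s p hp hs hs1 x hxs
  have hx0 : x ≠ 0 := left_ne_zero_of_mul_eq_one hx
  have hsy0 : s y ≠ 0 := by simpa using hy0
  have hyst : star y ≠ 0 := by simpa using hy0
  set w := y * star y with hw
  have hw0 : w ≠ 0 := mul_ne_zero hy0 hyst
  have hwstar : star w = w := by rw [hw, star_mul', star_star, mul_comm]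
  have hsw : s w = w := by
    have h1 : (x * star x) * (s y * star (s y)) = y * star y := by
      have : star (x * s y) = star y := by rw [hy]
      rw [star_mul'] at this
      calc (x * star x) * (s y * star (s y)) = (x * s y) * (star x * star (s y)) := by ring
        _ = y * star y := by rw [this, hy]
    rw [hx, one_mul, ← aut_star hstar] at h1
    rw [hw, map_mul, h1]
  obtain ⟨z0, hz00, hz0⟩ := exists_norm_eq hK hstar hw0 hwstar
  obtain ⟨m, hm⟩ : ∃ m, p = 2 * m + 1 := by
    obtain ⟨m, hm⟩ := hp.odd_of_ne_two hp2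
    exact ⟨m, hm⟩
  set z1 := ∏ k ∈ range p, (s ^ k) z0 with hz1
  have hz10 : z1 ≠ 0 := by
    rw [hz1, Finset.prod_ne_zero_iff]
    intro k _
    exact (map_ne_zero _).2 hz00
  have hskw : ∀ k : ℕ, (s ^ k) w = w := by
    intro k
    induction k with
    | zero => rfl
    | succ k ih => rw [pow_succ, RingAut.mul_apply, hsw, ih]
  have hz1n : z1 * star z1 = w ^ p := by
    have h1 : star z1 = ∏ k ∈ range p, (s ^ k) (star z0) := by
      rw [hstar, hz1, ← Finset.prod_pow]
      refine Finset.prod_congr rfl fun k _ => ?_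
      rw [hstar, map_pow]
    rw [h1, hz1, ← Finset.prod_mul_distrib]
    have : ∀ k ∈ range p, (s ^ k) z0 * (s ^ k) (star z0) = w := by
      intro k _
      rw [← map_mul, hz0, hskw]
    rw [Finset.prod_congr rfl this, Finset.prod_const, card_range]
  have hsz1 : s z1 = z1 := by
    rw [hz1, map_prod]
    have h1 := Finset.prod_range_succ' (fun k => (s ^ k) z0) p
    have h2 := Finset.prod_range_succ (fun k => (s ^ k) z0) p
    rw [h1, hs, pow_zero] at h2
    have h3 := mul_right_cancel₀ (by simpa using hz00) h2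
    rw [← h3]
    refine Finset.prod_congr rfl fun k _ => ?_
    rw [pow_succ' s k, RingAut.mul_apply]
  have hwm : w ^ m ≠ 0 := pow_ne_zero _ hw0
  have hzz : (z1 / w ^ m) * star (z1 / w ^ m) = w := by
    rw [star_div₀, star_pow, hwstar, div_mul_div_comm, hz1n, ← pow_add, hm,
      show 2 * m + 1 = m + m + 1 by ring, pow_succ, mul_comm, mul_div_assoc,
      div_self (pow_ne_zero _ hw0), mul_one]
  have hsz : s (z1 / w ^ m) = z1 / w ^ m := by
    rw [map_div₀, map_pow, hsw, hsz1]
  set z := z1 / w ^ m with hz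
  have hzne : z ≠ 0 := div_ne_zero hz10 hwm
  refine ⟨y / z, ?_, ?_⟩
  · rw [star_div₀, div_mul_div_comm, ← hw, hzz, div_self hw0]
  · rw [map_div₀, hsz]
    have : x = y / s y := by rw [eq_div_iff hsy0, hy]
    rw [this]
    field_simp

/-- NL5 (a) -/
theorem hilb_odd (hK : Nat.card K = q ^ 2) (hstar : ∀ x : K, star x = x ^ q) {p : ℕ}
    (hp : p.Prime) (hp2 : p ≠ 2) (s : K ≃+* K) (hs : ∀ x, (s^[p]) x = x) (hs1 : s ≠ 1) {n : ℕ}
    (a : Fin n → K) (ha : ∀ i, a i * star (a i) = 1)
    (hprod : ∀ i j, ∏ k ∈ range p, (s^[k]) (a i) = ∏ k ∈ range p, (s^[k]) (a j)) :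
    ∃ (c : K) (b : Fin n → K), c * star c = 1 ∧ (∀ i, b i * star (b i) = 1) ∧
      ∀ i, a i = c * (b i / s (b i)) := by
  rcases n with _ | n
  · exact ⟨1, fun _ => 1, by simp, fun i => i.elim0, fun i => i.elim0⟩
  · have hs' : (s : RingAut K) ^ p = 1 := pow_eq_one_of_iterate s p hs
    have ha0 : ∀ i, a i ≠ 0 := fun i => left_ne_zero_of_mul_eq_one (ha i)
    have h : ∀ i, ∃ b : K, b * star b = 1 ∧ a i / a 0 = b / s b := by
      intro i
      refine hilb_one hK hstar hp hp2 s hs' hs1 ?_ ?_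
      · rw [star_div₀, div_mul_div_comm, ha, ha, div_one]
      · have : ∀ k ∈ range p, ((s : RingAut K) ^ k) (a i / a 0) = (s^[k]) (a i) / (s^[k]) (a 0) := by
          intro k _
          rw [map_div₀, coe_pow_aut, coe_pow_aut]
        rw [Finset.prod_congr rfl this, Finset.prod_div_distrib, hprod i 0, div_self]
        rw [Finset.prod_ne_zero_iff]
        intro k _
        rw [← coe_pow_aut]
        exact (map_ne_zero _).2 (ha0 0)
    choose b hb1 hb2 using h
    refine ⟨a 0, b, ha 0, hb1, fun i => ?_⟩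
    rw [← hb2, mul_div_cancel₀ _ (ha0 0)]

end odd

end Vale.Agent.P240.R2.H401
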