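import Vale.Agent.P240.R2.H401.NL5a

/-!
Automorphisms of finite fields with an involution.
-/

set_option autoImplicit false

namespace Vale.Agent.P240.R2.H401

open Finset

universe u

section

variable {K : Type u} [Field K] [StarRing K]

/-- NL5 (c): an automorphism that commutes with `star` and fixes all elements of norm `1` is trivial -/
theorem fix_of_norm_one (hns : ∃ z : K, star z ≠ z) (s : K ≃+* K)
    (hcomm : ∀ x, s (star x) = star (s x)) (h : ∀ x : K, x * star x = 1 → s x = x) (x : K) :
    s x = x := by
  -- `s y / y` is fixed by `star`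
  have h1 : ∀ y : K, y ≠ 0 → star (s y / y) = s y / y := by
    intro y hy
    have hy' : star y ≠ 0 := by simpa using hy
    have hsy : s y ≠ 0 := by simpa using hy
    have hsy' : star (s y) ≠ 0 := by simpa using hy
    have h2 : (y / star y) * star (y / star y) = 1 := by
      rw [star_div₀, star_star, div_mul_div_cancel₀ hy', div_self hy]
    have h3 := h _ h2
    rw [map_div₀, hcomm, div_eq_div_iff hsy' hy'] at h3
    rw [star_div₀, div_eq_div_iff hy' hy]
    rw [mul_comm, ← h3]
  have h4 : ∀ y : K, star y ≠ y → s y = y := by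
    intro y hy
    have hy0 : y ≠ 0 := by
      rintro rfl
      exact hy (star_zero _)
    have hy1 : y + 1 ≠ 0 := by
      intro h5
      apply hy
      have : y = -1 := eq_neg_of_add_eq_zero_left h5
      rw [this, star_neg, star_one]
    set f := s y / y with hf
    set g := s (y + 1) / (y + 1) with hg
    have hfs : star f = f := h1 y hy0
    have hgs : star g = g := h1 (y + 1) hy1
    have e1 : s y = f * y := by rw [hf, div_mul_cancel₀ _ hy0]
    have e2 : s y + 1 = g * (y + 1) := by
      rw [hg, div_mul_cancel₀ _ hy1, map_add, map_one]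
    have e3 : (f - g) * y = g - 1 := by
      rw [e1] at e2
      linear_combination e2
    by_cases hfg : f = g
    · rw [hfg, sub_self, zero_mul] at e3
      have : g = 1 := by linear_combination -e3
      rw [e1, hfg, this, one_mul]
    · exfalso
      apply hy
      have hfg' : f - g ≠ 0 := sub_ne_zero.2 hfg
      have : y = (g - 1) / (f - g) := by rw [eq_div_iff hfg', mul_comm, e3]
      rw [this, star_div₀, star_sub, star_sub, hfs, hgs, star_one]
  obtain ⟨z, hz⟩ := hns
  by_cases hx : star x = x
  · have h5 : star (x + z) ≠ x + z := by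
      rw [star_add, hx]
      exact fun h6 => hz (add_left_cancel h6)
    have h6 := h4 _ h5
    rw [map_add, h4 z hz] at h6
    exact add_right_cancel h6
  · exact h4 x hx

end

section finite

variable {K : Type u} [Field K] [Finite K]

/-- a ring automorphism as an automorphism over the prime field -/
def toGal (r : ℕ) [Fact r.Prime] [Algebra (ZMod r) K] : RingAut K →* (K ≃ₐ[ZMod r] K) where
  toFun s := AlgEquiv.ofRingEquiv (f := s) (fun x => by
    have h := RingHom.congr_fun (Subsingleton.elim ((s : K →+* K).comp (algebraMap (ZMod r) K))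
      (algebraMap (ZMod r) K)) x
    exact h)
  map_one' := rfl
  map_mul' _ _ := rfl

omit [Finite K] in
lemma toGal_injective (r : ℕ) [Fact r.Prime] [Algebra (ZMod r) K] :
    Function.Injective (toGal (K := K) r) := by
  intro s t hst
  ext x
  exact DFunLike.congr_fun hst x

lemma isCyclic_ringAut : IsCyclic (RingAut K) := by
  have := Fintype.ofFinite K
  obtain ⟨r, hr⟩ := CharP.exists K
  have hrp : r.Prime := CharP.char_is_prime K r
  have : Fact r.Prime := ⟨hrp⟩
  let := ZMod.algebra K r
  exact isCyclic_of_injective (toGal r) (toGal_injective r)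

/-- NL5 (d): automorphisms of prime order are powers of each other -/
theorem aut_pow {p : ℕ} (hp : p.Prime) (s₁ s₂ : K ≃+* K) (h₁ : (s₁ : RingAut K) ^ p = 1)
    (h₂ : (s₂ : RingAut K) ^ p = 1) (hs₁ : s₁ ≠ 1) : ∃ k : ℕ, k < p ∧
      (s₂ : RingAut K) = (s₁ : RingAut K) ^ k := by
  classical
  have := isCyclic_ringAut (K := K)
  have : Finite (RingAut K) := Finite.of_injective (fun s : RingAut K => (s : K → K))
    DFunLike.coe_injective
  have := Fintype.ofFinite (RingAut K)
  have : Fact p.Prime := ⟨hp⟩
  have hord : orderOf (s₁ : RingAut K) = p := orderOf_eq_prime h₁ hs₁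
  have hle := IsCyclic.card_pow_eq_one_le (α := RingAut K) hp.pos
  let T : Finset (RingAut K) := (Finset.range p).image (fun k => (s₁ : RingAut K) ^ k)
  have hT : T ⊆ Finset.univ.filter (fun a : RingAut K => a ^ p = 1) := by
    intro a ha
    obtain ⟨k, -, rfl⟩ := Finset.mem_image.1 ha
    simp only [Finset.mem_filter, Finset.mem_univ, true_and]
    rw [← pow_mul, mul_comm, pow_mul, h₁, one_pow]
  have hTc : T.card = p := by
    rw [Finset.card_image_of_injOn, Finset.card_range]
    intro i hi j hj hij
    have h2 := (pow_inj_mod (x := (s₁ : RingAut K))).1 hij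
    rw [hord, Nat.mod_eq_of_lt (Finset.mem_range.1 hi), Nat.mod_eq_of_lt (Finset.mem_range.1 hj)]
      at h2
    exact h2
  have hTe := Finset.eq_of_subset_of_card_le hT (by rw [hTc]; exact hle)
  have hs₂ : (s₂ : RingAut K) ∈ T := by
    rw [hTe]
    simp only [Finset.mem_filter, Finset.mem_univ, true_and]
    exact h₂
  obtain ⟨k, hk, hk'⟩ := Finset.mem_image.1 hs₂
  exact ⟨k, Finset.mem_range.1 hk, hk'.symm⟩

variable [StarRing K]

lemma exists_star_ne {q : ℕ} (hK : Nat.card K = q ^ 2) (hstar : ∀ x : K, star x = x ^ q) :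
    ∃ z : K, star z ≠ z := by
  have := Fintype.ofFinite K
  have hq := one_lt_q hK
  obtain ⟨g, hg⟩ := IsCyclic.exists_generator (α := Kˣ)
  have hord : orderOf g = q ^ 2 - 1 := by
    rw [orderOf_eq_card_of_forall_mem_zpowers hg, Nat.card_units, hK]
  refine ⟨g, fun h => ?_⟩
  rw [hstar] at h
  have h1 : g ^ (q - 1) = 1 := by
    have : g ^ (q - 1) * g = 1 * g := by
      rw [← pow_succ, Nat.sub_add_cancel hq.le, one_mul]
      ext
      simpa using h
    exact mul_right_cancel this
  have h2 := Nat.le_of_dvd (by omega) (orderOf_dvd_of_pow_eq_one h1)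
  rw [hord] at h2
  have h3 : q < q ^ 2 := by nlinarith
  omega

/-- NL5 (d), `p = 2` -/
theorem aut_eq_star {q : ℕ} (hK : Nat.card K = q ^ 2) (hstar : ∀ x : K, star x = x ^ q)
    (s : K ≃+* K) (h : (s : RingAut K) ^ 2 = 1) (hs : s ≠ 1) (x : K) : s x = star x := by
  have h1 : (starRingAut : RingAut K) ^ 2 = 1 := by
    ext y
    rw [pow_two, RingAut.mul_apply]
    exact star_star y
  have h2 : (starRingAut : RingAut K) ≠ 1 := by
    intro h3
    obtain ⟨z, hz⟩ := exists_star_ne hK hstar
    exact hz (RingEquiv.congr_fun h3 z)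
  obtain ⟨k, hk, hk'⟩ := aut_pow Nat.prime_two starRingAut s h1 h h2
  interval_cases k
  · rw [pow_zero] at hk'
    exact absurd hk' hs
  · rw [pow_one] at hk'
    rw [hk']
    rfl

/-- NL5 (c) for `|K| = q ^ 2` -/
theorem eq_one_of_norm_one {q : ℕ} (hK : Nat.card K = q ^ 2) (hstar : ∀ x : K, star x = x ^ q)
    (s : K ≃+* K) (h : ∀ x : K, x * star x = 1 → s x = x) : s = 1 := by
  ext x
  exact fix_of_norm_one (exists_star_ne hK hstar) s (fun y => aut_star hstar s y) h x

end finite

end Vale.Agent.P240.R2.H401
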