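import Vale.Agent.P240.R2.H401.X7d
import Vale.Agent.P240.R2.H112.Cn0

/-!
Groups given by Chevalley's relations, odd characteristic: connectedness of the poset of elementary
abelian `2`-subgroups, and statement X7.
-/

set_option autoImplicit false
set_option linter.all false

namespace Vale.Agent.P240.R2.H401.X7

open Subgroup Vale.Agent.P240.K Vale.Agent.P240.H195 Vale.Agent.P240.R2.H986.X
  Vale.Agent.P240.R2.H164.EX Vale.Agent.P240.R2.H112.Cn

universe u

section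
variable {ι : Type*} {F : Type*} [Field F] {L : Type*} [Group L] {C : RC ι} {x : ι → F → L}

/-- `h_i(-1)` -/
def hm (C : RC ι) (x : ι → F → L) (i : ι) : L := nn C.neg x i (-1) * (nn C.neg x i 1)⁻¹

lemma hm_act (h : CS C x) (i j : ι) (u : F) :
    hm C x i * x j u * (hm C x i)⁻¹ = x j ((-1) ^ C.pr j i * u) :=
  h.h_act i j (neg_ne_zero.2 one_ne_zero) u

lemma hm_mem (h : CS C x) (i : ι) : hm C x i ∈ TT C x := h.h_mem (neg_ne_zero.2 one_ne_zero)

lemma sq_one (n : ℤ) : ((-1 : F) ^ n) * (-1) ^ n = 1 := by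
  rw [← mul_zpow, neg_one_mul, neg_neg, one_zpow]

lemma hm_sq (h : CS C x) (hc : ∀ g : L, (∀ y, g * y = y * g) → g = 1) (i : ι) :
    hm C x i ^ 2 = 1 := by
  apply H684.XB.eq_one_of_act h hc
  intro j u
  have e1 : hm C x i ^ 2 * x j u * (hm C x i ^ 2)⁻¹ =
      hm C x i * (hm C x i * x j u * (hm C x i)⁻¹) * (hm C x i)⁻¹ := by
    rw [pow_two]; group
  rw [e1, hm_act h, hm_act h, ← mul_assoc, sq_one, one_mul]

lemma hm_ne (h : CS C x) (h2 : (2 : F) ≠ 0) {i : ι} (hi : ∃ k, Odd (C.pr k i)) :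
    hm C x i ≠ 1 := by
  intro h1
  obtain ⟨k, hk⟩ := hi
  have h3 := hm_act h i k 1
  rw [h1, one_mul, inv_one, mul_one, hk.neg_one_zpow, mul_one] at h3
  have h4 := h.x_inj h3
  apply h2
  linear_combination h4

/-- **connectedness** -/
theorem conn [Finite L] (h : CS C x) (hc : ∀ g : L, (∀ y, g * y = y * g) → g = 1)
    (h2 : (2 : F) ≠ 0) (hodd : ∀ j, C.simp j → ∃ k, Odd (C.pr k j)) (A B : Ap 2 L) :
    Relation.ReflTransGen (fun X Y => X ≤ Y ∨ Y ≤ X) A B := by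
  have : Fact (Nat.Prime 2) := ⟨Nat.prime_two⟩
  obtain ⟨a, ha⟩ := C.ex
  refine conn_of_St (hm_sq h hc a) (hm_ne h h2 (hodd a ha)) ?_ A B
  refine gen_simple h fun i hi t => ?_
  have h1 : Relation.ReflTransGen (Cr 2) (hm C x a) (hm C x i) :=
    Relation.ReflTransGen.single ⟨⟨hm_sq h hc a, hm_ne h h2 (hodd a ha)⟩,
      ⟨hm_sq h hc i, hm_ne h h2 (hodd i hi)⟩, H684.XB.T_comm h hc (hm_mem h a) (hm_mem h i)⟩
  constructor
  · refine mem_St_of h1 ?_
    have h3 := hm_act h i i t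
    rw [C.pr_self, zpow_ofNat, neg_one_sq, one_mul, mul_inv_eq_iff_eq_mul] at h3
    exact h3.symm
  · refine mem_St_of h1 ?_
    have h3 := hm_act h i (C.neg i) t
    rw [C.pr_neg, C.pr_self, zpow_neg, zpow_ofNat, neg_one_sq, inv_one, one_mul,
      mul_inv_eq_iff_eq_mul] at h3
    exact h3.symm

end

theorem stmtConn : StmtConn.{u} := fun _ _ _ _ _ _ _ _ _ _ _ _ _ h _ hc h2 hodd A B =>
  conn h hc h2 hodd A B

/-- **X7** -/
theorem stmtX7 : StmtX7.{u} := stmtX7_of stmtConn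

end Vale.Agent.P240.R2.H401.X7
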