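import Vale.Agent.P240.R2.H986.X.Stm

/-!
Literal statement X7: groups given by Chevalley's relations, the prime `2`.
-/

set_option autoImplicit false

namespace Vale.Agent.P240.R2.H401.X7

open Subgroup Vale.Agent.P240.H195 Vale.Agent.P240.R2.H986.X

universe u

open scoped Classical in
/-- **X7** (odd characteristic, elementary divisors `1, .., 1, 2` of the Cartan matrix, no
automorphisms of the diagram): few automorphisms of order `2`. -/
def StmtX7 : Prop := ∀ (ι : Type) [Finite ι] (F : Type) [Field F] [Finite F] (L : Type u) [Group L]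
  [Finite L] (r : ℕ) [Fact r.Prime] [CharP F r] (C : RC ι) (x : ι → F → L), CS C x →
  IsSimpleGroup L → (∀ g : L, (∀ y, g * y = y * g) → g = 1) → (2 : F) ≠ 0 →
  -- the Cartan matrix
  (∃ (D : ι → ι → ℤ) (Δ : Finset ι) (i₀ : ι) (ε : ι → ℤ), (∀ i, i ∈ Δ ↔ C.simp i) ∧ C.simp i₀ ∧
    ε i₀ = -1 ∧ ∀ i j, C.simp i → C.simp j →
      ∑ k ∈ Δ, D i k * C.pr j k = (if i = j then 1 else 0) - (if j = i₀ then ε i else 0)) →
  (∀ j, C.simp j → ∃ k, Odd (C.pr k j)) →
  -- permutations of the diagram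
  (∀ π : Equiv.Perm {i // C.simp i}, (∀ i j, C.pr i.1 j.1 = 0 ↔ C.pr (π i).1 (π j).1 = 0) →
    π = 1) →
  FewAut 2 L

end Vale.Agent.P240.R2.H401.X7
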