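import Vale.Agent.P240.R2.H401.DDefs

/-!
The embedding of `SOm K m` into `SD (fd m d)`, `m` odd; top cycles of `PΩ(V)` from the dimension `m`.
-/

set_option autoImplicit false
set_option linter.all false

namespace Vale.Agent.P240.R2.H401.D

open Matrix Vale.Agent.P240.R2.AS Vale.Agent.P240.R2.H38 Vale.Agent.P240.K
open Vale.Agent.P240.R2.H145.EO (B ac OD Big Ker)
open Vale.Agent.P240.R2.H938 (TC)
open Vale.Agent.P240.R2.H296.O (SOm)
open Vale.Agent.P240.R2.H487 (LocTopF)
open Vale.Agent.P240.R2.H401.E (upM upM_cc upM_cl upM_lc upM_ll ext_last upM_mul upM_one upM_inj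
  upM_map upM_diag dh dh_coe tc_mono exists_comm det_unit sm_diag)
open scoped Classical

universe u v w

noncomputable section

section
variable {K : Type u} [Field K] {m : ℕ} {d : K}

lemma upM_mulVec (A : Matrix (Fin m) (Fin m) K) (x : Fin (m + 1) → K) :
    (∀ i : Fin m, (upM A *ᵥ x) i.castSucc = (A *ᵥ fun k => x k.castSucc) i) ∧
      (upM A *ᵥ x) (Fin.last m) = x (Fin.last m) := by
  constructor
  · intro i
    rw [mulVec, dotProduct, Fin.sum_univ_castSucc]
    simp [mulVec, dotProduct]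
  · rw [mulVec, dotProduct, Fin.sum_univ_castSucc]
    simp

lemma B_fd (x y : Fin (m + 1) → K) : B (fd m d) x y =
    (fun k : Fin m => x k.castSucc) ⬝ᵥ (fun k : Fin m => y k.castSucc) +
      d * x (Fin.last m) * y (Fin.last m) := by
  rw [B, Fin.sum_univ_castSucc]
  congr 1
  · rw [dotProduct]
    refine Finset.sum_congr rfl fun i _ => ?_
    rw [fd, if_neg (Fin.castSucc_lt_last i).ne, one_mul]
  · rw [fd, if_pos rfl]

lemma B_upM {A : Matrix (Fin m) (Fin m) K} (hA : Aᵀ * A = 1) (x y : Fin (m + 1) → K) :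
    B (fd m d) (upM A *ᵥ x) (upM A *ᵥ y) = B (fd m d) x y := by
  rw [B_fd, B_fd, (upM_mulVec A x).2, (upM_mulVec A y).2]
  congr 1
  have h1 : (fun k : Fin m => (upM A *ᵥ x) k.castSucc) = A *ᵥ fun k => x k.castSucc :=
    funext fun i => (upM_mulVec A x).1 i
  have h2 : (fun k : Fin m => (upM A *ᵥ y) k.castSucc) = A *ᵥ fun k => y k.castSucc :=
    funext fun i => (upM_mulVec A y).1 i
  rw [h1, h2, dotProduct_mulVec, ← vecMul_transpose, vecMul_vecMul, hA, vecMul_one]

variable [StarRing K]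

lemma star_tr (hs : ∀ x : K, star x = x) (A : Matrix (Fin m) (Fin m) K) : star A = Aᵀ := by
  ext i j
  rw [star_apply, transpose_apply, hs]

/-- the embedding of the orthogonal group -/
def upD (hs : ∀ x : K, star x = x) (d : K) : GU K m →* ↥(OD (fd m d)) where
  toFun g := ⟨⟨upM g.1, upM (star g.1), by rw [← upM_mul, gu_star, upM_one],
    by rw [← upM_mul, star_gu, upM_one]⟩, fun x y => B_upM (by
      rw [← star_tr hs]
      exact star_gu g) x y⟩
  map_one' := by
    apply Subtype.ext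
    apply Units.ext
    exact upM_one
  map_mul' a b := by
    apply Subtype.ext
    apply Units.ext
    exact upM_mul _ _

lemma upD_coe (hs : ∀ x : K, star x = x) (d : K) (g : GU K m) : (upD hs d g).1.1 = upM g.1 := rfl

lemma mk_comm_of {n : ℕ} {a : Fin n → K} {g : ↥(OD a)} (h : g ∈ commutator ↥(OD a)) :
    g ∈ SD0 a := by
  show (QuotientGroup.mk' (Subgroup.center ↥(OD a))) g ∈ commutator (POD a)
  have h1 : (commutator ↥(OD a)).map (QuotientGroup.mk' (Subgroup.center ↥(OD a))) ≤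
      commutator (POD a) := by
    rw [commutator_def, commutator_def, Subgroup.map_commutator]
    exact Subgroup.commutator_mono le_top le_top
  exact h1 ⟨g, h, rfl⟩

lemma dh_scal (hs : ∀ x : K, star x = x) (hm : Odd m) {g : GU K m} {a : K}
    (h : g.1 = a • (1 : Matrix (Fin m) (Fin m) K)) : dh g = 1 := by
  have ha : a * a = 1 := by
    have h1 := gu_star g
    rw [h, star_smul, star_one, smul_mul_smul_comm, mul_one, hs] at h1
    have hm0 : 0 < m := hm.pos
    have h2 := congrFun (congrFun h1 ⟨0, hm0⟩) ⟨0, hm0⟩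
    rw [Matrix.smul_apply, one_apply_eq, smul_eq_mul, mul_one] at h2
    exact h2
  apply Subtype.ext
  rw [dh_coe, h]
  have h2 : (a • (1 : Matrix (Fin m) (Fin m) K)).det = a := by
    rw [det_smul, det_one, mul_one, Fintype.card_fin]
    obtain ⟨k, rfl⟩ := hm
    rw [pow_succ, pow_mul, pow_two, ha, one_pow, one_mul]
  rw [h2, smul_smul, ha, one_smul]
  rfl

variable [Fintype K]

lemma two_ne (hE : DNum K m d) : (2 : K) ≠ 0 := H221.two_ne hE.odd

lemma neg_ne (hE : DNum K m d) : (-1 : K) ≠ 1 := by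
  intro h
  apply two_ne hE
  linear_combination -h

lemma sgood (hs : ∀ x : K, star x = x) (hE : DNum K m d) : SGood 2 (-1 : K) (-1) (SOm K m) :=
  H275.sgood_Om hs hE.odd hE.card hE.modd (by have := hE.hm; omega)

lemma iod_mem (hs : ∀ x : K, star x = x) (hE : DNum K m d) {g : GU K m} (h : g ∈ SOm K m) :
    upD hs d (dh g) ∈ SD0 (fd m d) := by
  obtain ⟨c, hc, z, hz, rfl⟩ := exists_comm h
  have hm2 : (-1 : K) * star (-1) = 1 := by rw [hs]; ring
  obtain ⟨a, ha⟩ := (H296.mem_center_iff (neg_ne hE) hm2 z).1 hz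
  rw [map_mul, dh_scal hs hE.modd ha, mul_one]
  apply mk_comm_of
  have h3 : (commutator (GU K m)).map ((upD hs d).comp dh) ≤ commutator ↥(OD (fd m d)) := by
    rw [commutator_def, commutator_def, Subgroup.map_commutator]
    exact Subgroup.commutator_mono le_top le_top
  exact h3 ⟨c, hc, rfl⟩

/-- the embedding `SOm K m → SD` -/
def iod (hs : ∀ x : K, star x = x) (hE : DNum K m d) : SOm K m →* SD (fd m d) where
  toFun g := ⟨(upD hs d (dh g.1)).1, ⟨_, iod_mem hs hE g.2, rfl⟩⟩
  map_one' := by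
    apply Subtype.ext
    show (upD hs d (dh (1 : GU K m))).1 = 1
    rw [map_one, map_one]
    rfl
  map_mul' a b := by
    apply Subtype.ext
    show (upD hs d (dh (a.1 * b.1))).1 = (upD hs d (dh a.1)).1 * (upD hs d (dh b.1)).1
    rw [map_mul, map_mul]
    rfl

lemma iod_coe (hs : ∀ x : K, star x = x) (hE : DNum K m d) (g : SOm K m) :
    (iod hs hE g).1.1 = upM ((mx g).det • mx g) := rfl

lemma iod_cj (hs : ∀ x : K, star x = x) (hE : DNum K m d)
    (hS : SGood 2 (-1 : K) (-1) (SOm K m)) (u : GU K m) (g : SOm K m) :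
    iod hs hE (cjS hS u g) = cjD (upD hs d u) (iod hs hE g) := by
  apply Subtype.ext
  rw [cjD_coe]
  have h1 : (upD hs d u).1 * (iod hs hE g).1 * (upD hs d u).1⁻¹ =
      (upD hs d u * upD hs d (dh g.1) * (upD hs d u)⁻¹).1 := rfl
  rw [h1, ← map_mul, ← map_inv, ← map_mul]
  show (upD hs d (dh (u * g.1 * u⁻¹))).1 = _
  have h2 : dh (u * g.1 * u⁻¹) = u * dh g.1 * u⁻¹ := by
    apply Subtype.ext
    show (u.1 * g.1.1 * star u.1).det • (u.1 * g.1.1 * star u.1) = u.1 * (g.1.1.det • g.1.1) * star u.1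
    rw [H938.det_conj, mul_smul_comm, smul_mul_assoc]
  rw [h2]

variable {G : Type v} [Group G]

lemma iod_ker (hs : ∀ x : K, star x = x) (hE : DNum K m d) {ε : SD (fd m d) →* G}
    (hker : ∀ g : SD (fd m d), ε g = 1 ↔ ∃ l : K, g.1.1 = l • (1 : Matrix (Fin (m + 1)) (Fin (m + 1)) K))
    (g : SOm K m) : (ε.comp (iod hs hE)) g = 1 ↔
      ∃ a : K, mx g = a • (1 : Matrix (Fin m) (Fin m) K) := by
  rw [MonoidHom.comp_apply, hker, iod_coe]
  constructor
  · rintro ⟨a, ha⟩
    have h1 : a = 1 := by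
      have := congrFun (congrFun ha (Fin.last m)) (Fin.last m)
      rw [upM_ll, Matrix.smul_apply, one_apply_eq, smul_eq_mul, mul_one] at this
      exact this.symm
    rw [h1, one_smul, ← upM_one] at ha
    have h2 := upM_inj ha
    have h3 : (mx g).det * star (mx g).det = 1 := det_unit g.1
    refine ⟨star (mx g).det, ?_⟩
    rw [← h2, smul_smul, mul_comm, h3, one_smul]
  · rintro ⟨a, ha⟩
    have h1 : dh g.1 = 1 := dh_scal hs hE.modd ha
    refine ⟨1, ?_⟩
    have h2 := congrArg Subtype.val h1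
    rw [one_smul, ← upM_one]
    congr 1

/-- the elements of the prefixes of the standard frame are diagonal with entries `±1` -/
lemma sM_diag {u v : List (Ln K m)} (h : w0 K m = u ++ v) :
    ∃ c : Fin m → K, (∀ i, c i ^ 2 = 1) ∧ sM (-1 : K) (-1) u = diagonal c := by
  have ho : Orth u := by
    have := E1_orth (K := K) (n := m)
    rw [h] at this
    exact (List.pairwise_append.1 this).1
  obtain ⟨e, he⟩ := sm_diag (u := u) fun P hP => by rw [h]; simp [hP]
  have h1 := (H221.orth_cond ho).2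
  rw [he, diagonal_mul_diagonal] at h1
  have h2 : ∀ i, e i * e i = e i := fun i => congrFun (diagonal_injective h1) i
  refine ⟨fun i => (-1) ^ u.length * (1 - 2 * e i), fun i => ?_, ?_⟩
  · have h3 : ((-1 : K) ^ u.length * (1 - 2 * e i)) ^ 2 =
        ((-1) ^ u.length * (-1) ^ u.length) * (1 - 4 * e i + 4 * (e i * e i)) := by ring
    rw [h3, h2, ← mul_pow]
    ring
  · rw [sM, he]
    ext i j
    by_cases hij : i = j
    · subst hij
      simp only [Matrix.smul_apply, Matrix.add_apply, diagonal_apply_eq, one_apply_eq, smul_eq_mul]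
      ring
    · simp [hij]

lemma De_le_Ad (hs : ∀ x : K, star x = x) (hE : DNum K m d) (ε : SD (fd m d) →* G) :
    De (eS (SOm K m) (-1) (-1) (ε.comp (iod hs hE))) (w0 K m) ≤ Ad ε 1 := by
  rw [De, Subgroup.closure_le]
  rintro _ ⟨u, v, huv, rfl⟩
  have ho : Orth u := by
    have := E1_orth (K := K) (n := m)
    rw [huv] at this
    exact (List.pairwise_append.1 this).1
  obtain ⟨c, hc, hc'⟩ := sM_diag huv
  have hmx : mx (sS (SOm K m) (-1 : K) (-1) u) = diagonal c := by
    rw [mx_sS (sgood hs hE) ho, hc']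
  refine ⟨iod hs hE (sS (SOm K m) (-1) (-1) u), ?_, ?_⟩
  · show iod hs hE (sS (SOm K m) (-1) (-1) u) ∈ TS (fd m d)
    rw [mem_TS]
    have hdet : (∏ i, c i) ^ 2 = 1 := by
      rw [← Finset.prod_pow]
      exact Finset.prod_eq_one fun i _ => hc i
    refine ⟨Fin.lastCases (motive := fun _ => K) 1 (fun i => (∏ k, c k) * c i), fun i => ?_, ?_⟩
    · refine Fin.lastCases ?_ (fun i => ?_) i
      · simp
      · rw [Fin.lastCases_castSucc, mul_pow, hdet, hc, one_mul]
    · rw [iod_coe, hmx, det_diagonal, ← diagonal_smul, upM_diag]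
      rfl
  · show ε (cjD 1 (iod hs hE (sS (SOm K m) (-1) (-1) u))) = _
    rw [cjD_one]
    rfl

/-- the elementary abelian groups of the small frames are of the form `Ad` -/
lemma De_eq [Finite G] (hs : ∀ x : K, star x = x) (hE : DNum K m d) {L : Subgroup G}
    {ε : SD (fd m d) →* G} (hε : DHom L ε)
    (hcard : ∀ u : ↥(OD (fd m d)), Nat.card (Ad ε u) = 2 ^ (m - 1)) {w : List (Ln K m)}
    (hw : w ∈ Fr K m) :
    ∃ u, De (eS (SOm K m) (-1) (-1) (ε.comp (iod hs hE))) w = Ad ε u := by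
  have hS := sgood hs hE
  have hc := comb_eS hS (iod_ker hs hE hε.ker)
  obtain ⟨u', rfl⟩ := exists_lnU hw
  refine ⟨upD hs d u', ?_⟩
  have h1 : (ε.comp (iod hs hE)).comp (cjS hS u') =
      (ε.comp (cjD (upD hs d u'))).comp (iod hs hE) := by
    ext h
    show ε (iod hs hE (cjS hS u' h)) = ε (cjD (upD hs d u') (iod hs hE h))
    rw [iod_cj]
  have h2 := De_map hS (ε.comp (iod hs hE)) u' (E1_orth (K := K) (n := m))
  rw [h1] at h2
  have h3 := De_le_Ad hs hE (ε.comp (cjD (upD hs d u')))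
  rw [h2] at h3
  have h4 : Ad (ε.comp (cjD (upD hs d u'))) 1 = Ad ε (upD hs d u') := by
    rw [Ad, Ad]
    congr 1
    ext h
    show ε (cjD (upD hs d u') (cjD 1 h)) = _
    rw [cjD_one]
    rfl
  rw [h4] at h3
  refine Subgroup.eq_of_le_of_card_ge h3 ?_
  rw [hcard]
  have h5 : Nat.card (De (eS (SOm K m) (-1) (-1) (ε.comp (iod hs hE))) ((w0 K m).map (lnU u'))) =
      2 ^ (m - 1) := hc.card _ hw
  rw [h5]

variable [Finite G]

/-- the subgroup of dimension `m` -/
abbrev Lm (hs : ∀ x : K, star x = x) (hE : DNum K m d) (ε : SD (fd m d) →* G) : Subgroup G :=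
  (ε.comp (iod hs hE)).range

lemma Lm_le (hs : ∀ x : K, star x = x) (hE : DNum K m d) {L : Subgroup G}
    {ε : SD (fd m d) →* G} (hε : DHom L ε) : Lm hs hE ε ≤ L := by
  rintro _ ⟨h, rfl⟩
  rw [← hε.range]
  exact ⟨_, rfl⟩

lemma top1 (𝕜 : Type w) [Field 𝕜] (hs : ∀ x : K, star x = x) (hE : DNum K m d) {L : Subgroup G}
    {ε : SD (fd m d) →* G}
    (hε : DHom L ε) (hcard : ∀ u : ↥(OD (fd m d)), Nat.card (Ad ε u) = 2 ^ (m - 1))
    {H : Subgroup G} (hH : Lm hs hE ε ≤ H) :
    ∃ u, Ad ε u ≤ Lm hs hE ε ∧ TC 𝕜 2 H (Ad ε u) := by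
  have hS := sgood hs hE
  have hc := comb_eS hS (iod_ker hs hE hε.ker)
  have hm := hE.hm
  obtain ⟨w, hw, h1⟩ := H945.top_of_comb (by omega) hc
    (H281.t_pos_triv hs (two_ne hE) hE.card (by omega)) 𝕜 H (fun u v _ => hH ⟨_, rfl⟩)
  obtain ⟨u, hu⟩ := De_eq hs hE hε hcard hw
  refine ⟨u, ?_, ?_⟩
  · rw [← hu]
    exact De_le _ rfl w
  · rw [← hu]
    exact h1

/-- the last reflection commutes with the small group -/
lemma comm_Lm (hs : ∀ x : K, star x = x) (hE : DNum K m d) {ε : SD (fd m d) →* G} {e : G}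
    {s : ↥(OD (fd m d))} (hs1 : s.1.1 = diagonal (fun i => if i = Fin.last m then -1 else 1))
    (he : ∀ h : SD (fd m d), e * ε h * e⁻¹ = ε (cjD s h)) :
    ∀ y ∈ Lm hs hE ε, e * y = y * e := by
  rintro _ ⟨h, rfl⟩
  have h1 := he (iod hs hE h)
  have h2 : cjD s (iod hs hE h) = iod hs hE h := by
    apply Subtype.ext
    rw [cjD_coe, mul_inv_eq_iff_eq_mul]
    apply Units.ext
    show s.1.1 * (iod hs hE h).1.1 = (iod hs hE h).1.1 * s.1.1
    rw [hs1, iod_coe]
    refine ext_last (fun i j => ?_) (fun i => ?_) (fun j => ?_) ?_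
    · rw [mul_diagonal, diagonal_mul]
      simp [(Fin.castSucc_lt_last _).ne]
    · rw [mul_diagonal, diagonal_mul]
      simp [(Fin.castSucc_lt_last _).ne]
    · rw [mul_diagonal, diagonal_mul]
      simp [(Fin.castSucc_lt_last _).ne]
    · rw [mul_diagonal, diagonal_mul]
      simp
  rw [h2, mul_inv_eq_iff_eq_mul] at h1
  exact h1

end

end

end Vale.Agent.P240.R2.H401.D
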