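import Vale.Agent.P240.R2.H401.D1

/-!
The extension of a homomorphism by an element of order `2`; the frames of `V` inside `K'^n`.
-/

set_option autoImplicit false
set_option linter.all false

namespace Vale.Agent.P240.R2.H401.D

open Matrix Vale.Agent.P240.R2.AS Vale.Agent.P240.R2.H38 Vale.Agent.P240.K
open Vale.Agent.P240.R2.H145.EO (B ac OD Big Ker)
open Vale.Agent.P240.R2.H938 (TC)
open scoped Classical

universe u v w

noncomputable section

section ext
variable {Γ : Type u} [Group Γ] {G : Type v} [Group G]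

/-- `N ∪ N s` -/
def S1o (N : Subgroup Γ) (hN : N.Normal) (s : Γ) (hss : s * s = 1) : Subgroup Γ where
  carrier := {g | g ∈ N ∨ g * s ∈ N}
  mul_mem' := by
    have hs' : s⁻¹ = s := inv_eq_of_mul_eq_one_left hss
    have hc : ∀ n ∈ N, s * n * s ∈ N := by
      intro n hn
      have := hN.conj_mem n hn s
      rwa [hs'] at this
    rintro g h (hg | hg) (hh | hh)
    · exact Or.inl (N.mul_mem hg hh)
    · right
      have : g * h * s = g * (h * s) := by group
      rw [this]
      exact N.mul_mem hg hh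
    · right
      have : g * h * s = (g * s) * (s * h * s) := by
        calc g * h * s = g * 1 * h * s := by rw [mul_one]
          _ = g * (s * s) * h * s := by rw [hss]
          _ = _ := by group
      rw [this]
      exact N.mul_mem hg (hc h hh)
    · left
      have : g * h = (g * s) * (s * (h * s) * s) := by
        calc g * h = g * 1 * h * 1 := by rw [mul_one, mul_one]
          _ = g * (s * s) * h * (s * s) := by rw [hss]
          _ = _ := by group
      rw [this]
      exact N.mul_mem hg (hc _ hh)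
  one_mem' := Or.inl N.one_mem
  inv_mem' := by
    have hs' : s⁻¹ = s := inv_eq_of_mul_eq_one_left hss
    rintro g (hg | hg)
    · exact Or.inl (N.inv_mem hg)
    · right
      have h1 := hN.conj_mem _ (N.inv_mem hg) s
      have h2 : s * (g * s)⁻¹ * s⁻¹ = g⁻¹ * s := by
        rw [_root_.mul_inv_rev, hs']
        calc s * (s * g⁻¹) * s = (s * s) * g⁻¹ * s := by group
          _ = g⁻¹ * s := by rw [hss, one_mul]
      rwa [h2] at h1

variable {N : Subgroup Γ} {hN : N.Normal} {s : Γ} {hss : s * s = 1}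

lemma mem_S1o {g : Γ} : g ∈ S1o N hN s hss ↔ g ∈ N ∨ g * s ∈ N := Iff.rfl

lemma s_mem : s ∈ S1o N hN s hss := Or.inr (by rw [hss]; exact N.one_mem)

lemma N_le : N ≤ S1o N hN s hss := fun _ h => Or.inl h

/-- the extension of the homomorphism -/
theorem ext_hom (hsN : s ∉ N) (ε : N →* G) (e : G) (he : e * e = 1)
    (hact : ∀ n n' : N, n'.1 = s * n.1 * s⁻¹ → e * ε n * e⁻¹ = ε n') :
    ∃ ε' : S1o N hN s hss →* G, (∀ (g : S1o N hN s hss) (h : g.1 ∈ N), ε' g = ε ⟨g.1, h⟩) ∧
      (∀ (g : S1o N hN s hss) (h : g.1 * s ∈ N), ε' g = ε ⟨g.1 * s, h⟩ * e) := by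
  have hs' : s⁻¹ = s := inv_eq_of_mul_eq_one_left hss
  have he' : e⁻¹ = e := inv_eq_of_mul_eq_one_left he
  have hex : ∀ g : Γ, g ∈ N → g * s ∉ N := by
    intro g hg h
    apply hsN
    have : s = g⁻¹ * (g * s) := by group
    rw [this]
    exact N.mul_mem (N.inv_mem hg) h
  have hor : ∀ g : S1o N hN s hss, g.1 ∉ N → g.1 * s ∈ N := fun g h => g.2.resolve_left h
  let f : S1o N hN s hss → G := fun g =>
    if h : g.1 ∈ N then ε ⟨g.1, h⟩ else ε ⟨g.1 * s, hor g h⟩ * e
  have f1 : ∀ (g : S1o N hN s hss) (h : g.1 ∈ N), f g = ε ⟨g.1, h⟩ := fun g h => dif_pos h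
  have f2 : ∀ (g : S1o N hN s hss) (h : g.1 * s ∈ N), f g = ε ⟨g.1 * s, h⟩ * e := by
    intro g h
    have h0 : g.1 ∉ N := fun h1 => hex _ h1 h
    exact dif_neg h0
  have hmul : ∀ g h, f (g * h) = f g * f h := by
    intro g h
    rcases g.2 with hg | hg <;> rcases h.2 with hh | hh
    · have h1 : (g * h).1 ∈ N := N.mul_mem hg hh
      rw [f1 _ h1, f1 _ hg, f1 _ hh, ← map_mul]
      rfl
    · have h1 : (g * h).1 * s ∈ N := by
        have : (g * h).1 * s = g.1 * (h.1 * s) := by
          show g.1 * h.1 * s = _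
          group
        rw [this]
        exact N.mul_mem hg hh
      rw [f2 _ h1, f1 _ hg, f2 _ hh, ← mul_assoc, ← map_mul]
      congr 2
      apply Subtype.ext
      show g.1 * h.1 * s = g.1 * (h.1 * s)
      group
    · have h2 : s * h.1 * s⁻¹ ∈ N := hN.conj_mem _ hh s
      have h1 : (g * h).1 * s ∈ N := by
        have : (g * h).1 * s = (g.1 * s) * (s * h.1 * s⁻¹) := by
          show g.1 * h.1 * s = _
          rw [hs']
          calc g.1 * h.1 * s = g.1 * 1 * h.1 * s := by rw [mul_one]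
            _ = g.1 * (s * s) * h.1 * s := by rw [hss]
            _ = _ := by group
        rw [this]
        exact N.mul_mem hg h2
      rw [f2 _ h1, f2 _ hg, f1 _ hh]
      have h3 := hact ⟨h.1, hh⟩ ⟨_, h2⟩ rfl
      have h4 : (⟨(g * h).1 * s, h1⟩ : N) = ⟨g.1 * s, hg⟩ * ⟨s * h.1 * s⁻¹, h2⟩ := by
        apply Subtype.ext
        show g.1 * h.1 * s = (g.1 * s) * (s * h.1 * s⁻¹)
        rw [hs']
        calc g.1 * h.1 * s = g.1 * 1 * h.1 * s := by rw [mul_one]
          _ = g.1 * (s * s) * h.1 * s := by rw [hss]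
          _ = _ := by group
      rw [h4, map_mul, ← h3]
      group
    · have h2 : s * (h.1 * s) * s⁻¹ ∈ N := hN.conj_mem _ hh s
      have h1 : (g * h).1 ∈ N := by
        have : (g * h).1 = (g.1 * s) * (s * (h.1 * s) * s⁻¹) := by
          show g.1 * h.1 = _
          rw [hs']
          calc g.1 * h.1 = g.1 * 1 * h.1 * 1 := by rw [mul_one, mul_one]
            _ = g.1 * (s * s) * h.1 * (s * s) := by rw [hss]
            _ = _ := by group
        rw [this]
        exact N.mul_mem hg h2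
      rw [f1 _ h1, f2 _ hg, f2 _ hh]
      have h3 := hact ⟨h.1 * s, hh⟩ ⟨_, h2⟩ rfl
      have h4 : (⟨(g * h).1, h1⟩ : N) = ⟨g.1 * s, hg⟩ * ⟨s * (h.1 * s) * s⁻¹, h2⟩ := by
        apply Subtype.ext
        show g.1 * h.1 = (g.1 * s) * (s * (h.1 * s) * s⁻¹)
        rw [hs']
        calc g.1 * h.1 = g.1 * 1 * h.1 * 1 := by rw [mul_one, mul_one]
          _ = g.1 * (s * s) * h.1 * (s * s) := by rw [hss]
          _ = _ := by group
      rw [h4, map_mul, ← h3, he']
      group
  refine ⟨⟨⟨f, ?_⟩, hmul⟩, f1, f2⟩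
  rw [f1 1 N.one_mem]
  exact map_one ε

end ext

section frames
variable {K : Type u} [Field K] {K' : Type u} [Field K'] [StarRing K'] [Fintype K'] {m : ℕ}
variable {j : K →+* K'} {d : K} {δ : K'}

lemma FA_sub : FA (m := m) j d δ ⊆ Fr K' (m + 1) := Finset.filter_subset _ _

lemma FB_sub : FB (m := m) j d δ ⊆ FA (m := m) j d δ := by
  intro w hw
  rw [FB, Finset.mem_filter] at hw
  obtain ⟨h1, v, P, rfl, h2, h3⟩ := hw
  rw [FA, Finset.mem_filter]
  exact ⟨h1, v, P, [], rfl, h2, by simpa using h3⟩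

lemma FA_perm : ∀ w ∈ FA (m := m) j d δ, ∀ w', w.Perm w' → w' ∈ FA (m := m) j d δ := by
  intro w hw w' hp
  rw [FA, Finset.mem_filter] at hw ⊢
  obtain ⟨h1, v, P, v', rfl, h2, h3⟩ := hw
  refine ⟨?_, ?_⟩
  · rw [mem_Fr] at h1 ⊢
    exact ⟨by rw [← hp.length_eq]; exact h1.1, H938.orth_perm hp h1.2⟩
  · have hP : P ∈ w' := hp.mem_iff.1 (by simp)
    obtain ⟨x, y, rfl⟩ := List.append_of_mem hP
    refine ⟨x, P, y, rfl, h2, ?_⟩
    have h4 : (P :: (v ++ v')).Perm (P :: (x ++ y)) :=
      (List.perm_middle.symm.trans hp).trans List.perm_middle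
    have h5 := h4.cons_inv
    intro Q hQ
    exact h3 Q (h5.mem_iff.2 hQ)

lemma FB_last (h0 : ∀ P : Ln K' (m + 1), LS j d δ P → ¬ LN j d δ P) :
    ∀ (w : List (Ln K' (m + 1))) (x : Ln K' (m + 1)), w ++ [x] ∈ FB (m := m) j d δ →
      LN j d δ x ∧ ∀ y ∈ w, ¬ LN j d δ y := by
  intro w x hw
  rw [FB, Finset.mem_filter] at hw
  obtain ⟨-, v, P, h1, h2, h3⟩ := hw
  obtain ⟨rfl, h4⟩ := List.append_inj' h1 rfl
  simp only [List.cons.injEq, and_true] at h4
  subst h4
  exact ⟨h2, fun y hy => h0 y (h3 y hy)⟩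

end frames

end

end Vale.Agent.P240.R2.H401.D
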