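import Vale.Agent.P240.R2.H401.D3
import Vale.Agent.P240.R2.H715.SpE

/-!
The top cycle of `PΩ(V)⟨r⟩`, nonsquare discriminant, `r` a reflection.
-/

set_option autoImplicit false
set_option linter.all false

namespace Vale.Agent.P240.R2.H401.D

open Matrix Vale.Agent.P240.R2.AS Vale.Agent.P240.R2.H38 Vale.Agent.P240.K
open Vale.Agent.P240.R2.H145.EO (B ac OD Big Ker)
open Vale.Agent.P240.R2.H938 (TC)
open scoped Classical

universe u v w

noncomputable section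

/-- the words of standard letters -/
lemma sM_word {K K' : Type u} [Field K] [Field K'] [StarRing K'] [Fintype K'] {n : ℕ} (j : K →+* K')
    {u : List (Ln K' n)} (hu : ∀ P ∈ u, P ∈ w0 K' n) (ho : Orth u) :
    ∃ c : Fin n → K, (∀ i, c i ^ 2 = 1) ∧ sM (-1 : K') 1 u = diagonal (fun i => j (c i)) := by
  obtain ⟨e, he⟩ := E.sm_diag (u := u) hu
  have h1 := (H221.orth_cond ho).2
  rw [he, diagonal_mul_diagonal] at h1
  have h2 : ∀ i, e i = 0 ∨ e i = 1 := fun i => by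
    have h3 : e i * e i = e i := congrFun (diagonal_injective h1) i
    rcases eq_or_ne (e i) 0 with h | h
    · exact Or.inl h
    · right
      have h4 : e i * e i = e i * 1 := by rw [h3, mul_one]
      exact mul_left_cancel₀ h h4
  refine ⟨fun i => if e i = 0 then 1 else -1, fun i => ?_, ?_⟩
  · by_cases h : e i = 0 <;> simp [h]
  · rw [H938.sM_one, he]
    ext i k
    by_cases hik : i = k
    · subst hik
      simp only [Matrix.smul_apply, Matrix.add_apply, diagonal_apply_eq, one_apply_eq, smul_eq_mul]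
      rcases h2 i with h | h
      · rw [h]; simp
      · rw [h]
        simp
        try ring
    · simp [hik]

section
variable {K : Type u} [Field K] {n : ℕ} {a : Fin n → K}

lemma mk_comm_of' {x : ↥(OD a)} (h : x ∈ commutator ↥(OD a)) : x ∈ SD0 a := by
  show QuotientGroup.mk' (Subgroup.center ↥(OD a)) x ∈ commutator (POD a)
  have h1 := Subgroup.mem_map_of_mem (QuotientGroup.mk' (Subgroup.center ↥(OD a))) h
  rw [commutator_def, Subgroup.map_commutator] at h1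
  exact Subgroup.commutator_mono le_top le_top h1

/-- the same element, as an element of `GL` -/
def iotaD (a : Fin n → K) : SD0 a →* SD a where
  toFun h := ⟨h.1.1, ⟨h.1, h.2, rfl⟩⟩
  map_one' := rfl
  map_mul' _ _ := rfl

lemma conj_S1o {s : ↥(OD a)} {hss : s * s = 1} (u : ↥(OD a)) {g : ↥(OD a)}
    (hg : g ∈ S1o (SD0 a) (SD0_normal a) s hss) :
    u * g * u⁻¹ ∈ S1o (SD0 a) (SD0_normal a) s hss := by
  rcases hg with hg | hg
  · exact Or.inl ((SD0_normal a).conj_mem g hg u)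
  · right
    have h1 : u * g * u⁻¹ * s = (u * (g * s) * u⁻¹) * (u * s⁻¹ * u⁻¹ * s⁻¹⁻¹) := by group
    rw [h1]
    refine (SD0 a).mul_mem ((SD0_normal a).conj_mem _ hg u) (mk_comm_of' ?_)
    exact Subgroup.commutator_mem_commutator (Subgroup.mem_top u) (Subgroup.mem_top s⁻¹)

lemma comm_SD0 (u s : ↥(OD a)) : u * s * u⁻¹ * s⁻¹ ∈ SD0 a :=
  mk_comm_of' (Subgroup.commutator_mem_commutator (Subgroup.mem_top u) (Subgroup.mem_top s))

lemma SD0_iff {h : ↥(OD a)} : h ∈ SD0 a ↔ h.1 ∈ SD a := by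
  constructor
  · exact fun hh => ⟨h, hh, rfl⟩
  · rintro ⟨h', hh, he⟩
    rwa [← Subtype.ext he]

variable {G : Type v} [Group G] {s : ↥(OD a)} {hss : s * s = 1} {ε : SD a →* G}
  {ε1 : S1o (SD0 a) (SD0_normal a) s hss →* G}

lemma add_mem (k1 : ∀ (g : S1o (SD0 a) (SD0_normal a) s hss) (h : g.1 ∈ SD0 a),
      ε1 g = (ε.comp (iotaD a)) ⟨g.1, h⟩) (u0 : ↥(OD a)) {t : ↥(OD a)} (ht : t ∈ SD0 a)
    {c : Fin n → K} (hc1 : ∀ i, c i ^ 2 = 1) (hc2 : t.1.1 = diagonal c)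
    (hm : u0 * t * u0⁻¹ ∈ S1o (SD0 a) (SD0_normal a) s hss) :
    ε1 ⟨u0 * t * u0⁻¹, hm⟩ ∈ Ad ε u0 := by
  have h1 : u0 * t * u0⁻¹ ∈ SD0 a := (SD0_normal a).conj_mem t ht u0
  rw [k1 _ h1]
  exact ⟨⟨t.1, ⟨t, ht, rfl⟩⟩, ⟨c, hc1, hc2⟩, rfl⟩

lemma comm_aux (k1 : ∀ (g : S1o (SD0 a) (SD0_normal a) s hss) (h : g.1 ∈ SD0 a),
      ε1 g = (ε.comp (iotaD a)) ⟨g.1, h⟩) (u0 : ↥(OD a)) {r : Fin n → K}
    (hs1 : s.1.1 = diagonal r)
    (hm : u0 * s * u0⁻¹ ∈ S1o (SD0 a) (SD0_normal a) s hss) :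
    ∀ x ∈ Ad ε u0, (ε1 ⟨u0 * s * u0⁻¹, hm⟩) * x = x * (ε1 ⟨u0 * s * u0⁻¹, hm⟩) := by
  intro x hx
  obtain ⟨t, ⟨c, hc1, hc2⟩, hx⟩ := hx
  obtain ⟨t', ht', ht''⟩ := t.2
  have hct : t'.1.1 = diagonal c := by
    rw [← hc2]
    exact congrArg Units.val ht''
  have h1 : u0 * t' * u0⁻¹ ∈ SD0 a := (SD0_normal a).conj_mem t' ht' u0
  have h0 : t = iotaD a ⟨t', ht'⟩ := Subtype.ext ht''.symm
  have h2 : x = ε1 ⟨u0 * t' * u0⁻¹, Or.inl h1⟩ := by
    rw [k1 _ h1, ← hx, h0]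
    rfl
  have h3 : s * t' = t' * s := by
    apply Subtype.ext
    apply Units.ext
    show s.1.1 * t'.1.1 = t'.1.1 * s.1.1
    rw [hs1, hct, diagonal_mul_diagonal, diagonal_mul_diagonal]
    congr 1
    funext i
    exact mul_comm _ _
  have h4 : (u0 * s * u0⁻¹) * (u0 * t' * u0⁻¹) = (u0 * t' * u0⁻¹) * (u0 * s * u0⁻¹) := by
    calc (u0 * s * u0⁻¹) * (u0 * t' * u0⁻¹) = u0 * (s * t') * u0⁻¹ := by group
      _ = u0 * (t' * s) * u0⁻¹ := by rw [h3]
      _ = _ := by group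
  have h5 : (⟨u0 * s * u0⁻¹, hm⟩ : S1o (SD0 a) (SD0_normal a) s hss) *
      ⟨u0 * t' * u0⁻¹, Or.inl h1⟩ = ⟨u0 * t' * u0⁻¹, Or.inl h1⟩ * ⟨u0 * s * u0⁻¹, hm⟩ :=
    Subtype.ext h4
  rw [h2, ← map_mul, ← map_mul, h5]

lemma word_mem (k1 : ∀ (g : S1o (SD0 a) (SD0_normal a) s hss) (h : g.1 ∈ SD0 a),
      ε1 g = (ε.comp (iotaD a)) ⟨g.1, h⟩) (u0 : ↥(OD a)) {r : Fin n → K}
    (hs1 : s.1.1 = diagonal r) (hr : ∀ i, r i ^ 2 = 1)
    (hm : u0 * s * u0⁻¹ ∈ S1o (SD0 a) (SD0_normal a) s hss) {h : ↥(OD a)}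
    (hh : u0 * h * u0⁻¹ ∈ S1o (SD0 a) (SD0_normal a) s hss) {c : Fin n → K}
    (hc1 : ∀ i, c i ^ 2 = 1) (hc2 : h.1.1 = diagonal c) (hor : h ∈ SD0 a ∨ h * s ∈ SD0 a) :
    ε1 ⟨u0 * h * u0⁻¹, hh⟩ ∈ Ad ε u0 ⊔ Subgroup.zpowers (ε1 ⟨u0 * s * u0⁻¹, hm⟩) := by
  rcases hor with hor | hor
  · exact Subgroup.mem_sup_left (add_mem k1 u0 hor hc1 hc2 _)
  · have h7 : u0 * (h * s) * u0⁻¹ ∈ S1o (SD0 a) (SD0_normal a) s hss :=
      Or.inl ((SD0_normal a).conj_mem _ hor u0)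
    have h8 : u0 * h * u0⁻¹ = (u0 * (h * s) * u0⁻¹) * (u0 * s * u0⁻¹) := by
      calc u0 * h * u0⁻¹ = u0 * (h * 1) * u0⁻¹ := by rw [mul_one]
        _ = u0 * (h * (s * s)) * u0⁻¹ := by rw [hss]
        _ = _ := by group
    have h9 : (⟨u0 * h * u0⁻¹, hh⟩ : S1o (SD0 a) (SD0_normal a) s hss) =
        ⟨u0 * (h * s) * u0⁻¹, h7⟩ * ⟨u0 * s * u0⁻¹, hm⟩ := Subtype.ext h8
    rw [h9, map_mul]
    refine Subgroup.mul_mem _ (Subgroup.mem_sup_left (add_mem k1 u0 hor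
      (c := fun i => c i * r i) (fun i => ?_) ?_ h7))
      (Subgroup.mem_sup_right (Subgroup.mem_zpowers _))
    · rw [mul_pow, hc1, hr, one_mul]
    · show h.1.1 * s.1.1 = _
      rw [hc2, hs1, diagonal_mul_diagonal]

end

/-- the image of a homomorphism along an injective homomorphism -/
lemma exists_img {Γ : Type u} [Group Γ] {Γ' : Type v} [Group Γ'] {G : Type w} [Group G]
    (N1 : Subgroup Γ) (φ : Γ →* Γ') (hφi : Function.Injective φ) (ε1 : N1 →* G) :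
    ∃ (S' : Subgroup Γ') (ε' : S' →* G), (∀ g ∈ N1, φ g ∈ S') ∧
      (∀ h : S', ∃ g : N1, h.1 = φ g.1) ∧
      (∀ (g : N1) (h : S'), h.1 = φ g.1 → ε' h = ε1 g) := by
  refine ⟨N1.map φ, ε1.comp (N1.equivMapOfInjective φ hφi).symm.toMonoidHom,
    fun g hg => ⟨g, hg, rfl⟩, ?_, ?_⟩
  · rintro ⟨_, g, hg, rfl⟩
    exact ⟨⟨g, hg⟩, rfl⟩
  · intro g h hh
    have h1 : h = N1.equivMapOfInjective φ hφi g := Subtype.ext hh
    rw [h1]
    show ε1 ((N1.equivMapOfInjective φ hφi).symm (N1.equivMapOfInjective φ hφi g)) = ε1 g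
    rw [MulEquiv.symm_apply_apply]

theorem stmtDII_of (hDF : StmtDF.{u}) (hDC : StmtDC.{u, v}) (hDK : StmtDK.{u})
    (hDG : StmtDG.{u, v}) (hDL : StmtDL.{u}) (hDT : StmtDT.{u}) : StmtDII.{u, v, w} := by
  intro K _ _ m d hE G _ _ L ε hε 𝕜 _ e he2 heL he
  obtain ⟨K', _, _, j, δ, hδ⟩ := hDK K d hE.ns
  letI : StarRing K' := starRingOfComm
  have hs' : ∀ x : K', star x = x := fun _ => rfl
  obtain ⟨h0, hne, hLG⟩ := hDL K m d hE K' j δ hs' hδ
  obtain ⟨φ, hφi, hφ, hT⟩ := hDT K m d hE K' j δ hs' hδ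
  have hm := hE.hm
  have hd0 : d ≠ 0 := by
    rintro rfl
    exact hE.ns ⟨0, by simp⟩
  have hδ0 : δ ≠ 0 := by
    rintro rfl
    apply hd0
    apply j.injective
    rw [← hδ, map_zero]
    simp
  have hji : Function.Injective j := j.injective
  -- diagonal elements
  have hdiag : ∀ c : Fin (m + 1) → K, (∀ i, c i ^ 2 = 1) →
      ∃ h : ↥(OD (fd m d)), h.1.1 = diagonal c ∧ (h ∈ SD0 (fd m d) ↔ ∏ i, c i = 1) ∧
        (φ h).1 = diagonal (fun i => j (c i)) := by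
    intro c hc
    have hsq : diagonal c * diagonal c = (1 : Matrix (Fin (m + 1)) (Fin (m + 1)) K) := by
      rw [diagonal_mul_diagonal, ← diagonal_one]
      congr 1
      funext i
      rw [← pow_two, hc]
    obtain ⟨k1, k2⟩ := (hDF K m d hE).2.1 c hc ⟨_, _, hsq, hsq⟩ rfl
    refine ⟨⟨⟨_, _, hsq, hsq⟩, k1⟩, rfl, ?_, ?_⟩
    · rw [SD0_iff]
      exact k2
    · ext i k
      rw [hφ]
      show _ * j (diagonal c i k) * _ = _
      by_cases hik : i = k
      · subst hik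
        rw [diagonal_apply_eq, diagonal_apply_eq]
        by_cases hi : i = Fin.last m
        · rw [if_pos hi, if_pos hi]
          field_simp
        · rw [if_neg hi, if_neg hi, one_mul, mul_one]
      · rw [diagonal_apply_ne _ hik, diagonal_apply_ne _ hik, map_zero, mul_zero, zero_mul]
  -- the reflection
  obtain ⟨s, hs1, hs2, hs3⟩ := hdiag (fun i => if i = Fin.last m then (-1 : K) else 1)
    (fun i => by by_cases hi : i = Fin.last m <;> simp [hi])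
  have hprod : ∏ i : Fin (m + 1), (if i = Fin.last m then (-1 : K) else 1) = -1 := by
    rw [Finset.prod_ite_eq' Finset.univ (Fin.last m) (fun _ => (-1 : K))]
    simp
  have hm1 : (-1 : K) ≠ 1 := by
    intro h
    apply H221.two_ne hE.odd
    linear_combination -h
  have hsN : s ∉ SD0 (fd m d) := by
    rw [hs2, hprod]
    exact hm1
  have hss : s * s = 1 := by
    apply Subtype.ext
    apply Units.ext
    show s.1.1 * s.1.1 = 1
    rw [hs1, diagonal_mul_diagonal, ← diagonal_one]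
    congr 1
    funext i
    by_cases hi : i = Fin.last m <;> simp [hi]
  -- the homomorphism on `SD0`
  have hact : ∀ x x' : SD0 (fd m d), x'.1 = s * x.1 * s⁻¹ →
      e * (ε.comp (iotaD (fd m d))) x * e⁻¹ = (ε.comp (iotaD (fd m d))) x' := by
    intro x x' hx
    have h1 := he s hs1 (iotaD (fd m d) x)
    have h2 : iotaD (fd m d) x' = cjD s (iotaD (fd m d) x) := by
      apply Subtype.ext
      show x'.1.1 = s.1 * x.1.1 * s.1⁻¹
      rw [hx]
      rfl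
    rw [MonoidHom.comp_apply, MonoidHom.comp_apply, h2]
    exact h1
  obtain ⟨ε1, k1, k2⟩ := ext_hom (hN := SD0_normal (fd m d)) (hss := hss) hsN (ε.comp (iotaD (fd m d))) e
    (by rw [← pow_two]; exact he2) hact
  have hιL : ∀ x, (ε.comp (iotaD (fd m d))) x ∈ L := fun x => by
    rw [← hε.range]
    exact ⟨iotaD (fd m d) x, rfl⟩
  have hε1L : ∀ g : S1o (SD0 (fd m d)) (SD0_normal (fd m d)) s hss, ε1 g ∈ L ⊔ Subgroup.zpowers e := by
    intro g
    rcases g.2 with hg | hg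
    · rw [k1 g hg]
      exact Subgroup.mem_sup_left (hιL _)
    · rw [k2 g hg]
      exact Subgroup.mul_mem _ (Subgroup.mem_sup_left (hιL _))
        (Subgroup.mem_sup_right (Subgroup.mem_zpowers e))
  -- the group in `GU K'`
  obtain ⟨S', ε', hS', hrep, hε'⟩ := exists_img (S1o (SD0 (fd m d)) (SD0_normal (fd m d)) s hss)
    φ hφi ε1
  have hΔ : ∀ i : Fin (m + 1), (if i = Fin.last m then δ else 1 : K') ≠ 0 := by
    intro i
    by_cases hi : i = Fin.last m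
    · rw [if_pos hi]; exact hδ0
    · rw [if_neg hi]; exact one_ne_zero
  have hΔ' : ∀ i : Fin (m + 1), (if i = Fin.last m then δ⁻¹ else 1 : K') ≠ 0 := by
    intro i
    by_cases hi : i = Fin.last m
    · rw [if_pos hi]; exact inv_ne_zero hδ0
    · rw [if_neg hi]; exact one_ne_zero
  have hΔΔ : ∀ (i : Fin (m + 1)) (x : K'), (if i = Fin.last m then δ else 1 : K') * x *
      (if i = Fin.last m then δ⁻¹ else 1) = x := by
    intro i x
    by_cases hi : i = Fin.last m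
    · rw [if_pos hi, if_pos hi]; field_simp
    · rw [if_neg hi, if_neg hi, one_mul, mul_one]
  have hscal : ∀ g : ↥(OD (fd m d)), (∃ l : K', (φ g).1 = l • (1 : Matrix (Fin (m + 1)) (Fin (m + 1)) K')) →
      ∃ l : K, g.1.1 = l • (1 : Matrix (Fin (m + 1)) (Fin (m + 1)) K) := by
    rintro g ⟨l, hl⟩
    refine ⟨g.1.1 0 0, ?_⟩
    have h1 : ∀ i, j (g.1.1 i i) = l := by
      intro i
      have h2 := hφ g i i
      rw [hΔΔ, hl, Matrix.smul_apply, one_apply_eq, smul_eq_mul, mul_one] at h2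
      exact h2.symm
    ext i k
    rw [Matrix.smul_apply, smul_eq_mul]
    by_cases hik : i = k
    · subst hik
      rw [one_apply_eq, mul_one]
      apply hji
      rw [h1, h1]
    · rw [one_apply_ne hik, mul_zero]
      have h2 := hφ g i k
      rw [hl, Matrix.smul_apply, one_apply_ne hik, smul_zero] at h2
      have h3 := h2.symm
      rcases mul_eq_zero.1 h3 with h4 | h4
      · rcases mul_eq_zero.1 h4 with h5 | h5
        · exact absurd h5 (hΔ i)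
        · exact (map_eq_zero j).1 h5
      · exact absurd h4 (hΔ' k)
  have hscal' : ∀ g : ↥(OD (fd m d)), (∃ l : K, g.1.1 = l • (1 : Matrix (Fin (m + 1)) (Fin (m + 1)) K)) →
      ∃ l : K', (φ g).1 = l • (1 : Matrix (Fin (m + 1)) (Fin (m + 1)) K') := by
    rintro g ⟨l, hl⟩
    refine ⟨j l, ?_⟩
    ext i k
    rw [hφ, hl, Matrix.smul_apply, Matrix.smul_apply, smul_eq_mul, smul_eq_mul]
    by_cases hik : i = k
    · subst hik
      rw [hΔΔ, one_apply_eq, one_apply_eq, mul_one, mul_one]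
    · rw [one_apply_ne hik, one_apply_ne hik, mul_zero, map_zero, mul_zero, zero_mul, mul_zero]
  have hcenter : ∀ g : ↥(OD (fd m d)), (∃ l : K, g.1.1 = l • (1 : Matrix (Fin (m + 1)) (Fin (m + 1)) K)) →
      g ∈ SD0 (fd m d) := by
    rintro g ⟨l, hl⟩
    have h1 : g ∈ Subgroup.center ↥(OD (fd m d)) := by
      rw [Subgroup.mem_center_iff]
      intro x
      apply Subtype.ext
      apply Units.ext
      show x.1.1 * g.1.1 = g.1.1 * x.1.1
      rw [hl, mul_smul_comm, smul_mul_assoc, mul_one, one_mul]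
    show (QuotientGroup.mk' (Subgroup.center ↥(OD (fd m d)))) g ∈ commutator (POD (fd m d))
    have h2 : (QuotientGroup.mk' (Subgroup.center ↥(OD (fd m d)))) g = 1 :=
      (QuotientGroup.eq_one_iff g).2 h1
    rw [h2]
    exact Subgroup.one_mem _
  have hker' : ∀ g : S', ε' g = 1 ↔ ∃ l : K', mx g = l • (1 : Matrix (Fin (m + 1)) (Fin (m + 1)) K') := by
    intro h
    obtain ⟨g, hg⟩ := hrep h
    have hmx : mx h = (φ g.1).1 := congrArg Subtype.val hg
    rw [hε' g h hg, hmx]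
    constructor
    · intro h1
      rcases g.2 with hg' | hg'
      · rw [k1 g hg'] at h1
        exact hscal' g.1 ((hε.ker _).1 h1)
      · rw [k2 g hg'] at h1
        exfalso
        apply heL
        have h3 : e = ((ε.comp (iotaD (fd m d))) ⟨g.1 * s, hg'⟩)⁻¹ := (inv_eq_of_mul_eq_one_right h1).symm
        rw [h3]
        exact L.inv_mem (hιL _)
    · intro h1
      have h2 := hscal g.1 h1
      have h3 := hcenter g.1 h2
      rw [k1 g h3]
      exact (hε.ker _).2 h2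
  -- the elements of the words
  have hword : ∀ (u0 : ↥(OD (fd m d))) (u₁ : List (Ln K' (m + 1))), (∀ P ∈ u₁, P ∈ w0 K' (m + 1)) →
      Orth u₁ → ∃ (h : ↥(OD (fd m d))) (hh : h ∈ S1o (SD0 (fd m d)) (SD0_normal (fd m d)) s hss) (c : Fin (m + 1) → K), (∀ i, c i ^ 2 = 1) ∧
        h.1.1 = diagonal c ∧ (h ∈ SD0 (fd m d) ∨ h * s ∈ SD0 (fd m d)) ∧
        (φ (u0 * h * u0⁻¹)).1 = sM (-1 : K') 1 (u₁.map (lnU (φ u0))) := by
    intro u0 u₁ hu₁ ho
    obtain ⟨c, hc, hcM⟩ := sM_word j hu₁ ho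
    obtain ⟨h, h1, h2, h3⟩ := hdiag c hc
    have hor : h ∈ SD0 (fd m d) ∨ h * s ∈ SD0 (fd m d) := by
      have hp : (∏ i, c i) ^ 2 = 1 := by
        rw [← Finset.prod_pow]
        exact Finset.prod_eq_one fun i _ => hc i
      rw [pow_two] at hp
      rcases mul_self_eq_one_iff.1 hp with hp1 | hp1
      · exact Or.inl (h2.2 hp1)
      · right
        obtain ⟨h', g1, g2, -⟩ := hdiag (fun i => c i * (if i = Fin.last m then (-1 : K) else 1))
          (fun i => by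
            rw [mul_pow, hc]
            by_cases hi : i = Fin.last m <;> simp [hi])
        have h4 : h' = h * s := by
          apply Subtype.ext
          apply Units.ext
          show h'.1.1 = h.1.1 * s.1.1
          rw [g1, h1, hs1, diagonal_mul_diagonal]
        rw [← h4, g2, Finset.prod_mul_distrib, hprod, hp1]
        ring
    refine ⟨h, hor, c, hc, h1, hor, ?_⟩
    rw [sM_map, hcM, ← h3, map_mul, map_mul, map_inv]
    rfl
  have hmem : ∀ u v : List (Ln K' (m + 1)), u ++ v ∈ FA (m := m) j d δ →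
      ∃ g : S', mx g = sM (-1 : K') 1 u := by
    intro u v huv
    obtain ⟨u0, w₀, hw0, hw⟩ := hT _ huv
    obtain ⟨u₁, v₁, rfl, rfl, rfl⟩ := List.map_eq_append_iff.1 hw.symm
    have ho : Orth (u₁ ++ v₁) := H938.orth_perm hw0.symm E1_orth
    obtain ⟨h, hh, c, -, -, -, h5⟩ := hword u0 u₁ (fun P hP => hw0.mem_iff.1 (by simp [hP]))
      (List.pairwise_append.1 ho).1
    exact ⟨⟨φ (u0 * h * u0⁻¹), hS' _ (conj_S1o u0 hh)⟩, h5⟩
  have hm1' : (-1 : K') ≠ 1 := by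
    intro h
    apply hm1
    apply hji
    rw [map_neg, map_one, h]
  have hc := hDG K' (m + 1) 2 (-1) 1 G Nat.prime_two (by ring) hm1' (by rw [hs']; ring)
    one_ne_zero (by omega) S' ε' hker' (FA j d δ) FA_sub FA_perm (hne.mono FB_sub) hmem
  have ht : 0 < AS.t (FA (m := m) j d δ) := exists_ev_ne FB_sub (LN j d δ) hLG hne (FB_last h0)
  obtain ⟨w, hw, α, ψ, hTC⟩ := H945.top_of_comb (by omega) hc ht 𝕜 (L ⊔ Subgroup.zpowers e)
    (fun u v _ => by
      show ε' _ ∈ _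
      obtain ⟨g, hg⟩ := hrep (sS S' (-1 : K') 1 u)
      rw [hε' g _ hg]
      exact hε1L g)
  obtain ⟨u0, w₀, hw0, hww⟩ := hT _ hw
  -- the element `e'`
  have hsN1 : u0 * s * u0⁻¹ ∈ S1o (SD0 (fd m d)) (SD0_normal (fd m d)) s hss := conj_S1o u0 s_mem
  have hr : ∀ i : Fin (m + 1), (if i = Fin.last m then (-1 : K) else 1) ^ 2 = 1 := fun i => by
    by_cases hi : i = Fin.last m <;> simp [hi]
  have he'1 : (ε1 ⟨u0 * s * u0⁻¹, hsN1⟩) * e⁻¹ ∈ L := by
    have h1 : (u0 * s * u0⁻¹) * s ∈ SD0 (fd m d) := by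
      have h2 := comm_SD0 u0 s
      rwa [show s⁻¹ = s from inv_eq_of_mul_eq_one_left hss] at h2
    rw [k2 ⟨u0 * s * u0⁻¹, hsN1⟩ h1, mul_inv_cancel_right]
    exact hιL _
  have he'2 : (ε1 ⟨u0 * s * u0⁻¹, hsN1⟩) ^ 2 = 1 := by
    rw [← map_pow]
    have h1 : (⟨u0 * s * u0⁻¹, hsN1⟩ : S1o (SD0 (fd m d)) (SD0_normal (fd m d)) s hss) ^ 2 = 1 := by
      apply Subtype.ext
      show (u0 * s * u0⁻¹) ^ 2 = 1
      rw [conj_pow, pow_two, hss, mul_one, mul_inv_cancel]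
    rw [h1, map_one]
  have he'3 := comm_aux k1 u0 hs1 hsN1
  have hle : De (eS S' (-1 : K') 1 ε') w ≤
      Ad ε u0 ⊔ Subgroup.zpowers (ε1 ⟨u0 * s * u0⁻¹, hsN1⟩) := by
    rw [De, Subgroup.closure_le]
    rintro _ ⟨u, v, huv, rfl⟩
    rw [hww] at huv
    obtain ⟨u₁, v₁, rfl, rfl, rfl⟩ := List.map_eq_append_iff.1 huv
    have ho : Orth (u₁ ++ v₁) := H938.orth_perm hw0.symm E1_orth
    obtain ⟨h, hh, c, hc1, hc2, hor, h5⟩ := hword u0 u₁ (fun P hP => hw0.mem_iff.1 (by simp [hP]))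
      (List.pairwise_append.1 ho).1
    have h6 : (sS S' (-1 : K') 1 (u₁.map (lnU (φ u0)))).1 = φ (u0 * h * u0⁻¹) := by
      apply Subtype.ext
      have h7 : ∃ g : S', mx g = sM (-1 : K') 1 (u₁.map (lnU (φ u0))) :=
        ⟨⟨φ (u0 * h * u0⁻¹), hS' _ (conj_S1o u0 hh)⟩, h5⟩
      have h8 : mx (sS S' (-1 : K') 1 (u₁.map (lnU (φ u0)))) = sM (-1 : K') 1 (u₁.map (lnU (φ u0))) := by
        rw [sS, dif_pos h7]
        exact h7.choose_spec
      rw [h5]
      exact h8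
    show ε' (sS S' (-1 : K') 1 (u₁.map (lnU (φ u0)))) ∈ _
    rw [hε' ⟨u0 * h * u0⁻¹, conj_S1o u0 hh⟩ _ h6]
    exact word_mem k1 u0 hs1 hr hsN1 _ hc1 hc2 hor
  have hcardA := ((hDC K m d hE G L ε hε).2.1 u0).2.2
  have heq : De (eS S' (-1 : K') 1 ε') w =
      Ad ε u0 ⊔ Subgroup.zpowers (ε1 ⟨u0 * s * u0⁻¹, hsN1⟩) := by
    refine Subgroup.eq_of_le_of_card_ge hle ?_
    have h1 : Nat.card (De (eS S' (-1 : K') 1 ε') w) = 2 ^ (m + 1 - 1) := hc.card w hw
    have h2 : Nat.card (Subgroup.zpowers (ε1 ⟨u0 * s * u0⁻¹, hsN1⟩)) ≤ 2 := by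
      rw [Nat.card_zpowers]
      exact Nat.le_of_dvd (by norm_num) (orderOf_dvd_of_pow_eq_one he'2)
    have h3 := H715.card_sup_le (A := Ad ε u0)
      (B := Subgroup.zpowers (ε1 ⟨u0 * s * u0⁻¹, hsN1⟩)) (fun x hx y hy => by
        obtain ⟨k, rfl⟩ := Subgroup.mem_zpowers_iff.1 hy
        have h4 : Commute (ε1 ⟨u0 * s * u0⁻¹, hsN1⟩) x := he'3 x hx
        exact (h4.symm.zpow_right k).eq)
    rw [h1]
    refine h3.trans ?_
    rw [hcardA]
    calc 2 ^ (m - 1) * Nat.card (Subgroup.zpowers (ε1 ⟨u0 * s * u0⁻¹, hsN1⟩)) ≤ 2 ^ (m - 1) * 2 :=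
          Nat.mul_le_mul_left _ h2
      _ = 2 ^ (m + 1 - 1) := by rw [← pow_succ]; congr 1; omega
  refine ⟨u0, ε1 ⟨u0 * s * u0⁻¹, hsN1⟩, he'1, he'2, he'3, α, ψ, ?_⟩
  rw [← heq]
  exact hTC

end

end Vale.Agent.P240.R2.H401.D
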