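import Vale.Agent.P240.R2.H401.EDefs
import Vale.Agent.P240.R2.H275.OGood

/-!
The embedding of `SOm K m` into `SOm K (m + 1)`, `m` odd.
-/

set_option autoImplicit false
set_option linter.all false

namespace Vale.Agent.P240.R2.H401.E

open Matrix Vale.Agent.P240.R2.AS Vale.Agent.P240.R2.H38 Vale.Agent.P240.K
open Vale.Agent.P240.R2.H938 (TD TC mem_TD)
open Vale.Agent.P240.R2.H296.O (SOm)
open scoped Classical

universe u v w

noncomputable section

section
variable {K : Type u} [Field K] {m : ℕ}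

/-- the block matrix `A ⊕ 1` -/
def upM (A : Matrix (Fin m) (Fin m) K) : Matrix (Fin (m + 1)) (Fin (m + 1)) K :=
  Matrix.of fun i j => Fin.lastCases (motive := fun _ => K)
    (Fin.lastCases (motive := fun _ => K) 1 (fun _ => 0) j)
    (fun i' => Fin.lastCases (motive := fun _ => K) 0 (fun j' => A i' j') j) i

@[simp] lemma upM_cc (A : Matrix (Fin m) (Fin m) K) (i j : Fin m) :
    upM A i.castSucc j.castSucc = A i j := by simp [upM]

@[simp] lemma upM_cl (A : Matrix (Fin m) (Fin m) K) (i : Fin m) :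
    upM A i.castSucc (Fin.last m) = 0 := by simp [upM]

@[simp] lemma upM_lc (A : Matrix (Fin m) (Fin m) K) (j : Fin m) :
    upM A (Fin.last m) j.castSucc = 0 := by simp [upM]

@[simp] lemma upM_ll (A : Matrix (Fin m) (Fin m) K) : upM A (Fin.last m) (Fin.last m) = 1 := by
  simp [upM]

lemma ext_last {A B : Matrix (Fin (m + 1)) (Fin (m + 1)) K}
    (h1 : ∀ i j : Fin m, A i.castSucc j.castSucc = B i.castSucc j.castSucc)
    (h2 : ∀ i : Fin m, A i.castSucc (Fin.last m) = B i.castSucc (Fin.last m))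
    (h3 : ∀ j : Fin m, A (Fin.last m) j.castSucc = B (Fin.last m) j.castSucc)
    (h4 : A (Fin.last m) (Fin.last m) = B (Fin.last m) (Fin.last m)) : A = B := by
  ext i j
  refine Fin.lastCases ?_ (fun i => ?_) i
  · refine Fin.lastCases ?_ (fun j => ?_) j
    · exact h4
    · exact h3 j
  · refine Fin.lastCases ?_ (fun j => ?_) j
    · exact h2 i
    · exact h1 i j

lemma upM_mul (A B : Matrix (Fin m) (Fin m) K) : upM (A * B) = upM A * upM B := by
  refine ext_last (fun i j => ?_) (fun i => ?_) (fun j => ?_) ?_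
  all_goals rw [mul_apply, Fin.sum_univ_castSucc]; simp [mul_apply]

lemma upM_one : upM (1 : Matrix (Fin m) (Fin m) K) = 1 := by
  refine ext_last (fun i j => ?_) (fun i => ?_) (fun j => ?_) ?_
  · by_cases h : i = j
    · subst h; simp
    · rw [upM_cc, one_apply_ne h, one_apply_ne (fun h' => h (Fin.castSucc_injective _ h'))]
  · rw [upM_cl, one_apply_ne (Fin.castSucc_lt_last i).ne]
  · rw [upM_lc, one_apply_ne (Fin.castSucc_lt_last j).ne']
  · simp

lemma upM_inj {A B : Matrix (Fin m) (Fin m) K} (h : upM A = upM B) : A = B := by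
  ext i j
  have := congrFun (congrFun h i.castSucc) j.castSucc
  simpa using this

lemma upM_map (σ : K ≃+* K) (A : Matrix (Fin m) (Fin m) K) : (upM A).map σ = upM (A.map σ) := by
  refine ext_last (fun i j => ?_) (fun i => ?_) (fun j => ?_) ?_ <;> simp

lemma upM_diag (d : Fin m → K) : upM (diagonal d) =
    diagonal (Fin.lastCases (motive := fun _ => K) 1 d) := by
  refine ext_last (fun i j => ?_) (fun i => ?_) (fun j => ?_) ?_
  · by_cases h : i = j
    · subst h; simp
    · rw [upM_cc, diagonal_apply_ne _ h, diagonal_apply_ne _ (fun h' => h (Fin.castSucc_injective _ h'))]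
  · rw [upM_cl, diagonal_apply_ne _ (Fin.castSucc_lt_last i).ne]
  · rw [upM_lc, diagonal_apply_ne _ (Fin.castSucc_lt_last j).ne']
  · simp

variable [StarRing K]

lemma upM_star (A : Matrix (Fin m) (Fin m) K) : upM (star A) = star (upM A) := by
  refine ext_last (fun i j => ?_) (fun i => ?_) (fun j => ?_) ?_ <;> simp [star_apply]

/-- the embedding of the unitary groups -/
def up : GU K m →* GU K (m + 1) where
  toFun g := ⟨upM g.1, by
    rw [mem_unitaryGroup_iff, ← upM_star, ← upM_mul, gu_star, upM_one]⟩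
  map_one' := Subtype.ext upM_one
  map_mul' a b := Subtype.ext (upM_mul _ _)

lemma up_coe (g : GU K m) : (up g).1 = upM g.1 := rfl

lemma det_unit (g : GU K m) : g.1.det * star g.1.det = 1 := by
  have h := congrArg det (gu_star g)
  rw [det_mul, det_one, star_eq_conjTranspose, det_conjTranspose] at h
  exact h

/-- `g ↦ det(g) g` -/
def dh : GU K m →* GU K m where
  toFun g := ⟨g.1.det • g.1, by
    rw [mem_unitaryGroup_iff, star_smul, smul_mul_smul_comm, gu_star, det_unit, one_smul]⟩
  map_one' := by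
    apply Subtype.ext
    show (1 : Matrix (Fin m) (Fin m) K).det • (1 : Matrix (Fin m) (Fin m) K) = 1
    rw [det_one, one_smul]
  map_mul' a b := by
    apply Subtype.ext
    show (a.1 * b.1).det • (a.1 * b.1) = (a.1.det • a.1) * (b.1.det • b.1)
    rw [det_mul, smul_mul_smul_comm]

lemma dh_coe (g : GU K m) : (dh g).1 = g.1.det • g.1 := rfl

/-- the embedding `h ↦ det(h) h ⊕ 1` -/
def io0 : GU K m →* GU K (m + 1) := up.comp dh

lemma io0_coe (g : GU K m) : (io0 g).1 = upM (g.1.det • g.1) := rfl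

lemma io0_scal (hs : ∀ x : K, star x = x) (hm : Odd m) {g : GU K m} {a : K}
    (h : g.1 = a • (1 : Matrix (Fin m) (Fin m) K)) : io0 g = 1 := by
  have ha : a * a = 1 := by
    have h1 := gu_star g
    rw [h, star_smul, star_one, smul_mul_smul_comm, mul_one, hs] at h1
    have hm0 : 0 < m := hm.pos
    have h2 := congrFun (congrFun h1 ⟨0, hm0⟩) ⟨0, hm0⟩
    rw [Matrix.smul_apply, one_apply_eq, smul_eq_mul, mul_one] at h2
    exact h2
  apply Subtype.ext
  rw [io0_coe, h]
  have h2 : (a • (1 : Matrix (Fin m) (Fin m) K)).det = a := by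
    rw [det_smul, det_one, mul_one, Fintype.card_fin]
    obtain ⟨k, rfl⟩ := hm
    rw [pow_succ, pow_mul, pow_two, ha, one_pow, one_mul]
  rw [h2, smul_smul, ha, one_smul, upM_one]
  rfl

lemma mk_comm_of {n : ℕ} {g : GU K n} (h : g ∈ commutator (GU K n)) : g ∈ SOm K n := by
  show (QuotientGroup.mk' (Subgroup.center (GU K n))) g ∈ commutator (PGU K n)
  have h1 : (commutator (GU K n)).map (QuotientGroup.mk' (Subgroup.center (GU K n))) ≤
      commutator (PGU K n) := by
    rw [commutator_def, commutator_def, Subgroup.map_commutator]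
    exact Subgroup.commutator_mono le_top le_top
  exact h1 ⟨g, h, rfl⟩

lemma exists_comm {n : ℕ} {g : GU K n} (h : g ∈ SOm K n) :
    ∃ c ∈ commutator (GU K n), ∃ z ∈ Subgroup.center (GU K n), g = c * z := by
  have h0 : (QuotientGroup.mk' (Subgroup.center (GU K n))) g ∈ commutator (PGU K n) := h
  have h1 : commutator (PGU K n) =
      (commutator (GU K n)).map (QuotientGroup.mk' (Subgroup.center (GU K n))) := by
    rw [commutator_def, commutator_def, Subgroup.map_commutator,
      Subgroup.map_top_of_surjective _ (QuotientGroup.mk'_surjective _)]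
  rw [h1] at h0
  obtain ⟨c, hc, hcg⟩ := h0
  refine ⟨c, hc, c⁻¹ * g, ?_, by group⟩
  exact QuotientGroup.eq.1 hcg

variable [Fintype K]

lemma io0_mem (hE : ENum K m) {g : GU K m} (h : g ∈ SOm K m) : io0 g ∈ SOm K (m + 1) := by
  obtain ⟨c, hc, z, hz, rfl⟩ := exists_comm h
  have h2 : (2 : K) ≠ 0 := H221.two_ne hE.odd
  have hm1 : (-1 : K) ≠ 1 := by
    intro h
    apply h2
    linear_combination -h
  have hm2 : (-1 : K) * star (-1) = 1 := by rw [hE.st]; ring
  obtain ⟨a, ha⟩ := (H296.mem_center_iff hm1 hm2 z).1 hz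
  rw [map_mul, io0_scal hE.st hE.modd ha, mul_one]
  apply mk_comm_of
  have h3 : (commutator (GU K m)).map io0 ≤ commutator (GU K (m + 1)) := by
    rw [commutator_def, commutator_def, Subgroup.map_commutator]
    exact Subgroup.commutator_mono le_top le_top
  exact h3 ⟨c, hc, rfl⟩

/-- the embedding `SOm K m → SOm K (m + 1)` -/
def io (hE : ENum K m) : SOm K m →* SOm K (m + 1) where
  toFun g := ⟨io0 g.1, io0_mem hE g.2⟩
  map_one' := Subtype.ext (map_one _)
  map_mul' a b := Subtype.ext (map_mul _ _ _)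

lemma mx_io (hE : ENum K m) (g : SOm K m) : mx (io hE g) = upM ((mx g).det • mx g) := rfl

lemma io_cj (hE : ENum K m) (hS : SGood 2 (-1 : K) (-1) (SOm K m)) (u : GU K m) (g : SOm K m) :
    io hE (cjS hS u g) = cjO (up u) (io hE g) := by
  apply mx_inj
  rw [mx_io, mx_cjO, mx_io, mx_cjS, H938.det_conj, up_coe, ← upM_star, ← upM_mul, ← upM_mul]
  congr 1
  rw [mul_smul_comm, smul_mul_assoc]

variable {G : Type v} [Group G]

lemma io_ker (hE : ENum K m) {ε : SOm K (m + 1) →* G}
    (hker : ∀ g : SOm K (m + 1), ε g = 1 ↔ ∃ a : K, mx g = a • (1 : Matrix (Fin (m + 1)) (Fin (m + 1)) K))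
    (g : SOm K m) : (ε.comp (io hE)) g = 1 ↔ ∃ a : K, mx g = a • (1 : Matrix (Fin m) (Fin m) K) := by
  rw [MonoidHom.comp_apply, hker, mx_io]
  constructor
  · rintro ⟨a, ha⟩
    have h1 : a = 1 := by
      have := congrFun (congrFun ha (Fin.last m)) (Fin.last m)
      rw [upM_ll, Matrix.smul_apply, one_apply_eq, smul_eq_mul, mul_one] at this
      exact this.symm
    rw [h1, one_smul, ← upM_one] at ha
    have h2 := upM_inj ha
    have h3 : (mx g).det * star (mx g).det = 1 := det_unit g.1
    refine ⟨star (mx g).det, ?_⟩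
    rw [← h2, smul_smul, mul_comm, h3, one_smul]
  · rintro ⟨a, ha⟩
    have h1 : io0 g.1 = 1 := io0_scal hE.st hE.modd ha
    refine ⟨1, ?_⟩
    have h2 := congrArg Subtype.val h1
    rw [one_smul]
    exact h2

/-- `x` acts on the small group by the field automorphism only -/
lemma acts_io (hE : ENum K m) {ε : SOm K (m + 1) →* G} {x : G} {s : GU K (m + 1)} {σ : K ≃+* K}
    (hs : s = 1 ∨ s = sla K m) (hx : ActsS ε x s σ) : ActsS (ε.comp (io hE)) x 1 σ := by
  refine ⟨hx.1, fun h h' hh => ?_⟩
  rw [MonoidHom.comp_apply, MonoidHom.comp_apply]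
  refine hx.2 _ _ ?_
  have e1 : ((1 : GU K m) : Matrix (Fin m) (Fin m) K) = 1 := rfl
  rw [e1, star_one, one_mul, mul_one] at hh
  rw [mx_io, mx_io, upM_map, hh]
  have h1 : ((mx h).map σ).det • (mx h).map σ = ((mx h).det • mx h).map σ := by
    rw [map_smul_mat]
    congr 1
    have := RingHom.map_det (σ : K →+* K) (mx h)
    exact this.symm
  rw [h1]
  rcases hs with rfl | rfl
  · have e2 : ((1 : GU K (m + 1)) : Matrix (Fin (m + 1)) (Fin (m + 1)) K) = 1 := rfl
    rw [e2, star_one, one_mul, mul_one]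
  · rw [sla_coe, star_eq_conjTranspose, diagonal_conjTranspose]
    refine ext_last (fun i j => ?_) (fun i => ?_) (fun j => ?_) ?_
    · rw [mul_diagonal, diagonal_mul]
      simp [(Fin.castSucc_lt_last _).ne]
    · rw [mul_diagonal, diagonal_mul]
      simp [(Fin.castSucc_lt_last _).ne]
    · rw [mul_diagonal, diagonal_mul]
      simp [(Fin.castSucc_lt_last _).ne]
    · rw [mul_diagonal, diagonal_mul]
      simp

end

end

end Vale.Agent.P240.R2.H401.E
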