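import Vale.Agent.P240.R2.H401.E1
import Vale.Agent.P240.R2.H829.Cnt7
import Vale.Agent.P240.R2.H829.Cnt6
import Vale.Agent.P240.R2.H281.T4
import Vale.Agent.P240.R2.H296.OInv

/-!
Top cycles of `PΩ_n(q)`, `n = m + 1` even, from the dimension `m`.
-/

set_option autoImplicit false
set_option linter.all false

namespace Vale.Agent.P240.R2.H401.E

open Matrix Vale.Agent.P240.R2.AS Vale.Agent.P240.R2.H38 Vale.Agent.P240.K
open Vale.Agent.P240.R2.H938 (TD TC mem_TD)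
open Vale.Agent.P240.R2.H296.O (SOm)
open Vale.Agent.P240.R2.H387 (Fs mem_Fs)
open scoped Classical

universe u v w

noncomputable section

lemma tc_mono {G : Type v} [Group G] {𝕜 : Type w} [Field 𝕜] {p : ℕ} {M M' F : Subgroup G}
    (h : TC 𝕜 p M F) (hM : M ≤ M') : TC 𝕜 p M' F := by
  obtain ⟨α, φ, h⟩ := h
  exact ⟨α, φ, Sp_mono (fun l hl => ⟨⟨hl.1.1, fun E hE => ⟨(hl.1.2 E hE).1,
    (hl.1.2 E hE).2.trans hM⟩⟩, hl.2⟩) h.mem, h.cyc, h.ne, h.top, h.card⟩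

section
variable {K : Type u} [Field K] [Fintype K] [StarRing K] {m : ℕ}

lemma two_ne (hE : ENum K m) : (2 : K) ≠ 0 := H221.two_ne hE.odd

lemma neg_ne (hE : ENum K m) : (-1 : K) ≠ 1 := by
  intro h
  apply two_ne hE
  linear_combination -h

lemma sgood (hE : ENum K m) : SGood 2 (-1 : K) (-1) (SOm K m) :=
  H275.sgood_Om hE.st hE.odd hE.card hE.modd (by have := hE.hm; omega)

lemma sm_diag {u : List (Ln K m)} (h : ∀ P ∈ u, P ∈ w0 K m) :
    ∃ e : Fin m → K, sm u = diagonal e := by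
  induction u with
  | nil => exact ⟨0, by simp [sm]⟩
  | cons P u ih =>
    obtain ⟨e, he⟩ := ih fun Q hQ => h Q (List.mem_cons_of_mem _ hQ)
    have h1 := h P (List.mem_cons_self ..)
    rw [w0, List.mem_ofFn] at h1
    obtain ⟨i, rfl⟩ := h1
    refine ⟨(fun k => if k = i then (1 : K) else 0) + e, ?_⟩
    rw [sm_cons, he, E1_coe, diagonal_add]
    rfl

/-- the elements of the prefixes of the standard frame are diagonal with entries `±1` -/
lemma sM_diag (hE : ENum K m) {u v : List (Ln K m)} (h : w0 K m = u ++ v) :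
    ∃ d : Fin m → K, (∀ i, d i ^ 2 = 1) ∧ sM (-1 : K) (-1) u = diagonal d := by
  have ho : Orth u := by
    have := E1_orth (K := K) (n := m)
    rw [h] at this
    exact (List.pairwise_append.1 this).1
  obtain ⟨e, he⟩ := sm_diag (u := u) fun P hP => by rw [h]; simp [hP]
  have h1 := (H221.orth_cond ho).2
  rw [he, diagonal_mul_diagonal] at h1
  have h2 : ∀ i, e i * e i = e i := fun i => congrFun (diagonal_injective h1) i
  refine ⟨fun i => (-1) ^ u.length * (1 - 2 * e i), fun i => ?_, ?_⟩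
  · have h3 : ((-1 : K) ^ u.length * (1 - 2 * e i)) ^ 2 =
        ((-1) ^ u.length * (-1) ^ u.length) * (1 - 4 * e i + 4 * (e i * e i)) := by ring
    rw [h3, h2, ← mul_pow]
    ring
  · rw [sM, he]
    ext i j
    by_cases hij : i = j
    · subst hij
      simp only [Matrix.smul_apply, Matrix.add_apply, diagonal_apply_eq, one_apply_eq, smul_eq_mul]
      ring
    · simp [hij]

variable {G : Type v} [Group G]

lemma De_le_Ae (hE : ENum K m) (ε : SOm K (m + 1) →* G) :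
    De (eS (SOm K m) (-1) (-1) (ε.comp (io hE))) (w0 K m) ≤ Ae ε 1 := by
  rw [De, Subgroup.closure_le]
  rintro _ ⟨u, v, huv, rfl⟩
  have ho : Orth u := by
    have := E1_orth (K := K) (n := m)
    rw [huv] at this
    exact (List.pairwise_append.1 this).1
  obtain ⟨d, hd, hd'⟩ := sM_diag hE huv
  have hmx : mx (sS (SOm K m) (-1 : K) (-1) u) = diagonal d := by
    rw [mx_sS (sgood hE) ho, hd']
  refine ⟨io hE (sS (SOm K m) (-1) (-1) u), ?_, ?_⟩
  · show io hE (sS (SOm K m) (-1) (-1) u) ∈ TD K 2 (SOm K (m + 1))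
    rw [mem_TD]
    have hdet : (∏ i, d i) ^ 2 = 1 := by
      rw [← Finset.prod_pow]
      exact Finset.prod_eq_one fun i _ => hd i
    refine ⟨Fin.lastCases (motive := fun _ => K) 1 (fun i => (∏ k, d k) * d i), fun i => ?_, ?_⟩
    · refine Fin.lastCases ?_ (fun i => ?_) i
      · simp
      · rw [Fin.lastCases_castSucc, mul_pow, hdet, hd, one_mul]
    · rw [mx_io, hmx, det_diagonal, ← diagonal_smul, upM_diag]
      rfl
  · show ε (cjO 1 (io hE (sS (SOm K m) (-1) (-1) u))) = _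
    rw [cjO_one]
    rfl

/-- the elementary abelian groups of the small frames are of the form `Ae` -/
lemma De_eq [Finite G] (hE : ENum K m) {L : Subgroup G} {ε : SOm K (m + 1) →* G} (hε : EHom L ε)
    (hcard : ∀ u : GU K (m + 1), Nat.card (Ae ε u) = 2 ^ (m - 1)) {w : List (Ln K m)}
    (hw : w ∈ Fr K m) :
    ∃ u, De (eS (SOm K m) (-1) (-1) (ε.comp (io hE))) w = Ae ε u := by
  have hS := sgood hE
  have hc := comb_eS hS (io_ker hE hε.ker)
  obtain ⟨u', rfl⟩ := exists_lnU hw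
  refine ⟨up u', ?_⟩
  have h1 : (ε.comp (io hE)).comp (cjS hS u') = (ε.comp (cjO (up u'))).comp (io hE) := by
    ext h
    show ε (io hE (cjS hS u' h)) = ε (cjO (up u') (io hE h))
    rw [io_cj]
  have h2 := De_map hS (ε.comp (io hE)) u' (E1_orth (K := K) (n := m))
  rw [h1] at h2
  have h3 := De_le_Ae hE (ε.comp (cjO (up u')))
  rw [h2] at h3
  have h4 : Ae (ε.comp (cjO (up u'))) 1 = Ae ε (up u') := by
    rw [Ae, Ae]
    congr 1
    ext h
    show ε (cjO (up u') (cjO 1 h)) = _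
    rw [cjO_one]
    rfl
  rw [h4] at h3
  refine Subgroup.eq_of_le_of_card_ge h3 ?_
  rw [hcard]
  have h5 : Nat.card (De (eS (SOm K m) (-1) (-1) (ε.comp (io hE))) ((w0 K m).map (lnU u'))) =
      2 ^ (m - 1) := hc.card _ hw
  rw [h5]

variable [Finite G]

/-- the subgroup of dimension `m` -/
abbrev Lm (hE : ENum K m) (ε : SOm K (m + 1) →* G) : Subgroup G := (ε.comp (io hE)).range

lemma Lm_le (hE : ENum K m) {L : Subgroup G} {ε : SOm K (m + 1) →* G} (hε : EHom L ε) :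
    Lm hE ε ≤ L := by
  rintro _ ⟨h, rfl⟩
  rw [← hε.range]
  exact ⟨_, rfl⟩

lemma top1 (𝕜 : Type w) [Field 𝕜] (hE : ENum K m) {L : Subgroup G} {ε : SOm K (m + 1) →* G}
    (hε : EHom L ε) (hcard : ∀ u : GU K (m + 1), Nat.card (Ae ε u) = 2 ^ (m - 1)) {H : Subgroup G}
    (hH : Lm hE ε ≤ H) : ∃ u, Ae ε u ≤ Lm hE ε ∧ TC 𝕜 2 H (Ae ε u) := by
  have hS := sgood hE
  have hc := comb_eS hS (io_ker hE hε.ker)
  have hm := hE.hm
  obtain ⟨w, hw, h1⟩ := H945.top_of_comb (by omega) hc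
    (H281.t_pos_triv hE.st (two_ne hE) hE.card (by omega)) 𝕜 H (fun u v _ => hH ⟨_, rfl⟩)
  obtain ⟨u, hu⟩ := De_eq hE hε hcard hw
  refine ⟨u, ?_, ?_⟩
  · rw [← hu]
    exact De_le _ rfl w
  · rw [← hu]
    exact h1

lemma top2 (𝕜 : Type w) [Field 𝕜] (hE : ENum K m) (h9 : Nat.card K ≠ 9) (h25 : Nat.card K ≠ 25)
    {L : Subgroup G} {ε : SOm K (m + 1) →* G}
    (hε : EHom L ε) (hcard : ∀ u : GU K (m + 1), Nat.card (Ae ε u) = 2 ^ (m - 1)) {x : G}
    {σ : K ≃+* K} (hσ2 : (σ : RingAut K) ^ 2 = 1) (hσ : σ ≠ RingEquiv.refl K)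
    (hx : ActsS (ε.comp (io hE)) x 1 σ) {H : Subgroup G}
    (hH : Lm hE ε ⊓ Subgroup.centralizer ({x} : Set G) ≤ H) :
    ∃ u, Ae ε u ≤ Lm hE ε ∧ (∀ c ∈ Ae ε u, x * c = c * x) ∧ TC 𝕜 2 H (Ae ε u) := by
  have hS := sgood hE
  have hker := io_ker hE hε.ker
  have hm := hE.hm
  obtain ⟨q, hK, hsq⟩ := H296.O.inv_data hE.st σ hσ2 hσ
  have hq : Odd q := by
    by_contra h
    have h3 : Even (q ^ 2) := (Nat.not_odd_iff_even.1 h).pow_of_ne_zero two_ne_zero
    rw [← hK] at h3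
    exact (Nat.not_odd_iff_even.2 h3) hE.odd
  have hq7 : 7 ≤ q := by
    obtain ⟨k, rfl⟩ := hq
    by_contra h
    have h3 : k = 0 ∨ k = 1 ∨ k = 2 := by omega
    have h7 := hE.card
    rcases h3 with rfl | rfl | rfl
    · rw [hK] at h7; norm_num at h7
    · exact h9 hK
    · exact h25 hK
  have hcount := H829.card_Fs_lt_n hE.st hq hK σ hsq hE.modd (by omega) hq7
  have htF : 0 < AS.t (Fs σ m) := by
    by_contra h0
    have h1 : AS.t (Fs σ m) = 0 := by omega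
    rw [h1, mul_zero] at hcount
    exact Nat.not_lt_zero _ hcount
  obtain ⟨w, hw, h1, α, φ, h3⟩ := t2_lit 𝕜 hS rfl hker hx (by rw [map_neg, map_one])
    (F := Fs σ m) (H387.Fs_subset) (fun w hw w' hww => by
      rw [mem_Fs] at hw ⊢
      exact ⟨(comb_eS hS hker).perm _ hw.1 _ hww, fun P hP => hw.2 P (hww.mem_iff.2 hP)⟩)
    (fun w hw P hP => (mem_Fs.1 hw).2 P hP) htF
  obtain ⟨u, hu⟩ := De_eq hE hε hcard hw
  refine ⟨u, ?_, ?_, ?_⟩
  · rw [← hu]
    exact De_le _ rfl w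
  · rw [← hu]
    exact h1
  · rw [← hu]
    exact tc_mono ⟨α, φ, h3⟩ hH

lemma top3 (𝕜 : Type w) [Field 𝕜] (hE : ENum K m) (h9 : Nat.card K ≠ 9) (h25 : Nat.card K ≠ 25)
    {L : Subgroup G} {ε : SOm K (m + 1) →* G}
    (hε : EHom L ε) (hcard : ∀ u : GU K (m + 1), Nat.card (Ae ε u) = 2 ^ (m - 1)) {x : G}
    {σ : K ≃+* K} (hσ2 : (σ : RingAut K) ^ 2 = 1) (hσ : σ ≠ RingEquiv.refl K)
    (hx : ActsS (ε.comp (io hE)) x 1 σ) (hx2 : x ^ 2 = 1) (hxL : x ∉ L) {H : Subgroup G}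
    (hH : Lm hE ε ⊔ Subgroup.zpowers x ≤ H) :
    ∃ u x', Ae ε u ≤ Lm hE ε ∧ x' * x⁻¹ ∈ Lm hE ε ∧ x' ^ 2 = 1 ∧
      (∀ c ∈ Ae ε u, x' * c = c * x') ∧ TC 𝕜 2 H (Ae ε u ⊔ Subgroup.zpowers x') := by
  have hS := sgood hE
  have hker := io_ker hE hε.ker
  have hm := hE.hm
  obtain ⟨q, hK, hsq⟩ := H296.O.inv_data hE.st σ hσ2 hσ
  have hq : Odd q := by
    by_contra h
    have h3 : Even (q ^ 2) := (Nat.not_odd_iff_even.1 h).pow_of_ne_zero two_ne_zero
    rw [← hK] at h3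
    exact (Nat.not_odd_iff_even.2 h3) hE.odd
  have hq7 : 7 ≤ q := by
    obtain ⟨k, rfl⟩ := hq
    by_contra h
    have h3 : k = 0 ∨ k = 1 ∨ k = 2 := by omega
    have h7 := hE.card
    rcases h3 with rfl | rfl | rfl
    · rw [hK] at h7; norm_num at h7
    · exact h9 hK
    · exact h25 hK
  have hcount := H829.card_Fs_lt_n hE.st hq hK σ hsq hE.modd (by omega) hq7
  obtain ⟨w, hw, h, h0, h1, α, φ, h3, -⟩ := H829.top_orth_n hE.st hq hK σ hsq hE.modd (by omega)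
    (SOm K m) (fun h => ⟨frS hS σ hx.1 h, rfl⟩)
    (H296.O.twist_mem hE.st (two_ne hE) hq σ hsq)
    (ε.comp (io hE)) (fun g hg => (hker g).1 hg) x hx2
    (fun hm => hxL (Lm_le hE hε hm))
    (fun h h' hh => hx.2 h h' (by
      show h'.1.1 = (1 : GU K m).1 * h.1.1.map σ * star (1 : GU K m).1
      rw [hh]
      show _ = (1 : Matrix (Fin m) (Fin m) K) * h.1.1.map σ * star (1 : Matrix (Fin m) (Fin m) K)
      rw [star_one, one_mul, mul_one]))
    (eS (SOm K m) (-1) (-1) (ε.comp (io hE)))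
    (fun v hv => ⟨sS (SOm K m) (-1) (-1) v, mx_sS hS hv, rfl⟩)
    (comb_eS hS hker) hcount 𝕜
  obtain ⟨u, hu⟩ := De_eq hE hε hcard hw
  have h5 : Subgroup.closure {z | ∃ u_1 v, w = u_1 ++ v ∧
      z = eS (SOm K m) (-1) (-1) (ε.comp (io hE)) u_1} = Ae ε u := hu
  rw [h5] at h1 h3
  refine ⟨u, (ε.comp (io hE)) h * x, ?_, ?_, h0, h1, tc_mono ⟨α, φ, h3⟩ hH⟩
  · rw [← hu]
    exact De_le _ rfl w
  · rw [mul_inv_cancel_right]
    exact ⟨h, rfl⟩

end

end

end Vale.Agent.P240.R2.H401.E
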