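import Vale.Agent.P240.R2.H401.E2

/-!
`LocTopF` at the prime `2` for the groups `PΩ_n(q)`, `n` even, standard form: the assembly.
-/

set_option autoImplicit false
set_option linter.all false

namespace Vale.Agent.P240.R2.H401.E

open Matrix Vale.Agent.P240.R2.AS Vale.Agent.P240.R2.H38 Vale.Agent.P240.K
open Vale.Agent.P240.R2.H938 (TD TC mem_TD)
open Vale.Agent.P240.R2.H296.O (SOm)
open Vale.Agent.P240.R2.H387 (Fs mem_Fs)
open Vale.Agent.P240.R2.H487 (LocTopF)
open scoped Classical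

universe u v w

noncomputable section

section
variable {K : Type u} [Field K] [StarRing K] {m : ℕ} {G : Type v} [Group G]

lemma sla_map (σ : K ≃+* K) : (sla K m).1.map σ = (sla K m).1 := by
  rw [sla_coe, diagonal_map (map_zero σ)]
  congr 1
  funext i
  by_cases hi : i = Fin.last m <;> simp [hi]

lemma sla_star : star (sla K m).1 = (sla K m).1 := by
  rw [sla_coe, star_eq_conjTranspose, diagonal_conjTranspose]
  congr 1
  funext i
  by_cases hi : i = Fin.last m <;> simp [hi]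

lemma sla_sq : sla K m * sla K m = 1 := by
  apply Subtype.ext
  have h := gu_star (sla K m)
  rw [sla_star] at h
  exact h

/-- multiplication by an element that acts as the last reflection -/
lemma acts_mul_sla {ε : SOm K (m + 1) →* G} {x e : G} {s : GU K (m + 1)} {σ : K ≃+* K}
    (hx : ActsS ε x s σ) (he : ActsS ε e (sla K m) (RingEquiv.refl K)) :
    ActsS ε (x * e) (s * sla K m) σ := by
  refine ⟨hx.1, fun h h' hh => ?_⟩
  have h1 : e * ε h * e⁻¹ = ε (cjO (sla K m) h) := by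
    refine he.2 h _ ?_
    rw [mx_cjO]
    congr 2
  have h2 : x * ε (cjO (sla K m) h) * x⁻¹ = ε h' := by
    refine hx.2 _ _ ?_
    rw [hh, mx_cjO, gu_mul, map_mul_mat, map_mul_mat, sla_star, sla_map, star_mul, sla_star]
    try simp only [mul_assoc]
  calc x * e * ε h * (x * e)⁻¹ = x * (e * ε h * e⁻¹) * x⁻¹ := by group
    _ = ε h' := by rw [h1, h2]

variable {s s' : GU K (m + 1)}

/-- the choice of the coset -/
lemma acts_choice {ε : SOm K (m + 1) →* G} {x e : G} {σ : K ≃+* K}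
    (hs : s = 1 ∨ s = sla K m) (hs' : s' = 1 ∨ s' = sla K m)
    (hx : ActsS ε x s σ) (he : ActsS ε e (sla K m) (RingEquiv.refl K)) :
    ∃ k : ℕ, (k = 0 ∨ k = 1) ∧ ActsS ε (x * e ^ k) s' σ := by
  have h1 := acts_mul_sla hx he
  rcases hs with rfl | rfl <;> rcases hs' with rfl | rfl
  · exact ⟨0, Or.inl rfl, by rw [pow_zero, mul_one]; exact hx⟩
  · exact ⟨1, Or.inr rfl, by rw [pow_one]; rw [one_mul] at h1; exact h1⟩
  · exact ⟨1, Or.inr rfl, by rw [pow_one]; rw [sla_sq] at h1; exact h1⟩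
  · exact ⟨0, Or.inl rfl, by rw [pow_zero, mul_one]; exact hx⟩

end

/-- **The assembly.** -/
theorem stmtE_of (hSem : StmtESem.{u, v}) (hEC : StmtEC.{u, v}) (hEN : StmtEN.{u})
    (hEII : StmtEII.{u, v, w}) : StmtE.{u, v, w} := by
  intro K _ _ _ m hE h9 h25 G _ _ L he 𝕜 _
  obtain ⟨e₀⟩ := he
  obtain ⟨ε, hε, -⟩ := hSem K m hE G L e₀
  have hm := hE.hm
  -- the groups `Ae`
  have hab : ∀ ε : SOm K (m + 1) →* G, EHom L ε → ∀ u, ∀ a ∈ Ae ε u, ∀ b ∈ Ae ε u,
      a * b = b * a ∧ a ^ 2 = 1 ∧ a ∈ L := by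
    intro ε hε u a ha b hb
    obtain ⟨h1, h2, -⟩ := (hEC K m hE G L ε hε).2.1 u
    exact ⟨h2.2.1 a ha b hb, h2.2.2 a ha, h1 ha⟩
  -- the statements in the standard coordinates
  have key : ∀ ε : SOm K (m + 1) →* G, EHom L ε →
      (∀ e ∈ Qe ε, e ∉ L ⊔ Subgroup.centralizer (L : Set G) → e ^ 2 = 1 →
        (∀ a ∈ Ae ε 1, e * a = a * e) →
        ∃ a ∈ Ae ε 1, ActsS ε (e * a) (sla K m) (RingEquiv.refl K) ∧ (e * a) ^ 2 = 1 ∧
          e * a ∉ L ∧ L ⊔ Subgroup.zpowers (e * a) = L ⊔ Subgroup.zpowers e ∧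
          (e * a) * e⁻¹ ∈ L) := by
    intro ε hε e heQ heM he2 hec
    obtain ⟨a, ha, h1⟩ := (hEC K m hE G L ε hε).2.2.2.2.2.2.2.2.1 e heQ heM he2 hec
    obtain ⟨-, ha2, haL⟩ := hab ε hε 1 a ha a ha
    refine ⟨a, ha, h1, ?_, ?_, ?_, ?_⟩
    · have hc : Commute e a := hec a ha
      rw [hc.mul_pow, he2, ha2, one_mul]
    · intro h
      apply heM
      have h2 : e = (e * a) * a⁻¹ := by group
      rw [h2]
      exact Subgroup.mem_sup_left (L.mul_mem h (L.inv_mem haL))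
    · apply le_antisymm
      · refine sup_le le_sup_left ?_
        rw [Subgroup.zpowers_le]
        exact Subgroup.mul_mem _ (Subgroup.mem_sup_right (Subgroup.mem_zpowers e))
          (Subgroup.mem_sup_left haL)
      · refine sup_le le_sup_left ?_
        rw [Subgroup.zpowers_le]
        have h2 : (e * a) * a⁻¹ = e := by group
        have h3 : (e * a) * a⁻¹ ∈ L ⊔ Subgroup.zpowers (e * a) :=
          Subgroup.mul_mem _ (Subgroup.mem_sup_right (Subgroup.mem_zpowers _))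
            (Subgroup.mem_sup_left (L.inv_mem haL))
        rwa [h2] at h3
    · rw [hec a ha, mul_inv_cancel_right]
      exact haL
  have keyt : ∀ ε : SOm K (m + 1) →* G, EHom L ε →
      (∀ t ∈ Subgroup.normalizer (L : Set G), t ∉ Qe ε → t ^ 2 = 1 →
        (∀ a ∈ Ae ε 1, t * a = a * t) →
        ∃ b ∈ Ae ε 1, ∃ (σ : K ≃+* K) (s : GU K (m + 1)), (σ : RingAut K) ^ 2 = 1 ∧
          σ ≠ RingEquiv.refl K ∧ (s = 1 ∨ s = sla K m) ∧ ActsS ε (t * b) s σ ∧ (t * b) ^ 2 = 1 ∧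
          t * b ∉ L ∧ (t * b) * t⁻¹ ∈ L) := by
    intro ε hε t htN htQ ht2 htc
    obtain ⟨b, hb, σ, h1, h2, h3⟩ :=
      (hEC K m hE G L ε hε).2.2.2.2.2.2.2.2.2 t htN htQ ht2 htc
    obtain ⟨-, hb2, hbL⟩ := hab ε hε 1 b hb b hb
    have hLQ := (hEC K m hE G L ε hε).2.2.1
    have h4 : (t * b) ^ 2 = 1 := by
      have hc : Commute t b := htc b hb
      rw [hc.mul_pow, ht2, hb2, one_mul]
    have h5 : t * b ∉ L := by
      intro h
      apply htQ
      have h2 : t = (t * b) * b⁻¹ := by group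
      rw [h2]
      exact hLQ (Subgroup.mem_sup_left (L.mul_mem h (L.inv_mem hbL)))
    have h6 : (t * b) * t⁻¹ ∈ L := by
      rw [htc b hb, mul_inv_cancel_right]
      exact hbL
    rcases h3 with h3 | h3
    · exact ⟨b, hb, σ, 1, h1, h2, Or.inl rfl, h3, h4, h5, h6⟩
    · exact ⟨b, hb, σ, sla K m, h1, h2, Or.inr rfl, h3, h4, h5, h6⟩
  -- elements that act as the last reflection commute with the small group
  have hcomL : ∀ (ε : SOm K (m + 1) →* G) (e : G), ActsS ε e (sla K m) (RingEquiv.refl K) →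
      ∀ y ∈ Lm hE ε, e * y = y * e := by
    rintro ε e he _ ⟨h, rfl⟩
    have h1 := acts_io hE (Or.inr rfl) he
    have h2 := h1.2 h h (by
      have e1 : ((1 : GU K m) : Matrix (Fin m) (Fin m) K) = 1 := rfl
      rw [e1, star_one, one_mul, mul_one]
      ext i j
      simp)
    rwa [mul_inv_eq_iff_eq_mul] at h2
  -- the number `q`
  have hnum : ∀ σ : K ≃+* K, (σ : RingAut K) ^ 2 = 1 → σ ≠ RingEquiv.refl K →
      ∃ q : ℕ, Odd q ∧ 7 ≤ q ∧ Nat.card K = q ^ 2 ∧ ∀ x : K, σ x = x ^ q := by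
    intro σ hσ2 hσ
    obtain ⟨q, hK, hsq⟩ := H296.O.inv_data hE.st σ hσ2 hσ
    have hq : Odd q := by
      by_contra h
      have h3 : Even (q ^ 2) := (Nat.not_odd_iff_even.1 h).pow_of_ne_zero two_ne_zero
      rw [← hK] at h3
      exact (Nat.not_odd_iff_even.2 h3) hE.odd
    have hq7 : 7 ≤ q := by
      obtain ⟨k, rfl⟩ := hq
      by_contra h
      have h3 : k = 0 ∨ k = 1 ∨ k = 2 := by omega
      have h7 := hE.card
      rcases h3 with rfl | rfl | rfl
      · rw [hK] at h7; norm_num at h7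
      · exact h9 hK
      · exact h25 hK
    exact ⟨q, hq, hq7, hK, hsq⟩
  obtain ⟨-, hA, hLQ, hQN, hZ, -⟩ := hEC K m hE G L ε hε
  -- change of coordinates
  have htw : ∀ u : GU K (m + 1), EHom L (ε.comp (cjO u)) ∧ Ae (ε.comp (cjO u)) 1 = Ae ε u ∧
      (∀ u', Ae (ε.comp (cjO u)) u' = Ae ε (u * u')) ∧ Qe (ε.comp (cjO u)) = Qe ε := by
    intro u
    obtain ⟨h1, h2, h3⟩ := (hEC K m hE G L ε hε).1 u
    exact ⟨h1, by rw [h2, mul_one], h2, h3⟩
  have hcard : ∀ ε : SOm K (m + 1) →* G, EHom L ε → ∀ u : GU K (m + 1),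
      Nat.card (Ae ε u) = 2 ^ (m - 1) := fun ε hε u => ((hEC K m hE G L ε hε).2.1 u).2.2
  refine H938.locTopF_of2 𝕜 (Q := Qe ε) (𝒜 := {A | ∃ u, A = Ae ε u}) (N := 2 ^ (m - 1)) hLQ hQN
    ⟨_, 1, rfl⟩ ?_ hZ ?_ ?_ ?_ ?_ ?_ ?_ ?_ ?_ ?_ ?_ ?_ ?_
  · rintro _ ⟨u, rfl⟩
    exact hA u
  · -- hC
    rintro _ ⟨u, rfl⟩ l hl hlp hlc
    obtain ⟨h1, h2, h3, h4⟩ := htw u
    rw [← h2] at hlc ⊢
    exact (hEC K m hE G L _ h1).2.2.2.2.2.1 l hl hlp hlc
  · -- hF1
    rintro _ ⟨u, rfl⟩ e he x hx hep hxp hex hec hxc heM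
    obtain ⟨h1, h2, h3, h4⟩ := htw u
    rw [← h2] at hec hxc
    rw [← h4] at he hx
    exact (hEC K m hE G L _ h1).2.2.2.2.2.2.1 e he x hx hep hxp hex hec hxc heM
  · -- hF2
    rintro _ ⟨u, rfl⟩ t ht x hx htp hxp htx htc hxc htQ
    obtain ⟨h1, h2, h3, h4⟩ := htw u
    rw [← h2] at htc hxc
    rw [← h4] at htQ ⊢
    exact (hEC K m hE G L _ h1).2.2.2.2.2.2.2.1 t ht x hx htp hxp htx htc hxc htQ
  · -- T1
    obtain ⟨u, -, h1⟩ := top1 𝕜 hE hε (hcard ε hε) (Lm_le hE hε)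
    exact ⟨_, ⟨u, rfl⟩, h1⟩
  · -- Te
    rintro _ ⟨u, rfl⟩ e heQ heM he2 hec
    obtain ⟨h1, h2, h3, h4⟩ := htw u
    rw [← h2] at hec
    rw [← h4] at heQ
    obtain ⟨a, ha, hact, -⟩ := key _ h1 e heQ heM he2 hec
    have hcl := hcomL _ _ hact
    obtain ⟨u', k1, k2⟩ := top1 𝕜 hE h1 (hcard _ h1) (H := L ⊓ Subgroup.centralizer ({e * a} : Set G))
      (le_inf (Lm_le hE h1) (fun y hy => Subgroup.mem_centralizer_iff.2 (by
        rintro _ rfl
        exact hcl y hy)))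
    rw [h2] at ha
    refine ⟨a, ha, _, ⟨u * u', rfl⟩, ?_, ?_⟩
    · rw [← h3]
      exact fun c hc => hcl c (k1 hc)
    · rw [← h3]
      exact k2
  · -- Tt
    rintro _ ⟨u, rfl⟩ t htN htQ ht2 htc
    obtain ⟨h1, h2, h3, h4⟩ := htw u
    rw [← h2] at htc
    rw [← h4] at htQ
    obtain ⟨b, hb, σ, s, s1, s2, s3, s4, -⟩ := keyt _ h1 t htN htQ ht2 htc
    obtain ⟨u', k1, k2, k3⟩ := top2 𝕜 hE h9 h25 h1 (hcard _ h1) s1 s2 (acts_io hE s3 s4)
      (H := L ⊓ Subgroup.centralizer ({t * b} : Set G)) (inf_le_inf_right _ (Lm_le hE h1))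
    rw [h2] at hb
    refine ⟨b, hb, _, ⟨u * u', rfl⟩, ?_, ?_⟩
    · rw [← h3]
      exact k2
    · rw [← h3]
      exact k3
  · -- Tet
    rintro _ ⟨u, rfl⟩ e heQ heM he2 hec t htN htQ ht2 htc het
    obtain ⟨h1, h2, h3, h4⟩ := htw u
    rw [← h2] at hec htc
    rw [← h4] at heQ htQ
    obtain ⟨a, ha, hact, -⟩ := key _ h1 e heQ heM he2 hec
    obtain ⟨b, hb, σ, s, s1, s2, s3, s4, -⟩ := keyt _ h1 t htN htQ ht2 htc
    have hcl := hcomL _ _ hact
    obtain ⟨u', k1, k2, k3⟩ := top2 𝕜 hE h9 h25 h1 (hcard _ h1) s1 s2 (acts_io hE s3 s4)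
      (H := L ⊓ Subgroup.centralizer ({e * a} : Set G) ⊓ Subgroup.centralizer ({t * b} : Set G))
      (inf_le_inf_right _ (le_inf (Lm_le hE h1) (fun y hy => Subgroup.mem_centralizer_iff.2 (by
        rintro _ rfl
        exact hcl y hy))))
    rw [h2] at ha hb
    refine ⟨a, ha, b, hb, 0, _, ⟨u * u', rfl⟩, ?_, ?_, ?_⟩
    · rw [← h3]
      exact fun c hc => hcl c (k1 hc)
    · rw [← h3, pow_zero, mul_one]
      exact k2
    · rw [← h3, pow_zero, mul_one]
      exact k3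
  · -- Se
    rintro _ ⟨u, rfl⟩ e heQ heM he2 hec
    obtain ⟨h1, h2, h3, h4⟩ := htw u
    rw [← h2] at hec
    rw [← h4] at heQ
    obtain ⟨a, ha, hact, e1, e2, e3, e4⟩ := key _ h1 e heQ heM he2 hec
    obtain ⟨⟨u', e', k1, k2, k3, k4⟩, -⟩ := hEII K m hE G L _ h1 𝕜 (e * a) e1 e2 hact
    refine ⟨_, ⟨u * u', rfl⟩, e', ?_, k2, ?_, ?_⟩
    · have h5 : e' * e⁻¹ = (e' * (e * a)⁻¹) * ((e * a) * e⁻¹) := by group
      rw [h5]
      exact L.mul_mem k1 e4
    · rw [← h3]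
      exact k3
    · rw [← h3, ← e3]
      exact k4
  · -- S2
    rintro _ ⟨u, rfl⟩ e heQ heM he2 hec t htN htQ ht2 htc het
    obtain ⟨h1, h2, h3, h4⟩ := htw u
    rw [← h2] at hec htc
    rw [← h4] at heQ htQ
    obtain ⟨a, ha, hact, e1, e2, e3, e4⟩ := key _ h1 e heQ heM he2 hec
    obtain ⟨b, hb, σ, s, s1, s2, s3, s4, t1, t2, t3⟩ := keyt _ h1 t htN htQ ht2 htc
    obtain ⟨q, hq, hq7, hK, hsq⟩ := hnum σ s1 s2
    obtain ⟨s', hs', hcnt⟩ := hEN K m hE q hq hq7 hK σ hsq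
    have htF : 0 < AS.t (Ftw s' σ) := by
      by_contra h0
      have h5 : AS.t (Ftw s' σ) = 0 := by omega
      rw [h5, mul_zero] at hcnt
      exact Nat.not_lt_zero _ hcnt
    obtain ⟨k, hk, hx⟩ := acts_choice s3 hs' s4 hact
    obtain ⟨hab1, ha2, haL⟩ := hab _ h1 1 a ha b hb
    have hxe : (t * b * (e * a) ^ k) * (e * a) = (e * a) * (t * b * (e * a) ^ k) := by
      have c1 : Commute (t * b) (e * a) := by
        have d1 : Commute t e := het.symm
        have d2 : Commute t a := htc a ha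
        have d3 : Commute b e := (hec b hb).symm
        have d4 : Commute b a := hab1.symm
        exact (d1.mul_right d2).mul_left (d3.mul_right d4)
      exact (c1.mul_left ((Commute.refl (e * a)).pow_left k)).eq
    obtain ⟨-, hII, -⟩ := hEII K m hE G L _ h1 𝕜 (e * a) e1 e2 hact
    obtain ⟨u', e', k1, k2, k3, k4, k5, k6⟩ := hII _ σ s' hs' hxe hx htF
    -- the form `t * e ^ k * a'`
    obtain ⟨a', ha', hxa⟩ : ∃ a' ∈ Ae (ε.comp (cjO u)) 1, t * b * (e * a) ^ k = t * e ^ k * a' := by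
      rcases hk with rfl | rfl
      · exact ⟨b, hb, by rw [pow_zero, pow_zero, mul_one, mul_one]⟩
      · refine ⟨b * a, Subgroup.mul_mem _ hb ha, ?_⟩
        rw [pow_one, pow_one]
        have d3 : b * e = e * b := (hec b hb).symm
        calc t * b * (e * a) = t * (b * e) * a := by group
          _ = t * e * (b * a) := by rw [d3]; group
    rw [hxa] at k4 k5 k6
    rw [h2] at ha'
    refine ⟨a', ha', k, _, ⟨u * u', rfl⟩, e', ?_, k2, ?_, ?_, k5, ?_⟩
    · have h5 : e' * e⁻¹ = (e' * (e * a)⁻¹) * ((e * a) * e⁻¹) := by group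
      rw [h5]
      exact L.mul_mem k1 e4
    · rw [← h3]
      exact k3
    · rw [← h3]
      exact k4
    · rw [← h3, ← e3]
      exact k6
  · -- St
    rintro _ ⟨u, rfl⟩ t htN htQ ht2 htc
    obtain ⟨h1, h2, h3, h4⟩ := htw u
    rw [← h2] at htc
    rw [← h4] at htQ
    obtain ⟨b, hb, σ, s, s1, s2, s3, s4, t1, t2, t3⟩ := keyt _ h1 t htN htQ ht2 htc
    have hbL := (hab _ h1 1 b hb b hb).2.2
    obtain ⟨u', x', k1, k2, k3, k4, k5⟩ := top3 𝕜 hE h9 h25 h1 (hcard _ h1) s1 s2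
      (acts_io hE s3 s4) t1 t2 (H := L ⊔ Subgroup.zpowers t)
      (sup_le ((Lm_le hE h1).trans le_sup_left) (by
        rw [Subgroup.zpowers_le]
        exact Subgroup.mul_mem _ (Subgroup.mem_sup_right (Subgroup.mem_zpowers t))
          (Subgroup.mem_sup_left hbL)))
    refine ⟨_, ⟨u * u', rfl⟩, x', ?_, k3, ?_, ?_⟩
    · have h5 : x' * t⁻¹ = (x' * (t * b)⁻¹) * ((t * b) * t⁻¹) := by group
      rw [h5]
      exact L.mul_mem (Lm_le hE h1 k2) t3
    · rw [← h3]
      exact k4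
    · rw [← h3]
      exact k5
  · -- Ste
    rintro _ ⟨u, rfl⟩ e heQ heM he2 hec t htN htQ ht2 htc het
    obtain ⟨h1, h2, h3, h4⟩ := htw u
    rw [← h2] at hec htc
    rw [← h4] at heQ htQ
    obtain ⟨a, ha, hact, e1, e2, e3, e4⟩ := key _ h1 e heQ heM he2 hec
    obtain ⟨b, hb, σ, s, s1, s2, s3, s4, t1, t2, t3⟩ := keyt _ h1 t htN htQ ht2 htc
    obtain ⟨hab1, -, haL⟩ := hab _ h1 1 a ha b hb
    have hbL := (hab _ h1 1 b hb b hb).2.2
    have hcl := hcomL _ _ hact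
    have hxe : (e * a) * (t * b) = (t * b) * (e * a) := by
      have c1 : Commute (t * b) (e * a) := by
        have d1 : Commute t e := het.symm
        have d2 : Commute t a := htc a ha
        have d3 : Commute b e := (hec b hb).symm
        have d4 : Commute b a := hab1.symm
        exact (d1.mul_right d2).mul_left (d3.mul_right d4)
      exact c1.symm.eq
    obtain ⟨u', x', k1, k2, k3, k4, k5⟩ := top3 𝕜 hE h9 h25 h1 (hcard _ h1) s1 s2
      (acts_io hE s3 s4) t1 t2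
      (H := (L ⊔ Subgroup.zpowers t) ⊓ Subgroup.centralizer ({e * a} : Set G))
      (sup_le (le_inf ((Lm_le hE h1).trans le_sup_left)
        (fun y hy => Subgroup.mem_centralizer_iff.2 (by
          rintro _ rfl
          exact hcl y hy))) (by
        rw [Subgroup.zpowers_le]
        refine ⟨Subgroup.mul_mem _ (Subgroup.mem_sup_right (Subgroup.mem_zpowers t))
          (Subgroup.mem_sup_left hbL), Subgroup.mem_centralizer_iff.2 ?_⟩
        rintro _ rfl
        exact hxe))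
    rw [h2] at ha
    refine ⟨a, ha, _, ⟨u * u', rfl⟩, x', ?_, k3, ?_, ?_, ?_, ?_⟩
    · have h5 : x' * t⁻¹ = (x' * (t * b)⁻¹) * ((t * b) * t⁻¹) := by group
      rw [h5]
      exact L.mul_mem (Lm_le hE h1 k2) t3
    · rw [← h3]
      exact k4
    · rw [← h3]
      exact fun c hc => hcl c (k1 hc)
    · have h5 : x' = (x' * (t * b)⁻¹) * (t * b) := by group
      have c1 : Commute (e * a) (x' * (t * b)⁻¹) := hcl _ k2
      have c2 : Commute (e * a) (t * b) := hxe
      rw [h5]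
      exact (c1.mul_right c2).eq
    · rw [← h3]
      exact k5
  · -- Sett
    rintro _ ⟨u, rfl⟩ e heQ heM he2 hec t htN htQ ht2 htc het
    obtain ⟨h1, h2, h3, h4⟩ := htw u
    rw [← h2] at hec htc
    rw [← h4] at heQ htQ
    obtain ⟨a, ha, hact, e1, e2, e3, e4⟩ := key _ h1 e heQ heM he2 hec
    obtain ⟨b, hb, σ, s, s1, s2, s3, s4, t1, t2, t3⟩ := keyt _ h1 t htN htQ ht2 htc
    obtain ⟨q, hq, hq7, hK, hsq⟩ := hnum σ s1 s2
    obtain ⟨s', hs', hcnt⟩ := hEN K m hE q hq hq7 hK σ hsq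
    obtain ⟨k, hk, hx⟩ := acts_choice s3 hs' s4 hact
    obtain ⟨hab1, ha2, haL⟩ := hab _ h1 1 a ha b hb
    have hbL := (hab _ h1 1 b hb b hb).2.2
    have c1 : Commute (t * b) (e * a) := by
      have d1 : Commute t e := het.symm
      have d2 : Commute t a := htc a ha
      have d3 : Commute b e := (hec b hb).symm
      have d4 : Commute b a := hab1.symm
      exact (d1.mul_right d2).mul_left (d3.mul_right d4)
    have hxe : (t * b * (e * a) ^ k) * (e * a) = (e * a) * (t * b * (e * a) ^ k) :=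
      (c1.mul_left ((Commute.refl (e * a)).pow_left k)).eq
    have hx2 : (t * b * (e * a) ^ k) ^ 2 = 1 := by
      have c2 : Commute (t * b) ((e * a) ^ k) := c1.pow_right k
      rw [c2.mul_pow, t1, ← pow_mul, mul_comm, pow_mul, e1, one_pow, one_mul]
    have hLe : L ⊔ Subgroup.zpowers (e * a) ≤ Qe (ε.comp (cjO u)) := by
      rw [e3]
      refine sup_le ?_ ?_
      · have := (hEC K m hE G L _ h1).2.2.1
        exact le_sup_left.trans this
      · rw [Subgroup.zpowers_le]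
        exact heQ
    have hxL : t * b * (e * a) ^ k ∉ L ⊔ Subgroup.zpowers (e * a) := by
      intro h
      apply htQ
      have h5 : t = (t * b * (e * a) ^ k) * ((e * a) ^ k)⁻¹ * b⁻¹ := by group
      rw [h5]
      refine Subgroup.mul_mem _ (Subgroup.mul_mem _ (hLe h) (Subgroup.inv_mem _
        (Subgroup.pow_mem _ (hLe (Subgroup.mem_sup_right (Subgroup.mem_zpowers _))) _)))
        (Subgroup.inv_mem _ (hLe (Subgroup.mem_sup_left hbL)))
    obtain ⟨-, -, hIII⟩ := hEII K m hE G L _ h1 𝕜 (e * a) e1 e2 hact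
    obtain ⟨u', e', x', k1, k2, k3, k4, k5, k6, k7, k8⟩ :=
      hIII q hq hK _ σ s' hsq hs' hxe hx2 hxL hx hcnt
    refine ⟨_, ⟨u * u', rfl⟩, e', x', ?_, ?_, k3, k4, ?_, ?_, k7, ?_⟩
    · have h5 : e' * e⁻¹ = (e' * (e * a)⁻¹) * ((e * a) * e⁻¹) := by group
      rw [h5]
      exact L.mul_mem k1 e4
    · rw [e3] at k2
      have h5 : x' * t⁻¹ = (x' * (t * b * (e * a) ^ k)⁻¹) * ((t * b * (e * a) ^ k) * t⁻¹) := by
        group
      rw [h5]
      refine Subgroup.mul_mem _ k2 ?_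
      have c3 : Commute (e * a) t := by
        have d1 : Commute t e := het.symm
        have d2 : Commute t a := htc a ha
        exact (d1.mul_right d2).symm
      have h6 : (t * b * (e * a) ^ k) * t⁻¹ = (t * b * t⁻¹) * (e * a) ^ k := by
        have c4 : Commute ((e * a) ^ k) t⁻¹ := (c3.pow_left k).inv_right
        calc (t * b * (e * a) ^ k) * t⁻¹ = t * b * ((e * a) ^ k * t⁻¹) := by group
          _ = t * b * (t⁻¹ * (e * a) ^ k) := by rw [c4.eq]
          _ = _ := by group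
      rw [h6]
      refine Subgroup.mul_mem _ (Subgroup.mem_sup_left t3) (Subgroup.pow_mem _ ?_ _)
      exact Subgroup.mul_mem _ (Subgroup.mem_sup_right (Subgroup.mem_zpowers e))
        (Subgroup.mem_sup_left haL)
    · rw [← h3]
      exact k5
    · rw [← h3]
      exact k6
    · rw [← h3]
      refine tc_mono k8 ?_
      rw [e3]
      refine sup_le le_sup_left ?_
      rw [Subgroup.zpowers_le]
      refine Subgroup.mul_mem _ (Subgroup.mul_mem _
        (Subgroup.mem_sup_right (Subgroup.mem_zpowers t))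
        (Subgroup.mem_sup_left (Subgroup.mem_sup_left hbL))) (Subgroup.pow_mem _ ?_ _)
      exact Subgroup.mem_sup_left (Subgroup.mul_mem _
        (Subgroup.mem_sup_right (Subgroup.mem_zpowers e)) (Subgroup.mem_sup_left haL))

end

end Vale.Agent.P240.R2.H401.E
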