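import Vale.Agent.P240.R2.H938.W2
import Vale.Agent.P240.R2.H296.OAsm

/-!
The even orthogonal groups `PΩ_n(q)`, `n = m + 1` even, standard form, at the prime `2`:
definitions and the list of statements.
-/

set_option autoImplicit false
set_option linter.all false

namespace Vale.Agent.P240.R2.H401.E

open Matrix Vale.Agent.P240.R2.AS Vale.Agent.P240.R2.H38 Vale.Agent.P240.K
open Vale.Agent.P240.R2.H938 (TD TC mem_TD)
open Vale.Agent.P240.R2.H296.O (SOm)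
open Vale.Agent.P240.R2.H487 (LocTopF)
open scoped Classical

universe u v w

noncomputable section

section
variable {K : Type u} [Field K] [StarRing K] {n : ℕ}

lemma SOm_normal : (SOm K n).Normal := by
  unfold SOm
  infer_instance

/-- conjugation by a unitary matrix on `SOm` -/
def cjO (u : GU K n) : SOm K n →* SOm K n where
  toFun h := ⟨u * h.1 * u⁻¹, SOm_normal.conj_mem h.1 h.2 u⟩
  map_one' := by
    apply Subtype.ext
    show u * 1 * u⁻¹ = 1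
    rw [mul_one, mul_inv_cancel]
  map_mul' a b := by
    apply Subtype.ext
    show u * (a.1 * b.1) * u⁻¹ = (u * a.1 * u⁻¹) * (u * b.1 * u⁻¹)
    group

lemma mx_cjO (u : GU K n) (h : SOm K n) : mx (cjO u h) = u.1 * mx h * star u.1 := rfl

lemma cjO_mul (u v : GU K n) (h : SOm K n) : cjO (u * v) h = cjO u (cjO v h) := by
  apply Subtype.ext
  show (u * v) * h.1 * (u * v)⁻¹ = u * (v * h.1 * v⁻¹) * u⁻¹
  group

lemma cjO_one (h : SOm K n) : cjO 1 h = h := by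
  apply Subtype.ext
  show 1 * h.1 * 1⁻¹ = h.1
  group

variable {G : Type v} [Group G]

/-- the elementary abelian subgroup of `L` in the coordinates `u`: the image of the diagonal
matrices in `SOm` with entries `±1` -/
def Ae (ε : SOm K n →* G) (u : GU K n) : Subgroup G := (TD K 2 (SOm K n)).map (ε.comp (cjO u))

/-- the homomorphisms `SOm → L` -/
structure EHom (L : Subgroup G) (ε : SOm K n →* G) : Prop where
  range : ε.range = L
  ker : ∀ g : SOm K n, ε g = 1 ↔ ∃ a : K, mx g = a • (1 : Matrix (Fin n) (Fin n) K)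
  sem : ∀ u : GU K n, ∀ x ∈ Subgroup.normalizer (L : Set G), x ^ 2 = 1 →
    (∀ y ∈ Ae ε u, x * y = y * x) → ∃ g σ, ActsS ε x g σ

/-- the elements that act as orthogonal matrices -/
def Qe (ε : SOm K n →* G) : Subgroup G where
  carrier := {x | ∃ g : GU K n, ∀ h : SOm K n, x * ε h * x⁻¹ = ε (cjO g h)}
  mul_mem' := by
    rintro x y ⟨g, hg⟩ ⟨g', hg'⟩
    refine ⟨g * g', fun h => ?_⟩
    rw [cjO_mul, ← hg, ← hg']
    group
  one_mem' := ⟨1, fun h => by rw [cjO_one]; group⟩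
  inv_mem' := by
    rintro x ⟨g, hg⟩
    refine ⟨g⁻¹, fun h => ?_⟩
    have h1 := hg (cjO g⁻¹ h)
    rw [← cjO_mul, mul_inv_cancel, cjO_one] at h1
    rw [← h1]
    group

lemma mem_Qe {ε : SOm K n →* G} {x : G} :
    x ∈ Qe ε ↔ ∃ g : GU K n, ∀ h : SOm K n, x * ε h * x⁻¹ = ε (cjO g h) := Iff.rfl

variable (K) in
/-- the reflection in the last coordinate -/
def sla (m : ℕ) : GU K (m + 1) :=
  ⟨diagonal (fun i => if i = Fin.last m then -1 else 1), by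
    rw [mem_unitaryGroup_iff, star_eq_conjTranspose, diagonal_conjTranspose, diagonal_mul_diagonal,
      ← diagonal_one]
    congr 1
    funext i
    by_cases hi : i = Fin.last m
    · simp [hi]
    · simp [hi]⟩

lemma sla_coe (m : ℕ) : (sla K m).1 = diagonal (fun i => if i = Fin.last m then (-1 : K) else 1) :=
  rfl

variable (K) in
/-- `SOm` together with the reflections in the letters -/
def S1 (m : ℕ) : Subgroup (GU K (m + 1)) := SOm K (m + 1) ⊔ Subgroup.zpowers (sla K m)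

variable [Fintype K]

/-- the frames of the letters fixed by `P ↦ s σ(P) s*` -/
def Ftw (s : GU K n) (σ : K ≃+* K) : Finset (List (Ln K n)) :=
  (Fr K n).filter (fun w => ∀ P ∈ w, s.1 * P.1.map σ * star s.1 = P.1)

end

/-- the hypotheses on the field and the dimension (`n = m + 1` even) -/
structure ENum (K : Type u) [Field K] [Fintype K] [StarRing K] (m : ℕ) : Prop where
  st : ∀ x : K, star x = x
  odd : Odd (Nat.card K)
  card : 7 ≤ Nat.card K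
  modd : Odd m
  hm : 5 ≤ m

/-- (EF) facts on the subgroup `SOm K n`, `n` even (owner 275) -/
def StmtEF : Prop :=
  ∀ (K : Type u) [Field K] [Fintype K] [StarRing K] (m : ℕ), ENum K m →
    (∀ w : List (Ln K (m + 1)), Orth w → Even w.length → ∃ g : SOm K (m + 1), mx g = sM (-1) 1 w) ∧
    (∀ d : Fin (m + 1) → K, (∀ i, d i ^ 2 = 1) → ∀ g : GU K (m + 1), g.1 = diagonal d →
      (g ∈ SOm K (m + 1) ↔ ∏ i, d i = 1)) ∧
    (∀ g ∈ SOm K (m + 1), g.1.det = 1) ∧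
    (∀ (σ : K ≃+* K) (hσ : ∀ a, σ (star a) = star (σ a)), ∀ g ∈ SOm K (m + 1),
      gmap σ hσ g ∈ SOm K (m + 1)) ∧
    (∀ (u : GU K (m + 1)) (σ : K ≃+* K), (∀ a, σ (star a) = star (σ a)) →
      (∃ d : Fin (m + 1) → K, u.1 = diagonal d) →
      (∀ k : SOm K (m + 1), ∃ a : K, u.1 * (mx k).map σ * star u.1 = a • mx k) →
      (∀ x, σ x = x) ∧ ∃ a : K, u.1 = a • (1 : Matrix (Fin (m + 1)) (Fin (m + 1)) K))

/-- (EO6a) transitivity of `Ω` on the pairs of letters with the same trace, `n` even (owner 145) -/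
def StmtEO6a : Prop :=
  ∀ (K : Type u) [Field K] [Fintype K] [StarRing K] (m : ℕ), ENum K m →
    ∀ P Q P' Q' : Ln K (m + 1), (P.1 * Q.1).trace = (P'.1 * Q'.1).trace → (P.1 * Q.1).trace ≠ 1 →
    ∃ g ∈ SOm K (m + 1), g.1 * P.1 * star g.1 = P'.1 ∧ g.1 * Q.1 * star g.1 = Q'.1

/-- (ESem) the homomorphism with `sem` (owner 651, 296) -/
def StmtESem : Prop :=
  ∀ (K : Type u) [Field K] [Fintype K] [StarRing K] (m : ℕ), ENum K m →
    ∀ (G : Type v) [Group G] [Finite G] (L : Subgroup G) (e : commutator (PGU K (m + 1)) ≃* L),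
    ∃ ε : SOm K (m + 1) →* G, EHom L ε ∧ ∀ g : SOm K (m + 1), ε g = (e ⟨_, g.2⟩ : L)

/-- (EC) coordinates (owner 727) -/
def StmtEC : Prop :=
  ∀ (K : Type u) [Field K] [Fintype K] [StarRing K] (m : ℕ), ENum K m →
    ∀ (G : Type v) [Group G] [Finite G] (L : Subgroup G) (ε : SOm K (m + 1) →* G), EHom L ε →
    -- change of coordinates
    (∀ u : GU K (m + 1), EHom L (ε.comp (cjO u)) ∧ (∀ u', Ae (ε.comp (cjO u)) u' = Ae ε (u * u')) ∧
      Qe (ε.comp (cjO u)) = Qe ε) ∧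
    -- the groups `Ae`
    (∀ u : GU K (m + 1), Ae ε u ≤ L ∧ Ae ε u ∈ ApS 2 G ∧ Nat.card (Ae ε u) = 2 ^ (m - 1)) ∧
    L ⊔ Subgroup.centralizer (L : Set G) ≤ Qe ε ∧ Qe ε ≤ Subgroup.normalizer (L : Set G) ∧
    L ⊓ Subgroup.centralizer (L : Set G) = ⊥ ∧
    (∀ l ∈ L, l ^ 2 = 1 → (∀ y ∈ Ae ε 1, l * y = y * l) → l ∈ Ae ε 1) ∧
    -- hF1
    (∀ e ∈ Qe ε, ∀ x ∈ Qe ε, e ^ 2 = 1 → x ^ 2 = 1 → e * x = x * e →
      (∀ a ∈ Ae ε 1, e * a = a * e) → (∀ a ∈ Ae ε 1, x * a = a * x) →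
      e ∉ L ⊔ Subgroup.centralizer (L : Set G) →
      ∃ k : ℕ, x * e ^ k ∈ L ⊔ Subgroup.centralizer (L : Set G)) ∧
    -- hF2
    (∀ t ∈ Subgroup.normalizer (L : Set G), ∀ x ∈ Subgroup.normalizer (L : Set G), t ^ 2 = 1 →
      x ^ 2 = 1 → t * x = x * t → (∀ a ∈ Ae ε 1, t * a = a * t) →
      (∀ a ∈ Ae ε 1, x * a = a * x) → t ∉ Qe ε → ∃ k : ℕ, x * t ^ k ∈ Qe ε) ∧
    -- the literal form of `e`
    (∀ e ∈ Qe ε, e ∉ L ⊔ Subgroup.centralizer (L : Set G) → e ^ 2 = 1 →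
      (∀ a ∈ Ae ε 1, e * a = a * e) →
      ∃ a ∈ Ae ε 1, ActsS ε (e * a) (sla K m) (RingEquiv.refl K)) ∧
    -- the literal form of `t`
    (∀ t ∈ Subgroup.normalizer (L : Set G), t ∉ Qe ε → t ^ 2 = 1 →
      (∀ a ∈ Ae ε 1, t * a = a * t) →
      ∃ a ∈ Ae ε 1, ∃ σ : K ≃+* K, (σ : RingAut K) ^ 2 = 1 ∧ σ ≠ RingEquiv.refl K ∧
        (ActsS ε (t * a) 1 σ ∨ ActsS ε (t * a) (sla K m) σ))

/-- (EN) the numbers (owner 472) -/
def StmtEN : Prop :=
  ∀ (K : Type u) [Field K] [Fintype K] [StarRing K] (m : ℕ), ENum K m → ∀ q : ℕ, Odd q → 7 ≤ q →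
    Nat.card K = q ^ 2 → ∀ σ : K ≃+* K, (∀ x : K, σ x = x ^ q) →
    ∃ s : GU K (m + 1), (s = 1 ∨ s = sla K m) ∧
      (Ftw s σ).card < (m + 1) * 2 ^ (m - 1) * AS.t (Ftw s σ)

/-- (EII) the top cycles in dimension `n = m + 1` (owner 829): `e` acts as the last reflection, `x` as
`h ↦ s σ(h) s*`, `s = 1` or the last reflection -/
def StmtEII : Prop :=
  ∀ (K : Type u) [Field K] [Fintype K] [StarRing K] (m : ℕ), ENum K m →
    ∀ (G : Type v) [Group G] [Finite G] (L : Subgroup G) (ε : SOm K (m + 1) →* G), EHom L ε →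
    ∀ (𝕜 : Type w) [Field 𝕜] (e : G), e ^ 2 = 1 → e ∉ L →
    ActsS ε e (sla K m) (RingEquiv.refl K) →
    (∃ (u : GU K (m + 1)) (e' : G), e' * e⁻¹ ∈ L ∧ e' ^ 2 = 1 ∧ (∀ a ∈ Ae ε u, e' * a = a * e') ∧
      TC 𝕜 2 (L ⊔ Subgroup.zpowers e) (Ae ε u ⊔ Subgroup.zpowers e')) ∧
    (∀ (x : G) (σ : K ≃+* K) (s : GU K (m + 1)), (s = 1 ∨ s = sla K m) → x * e = e * x →
      ActsS ε x s σ → 0 < AS.t (Ftw s σ) →
      ∃ (u : GU K (m + 1)) (e' : G), e' * e⁻¹ ∈ L ∧ e' ^ 2 = 1 ∧ (∀ a ∈ Ae ε u, e' * a = a * e') ∧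
        (∀ a ∈ Ae ε u, x * a = a * x) ∧ x * e' = e' * x ∧
        TC 𝕜 2 ((L ⊔ Subgroup.zpowers e) ⊓ Subgroup.centralizer ({x} : Set G))
          (Ae ε u ⊔ Subgroup.zpowers e')) ∧
    (∀ (q : ℕ), Odd q → Nat.card K = q ^ 2 → ∀ (x : G) (σ : K ≃+* K) (s : GU K (m + 1)),
      (∀ y : K, σ y = y ^ q) → (s = 1 ∨ s = sla K m) → x * e = e * x → x ^ 2 = 1 →
      x ∉ L ⊔ Subgroup.zpowers e → ActsS ε x s σ →
      (Ftw s σ).card < (m + 1) * 2 ^ (m - 1) * AS.t (Ftw s σ) →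
      ∃ (u : GU K (m + 1)) (e' x' : G), e' * e⁻¹ ∈ L ∧ x' * x⁻¹ ∈ L ⊔ Subgroup.zpowers e ∧
        e' ^ 2 = 1 ∧ x' ^ 2 = 1 ∧ (∀ a ∈ Ae ε u, e' * a = a * e') ∧
        (∀ a ∈ Ae ε u, x' * a = a * x') ∧ e' * x' = x' * e' ∧
        TC 𝕜 2 (L ⊔ Subgroup.zpowers e ⊔ Subgroup.zpowers x)
          (Ae ε u ⊔ Subgroup.zpowers e' ⊔ Subgroup.zpowers x'))

/-- the result for the standard form -/
def StmtE : Prop :=
  ∀ (K : Type u) [Field K] [Fintype K] [StarRing K] (m : ℕ), ENum K m → Nat.card K ≠ 9 →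
    Nat.card K ≠ 25 → ∀ (G : Type v) [Group G] [Finite G] (L : Subgroup G),
    Nonempty (commutator (PGU K (m + 1)) ≃* L) → ∀ (𝕜 : Type w) [Field 𝕜], LocTopF 𝕜 2 L

end

end Vale.Agent.P240.R2.H401.E
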