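import Vale.Agent.P240.R2.H38.V6
import Vale.Agent.P240.R2.H401.NL5

/-!
Hilbert 90 for diagonal matrices: the statement `H90`.
-/

set_option autoImplicit false
set_option linter.all false

namespace Vale.Agent.P240.R2.H401

open Matrix Vale.Agent.P240.R2.AS Vale.Agent.P240.R2.H38
open scoped Classical

universe u

noncomputable section

variable {K : Type u} [Field K] [StarRing K] [Finite K] {q : ℕ}

/-- `p` odd -/
theorem h90_odd (hK : Nat.card K = q ^ 2) (hstar : ∀ x : K, star x = x ^ q) {p : ℕ}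
    (hp : p.Prime) (hp2 : p ≠ 2) (n : ℕ) : H90 n p K := by
  intro σ _ hσp hσ a ha hprod
  have hs : ∀ x, (σ^[p]) x = x := by
    intro x
    rw [← coe_pow_aut, hσp]
    rfl
  obtain ⟨c, b, hc, hb, hab⟩ := hilb_odd hK hstar hp hp2 σ hs (fun h => hσ h) a ha hprod
  have hb0 : ∀ i, b i ≠ 0 := fun i => left_ne_zero_of_mul_eq_one (hb i)
  have hsb : ∀ i, σ (b i) ≠ 0 := fun i => (map_ne_zero σ).2 (hb0 i)
  refine ⟨⟨diagonal b, ?_⟩, c, ?_⟩
  · rw [Matrix.mem_unitaryGroup_iff, star_eq_conjTranspose, diagonal_conjTranspose,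
      diagonal_mul_diagonal, ← diagonal_one]
    congr 1
    funext i
    exact hb i
  · show diagonal a * (diagonal b).map σ = c • diagonal b
    rw [Matrix.diagonal_map (map_zero σ), diagonal_mul_diagonal, ← Matrix.diagonal_smul]
    congr 1
    funext i
    show a i * σ (b i) = c * b i
    rw [hab i]
    field_simp [hsb i]

/-- `p = 2` -/
theorem h90_two (hK : Nat.card K = q ^ 2) (hstar : ∀ x : K, star x = x ^ q) (hq : Odd q) {n : ℕ}
    (hn : Odd n) : H90 n 2 K := by
  intro σ _ hσp hσ a ha _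
  have h := aut_eq_star hK hstar σ hσp (fun h => hσ h)
  obtain ⟨u, hu, c, hc⟩ := hilb_two hK hstar hq hn a ha
  refine ⟨⟨u, hu⟩, c, ?_⟩
  have h1 : u.map σ = u.map star := by
    ext i j
    exact h _
  show diagonal a * u.map σ = c • u
  rw [h1, hc]

/-- both cases -/
theorem h90 (hK : Nat.card K = q ^ 2) (hstar : ∀ x : K, star x = x ^ q) {p : ℕ}
    (hp : p.Prime) {n : ℕ} (h2 : p = 2 → Odd q ∧ Odd n) : H90 n p K := by
  by_cases h : p = 2
  · subst h
    exact h90_two hK hstar (h2 rfl).1 (h2 rfl).2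
  · exact h90_odd hK hstar hp h n

end

end Vale.Agent.P240.R2.H401
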