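import Mathlib

/-!
Functions on words all of whose sums over two adjacent letters are zero: a lower bound for the
dimension without brackets.
-/

set_option autoImplicit false

namespace Vale.Agent.P240.R2.H401

open Finset
open scoped Classical

universe u v

noncomputable section

variable {L : Type u} [Fintype L]

/-- functions on words that vanish outside `F`, all sums over two adjacent letters are `0` -/
def SL (𝕜 : Type v) [Field 𝕜] (F : Finset (List L)) : Submodule 𝕜 (List L → 𝕜) where
  carrier := {z | (∀ w, w ∉ F → z w = 0) ∧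
    ∀ u v : List L, ∑ x : L × L, z (u ++ x.1 :: x.2 :: v) = 0}
  zero_mem' := ⟨fun _ _ => rfl, fun _ _ => by simp⟩
  add_mem' := by
    rintro a b ⟨ha, ha'⟩ ⟨hb, hb'⟩
    refine ⟨fun w hw => ?_, fun u v => ?_⟩
    · simp [ha w hw, hb w hw]
    · simp [Finset.sum_add_distrib, ha', hb']
  smul_mem' := by
    rintro c a ⟨ha, ha'⟩
    refine ⟨fun w hw => ?_, fun u v => ?_⟩
    · simp [ha w hw]
    · simp [← Finset.mul_sum, ha']

variable {𝕜 : Type v} [Field 𝕜]

instance (F : Finset (List L)) : FiniteDimensional 𝕜 (SL 𝕜 F) := by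
  let f : SL 𝕜 F →ₗ[𝕜] (F → 𝕜) :=
    { toFun := fun z w => z.1 w.1
      map_add' := fun _ _ => rfl
      map_smul' := fun _ _ => rfl }
  refine FiniteDimensional.of_injective f ?_
  rw [injective_iff_map_eq_zero]
  intro z hz
  apply Subtype.ext
  funext w
  by_cases hw : w ∈ F
  · exact congrFun hz ⟨w, hw⟩
  · exact z.2.1 w hw

/-- the words `v` with `l :: v ∈ F` -/
def sl (F : Finset (List L)) (l : L) : Finset (List L) :=
  F.preimage (List.cons l) (Function.Injective.injOn (fun _ _ h => (List.cons.inj h).2))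

omit [Fintype L] in
lemma mem_sl {F : Finset (List L)} {l : L} {v : List L} : v ∈ sl F l ↔ l :: v ∈ F :=
  Finset.mem_preimage

/-- the words `v` with `a :: b :: v ∈ F` -/
def sp (F : Finset (List L)) (x : L × L) : Finset (List L) := sl (sl F x.1) x.2

omit [Fintype L] in
lemma mem_sp {F : Finset (List L)} {x : L × L} {v : List L} :
    v ∈ sp F x ↔ x.1 :: x.2 :: v ∈ F := by
  rw [sp, mem_sl, mem_sl]

/-- the pairs in the class `P` -/
def cl (F P : Finset (List L)) : Finset (L × L) := univ.filter (fun x => sp F x = P)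

/-- the nonempty classes -/
def cs (F : Finset (List L)) : Finset (Finset (List L)) :=
  (univ.image (fun x : L × L => sp F x)).filter (fun P => P.Nonempty)

/-- the sum over a class -/
def Ph (F P : Finset (List L)) : (∀ l : L, SL 𝕜 (sl F l)) →ₗ[𝕜] SL 𝕜 P where
  toFun f := ⟨fun v => ∑ x ∈ cl F P, (f x.1).1 (x.2 :: v), by
    constructor
    · intro w hw
      refine Finset.sum_eq_zero fun x hx => (f x.1).2.1 _ ?_
      rw [cl, Finset.mem_filter] at hx
      rw [← hx.2, sp, mem_sl] at hw
      exact hw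
    · intro u v
      rw [Finset.sum_comm]
      refine Finset.sum_eq_zero fun x _ => ?_
      have h := (f x.1).2.2 (x.2 :: u) v
      simpa using h⟩
  map_add' f g := by
    apply Subtype.ext
    funext v
    show ∑ x ∈ cl F P, ((f + g) x.1).1 (x.2 :: v) = _
    simp only [Pi.add_apply, Submodule.coe_add, Finset.sum_add_distrib]
  map_smul' c f := by
    apply Subtype.ext
    funext v
    show ∑ x ∈ cl F P, ((c • f) x.1).1 (x.2 :: v) = _
    simp only [Pi.smul_apply, Submodule.coe_smul, smul_eq_mul, Finset.mul_sum, RingHom.id_apply]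

/-- all sums over classes -/
def Pa (F : Finset (List L)) : (∀ l : L, SL 𝕜 (sl F l)) →ₗ[𝕜] (∀ P : cs F, SL 𝕜 P.1) :=
  LinearMap.pi fun P => Ph F P.1

/-- putting the slices together -/
def Th (F : Finset (List L)) : (∀ l : L, SL 𝕜 (sl F l)) →ₗ[𝕜] (List L → 𝕜) where
  toFun f w := match w with
    | [] => 0
    | l :: v => (f l).1 v
  map_add' f g := by
    funext w
    rcases w with _ | ⟨l, v⟩
    · simp
    · rfl
  map_smul' c f := by
    funext w
    rcases w with _ | ⟨l, v⟩
    · simp
    · rfl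

lemma Th_inj (F : Finset (List L)) : Function.Injective (Th (𝕜 := 𝕜) F) := by
  rw [injective_iff_map_eq_zero]
  intro f hf
  funext l
  apply Subtype.ext
  funext v
  exact congrFun hf (l :: v)

lemma Th_mem {F : Finset (List L)}
    (hrect : ∀ (a b c d : L) (v v' : List L), a :: b :: v ∈ F → c :: d :: v ∈ F →
      a :: b :: v' ∈ F → c :: d :: v' ∈ F)
    {f : ∀ l : L, SL 𝕜 (sl F l)} (hf : Pa F f = 0) : Th F f ∈ SL 𝕜 F := by
  constructor
  · intro w hw
    rcases w with _ | ⟨l, v⟩
    · rfl
    · exact (f l).2.1 v (fun h => hw (mem_sl.1 h))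
  · intro u v
    rcases u with _ | ⟨l, u⟩
    · show ∑ x : L × L, (f x.1).1 (x.2 :: v) = 0
      by_cases hne : ∃ x : L × L, x.1 :: x.2 :: v ∈ F
      · obtain ⟨x₀, hx₀⟩ := hne
        have hP : sp F x₀ ∈ cs F := by
          rw [cs, Finset.mem_filter]
          exact ⟨Finset.mem_image_of_mem _ (Finset.mem_univ _), ⟨v, mem_sp.2 hx₀⟩⟩
        have h1 := congrArg (fun g => (g ⟨sp F x₀, hP⟩).1 v) hf
        have h2 : ∑ x ∈ cl F (sp F x₀), (f x.1).1 (x.2 :: v) = 0 := h1
        rw [← h2]
        symm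
        refine Finset.sum_subset (Finset.subset_univ _) fun x _ hx => ?_
        refine (f x.1).2.1 _ fun h => hx ?_
        rw [mem_sl] at h
        rw [cl, Finset.mem_filter]
        refine ⟨Finset.mem_univ _, ?_⟩
        ext v'
        rw [mem_sp, mem_sp]
        exact ⟨hrect _ _ _ _ v v' h hx₀, hrect _ _ _ _ v v' hx₀ h⟩
      · refine Finset.sum_eq_zero fun x _ => (f x.1).2.1 _ fun h => hne ⟨x, mem_sl.1 h⟩
    · show ∑ x : L × L, (f l).1 (u ++ x.1 :: x.2 :: v) = 0
      exact (f l).2.2 u v

/-- the dimension -/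
def U (𝕜 : Type v) [Field 𝕜] (F : Finset (List L)) : ℕ := Module.finrank 𝕜 (SL 𝕜 F)

/-- **The basic inequality.** -/
theorem U_ge {F : Finset (List L)}
    (hrect : ∀ (a b c d : L) (v v' : List L), a :: b :: v ∈ F → c :: d :: v ∈ F →
      a :: b :: v' ∈ F → c :: d :: v' ∈ F) :
    ∑ l : L, U 𝕜 (sl F l) ≤ U 𝕜 F + ∑ P ∈ cs F, U 𝕜 P := by
  have h1 : Module.finrank 𝕜 (LinearMap.ker (Pa (𝕜 := 𝕜) F)) ≤ U 𝕜 F := by
    let g : LinearMap.ker (Pa (𝕜 := 𝕜) F) →ₗ[𝕜] SL 𝕜 F :=
      ((Th F).domRestrict _).codRestrict _ (fun f => Th_mem hrect f.2)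
    refine LinearMap.finrank_le_finrank_of_injective (f := g) ?_
    intro a b hab
    exact Subtype.ext (Th_inj F (congrArg Subtype.val hab))
  have h2 := LinearMap.finrank_range_add_finrank_ker (Pa (𝕜 := 𝕜) F)
  have h3 : Module.finrank 𝕜 (LinearMap.range (Pa (𝕜 := 𝕜) F)) ≤
      Module.finrank 𝕜 (∀ P : cs F, SL 𝕜 P.1) := Submodule.finrank_le _
  rw [Module.finrank_pi_fintype] at h2 h3
  have h4 : ∑ P : cs F, Module.finrank 𝕜 (SL 𝕜 P.1) = ∑ P ∈ cs F, U 𝕜 P :=
    Finset.sum_coe_sort (cs F) (fun P => U 𝕜 P)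
  have h5 : ∑ l : L, Module.finrank 𝕜 (SL 𝕜 (sl F l)) = ∑ l : L, U 𝕜 (sl F l) := rfl
  omega

lemma U_empty : U 𝕜 (∅ : Finset (List L)) = 0 := by
  rw [U, Module.finrank_zero_iff]
  refine ⟨fun a b => Subtype.ext (funext fun w => ?_)⟩
  rw [a.2.1 w (Finset.notMem_empty _), b.2.1 w (Finset.notMem_empty _)]

/-- short words: no conditions -/
lemma U_short {F : Finset (List L)} (h : ∀ w ∈ F, w.length ≤ 1) : U 𝕜 F = F.card := by
  let f : SL 𝕜 F →ₗ[𝕜] (F → 𝕜) :=
    { toFun := fun z w => z.1 w.1
      map_add' := fun _ _ => rfl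
      map_smul' := fun _ _ => rfl }
  have hbij : Function.Bijective f := by
    constructor
    · rw [injective_iff_map_eq_zero]
      intro z hz
      apply Subtype.ext
      funext w
      by_cases hw : w ∈ F
      · exact congrFun hz ⟨w, hw⟩
      · exact z.2.1 w hw
    · intro g
      refine ⟨⟨fun w => if hw : w ∈ F then g ⟨w, hw⟩ else 0, fun w hw => by simp [hw],
        fun u v => Finset.sum_eq_zero fun x _ => ?_⟩, ?_⟩
      · beta_reduce
        rw [dif_neg]
        intro hw
        have := h _ hw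
        simp only [List.length_append, List.length_cons] at this
        omega
      · funext w
        simp [f]
  rw [U, (LinearEquiv.ofBijective f hbij).finrank_eq, Module.finrank_fintype_fun_eq_card,
    Fintype.card_coe]

/-- the counting over classes -/
lemma classes_le {F : Finset (List L)} {b : ℕ}
    (hb : ∀ x : L × L, (sp F x).Nonempty → b ≤ (cl F (sp F x)).card) :
    b * ∑ P ∈ cs F, U 𝕜 P ≤ ∑ a : L, ∑ c : L, U 𝕜 (sl (sl F a) c) := by
  have h1 : ∑ a : L, ∑ c : L, U 𝕜 (sl (sl F a) c) = ∑ x : L × L, U 𝕜 (sp F x) := by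
    rw [← Finset.univ_product_univ, Finset.sum_product]
    rfl
  rw [h1, Finset.mul_sum]
  have h2 : ∑ x : L × L, U 𝕜 (sp F x) =
      ∑ P ∈ univ.image (fun x : L × L => sp F x), (cl F P).card * U 𝕜 P := by
    rw [← Finset.sum_fiberwise_of_maps_to (t := univ.image (fun x : L × L => sp F x))
      (g := fun x => sp F x) (fun x hx => Finset.mem_image_of_mem _ hx)]
    refine Finset.sum_congr rfl fun P _ => ?_
    rw [Finset.sum_congr rfl (g := fun _ => U 𝕜 P) (fun x hx => by
      rw [(Finset.mem_filter.1 hx).2]), Finset.sum_const, smul_eq_mul]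
    rfl
  rw [h2]
  refine le_trans ?_ (Finset.sum_le_sum_of_subset (Finset.filter_subset
    (fun P : Finset (List L) => P.Nonempty) _))
  refine Finset.sum_le_sum fun P hP => Nat.mul_le_mul_right _ ?_
  rw [cs, Finset.mem_filter, Finset.mem_image] at hP
  obtain ⟨⟨x, -, rfl⟩, hne⟩ := hP
  exact hb x hne

/-- the hypotheses: words of length `n`; the last pair belongs to planes with at least two pairs, the
other pairs to planes with at least four -/
structure LG (F : Finset (List L)) (n : ℕ) : Prop where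
  len : ∀ w ∈ F, w.length = n
  rect : ∀ (u : List L) (a b c d : L) (v v' : List L), u ++ a :: b :: v ∈ F →
    u ++ c :: d :: v ∈ F → u ++ a :: b :: v' ∈ F → u ++ c :: d :: v' ∈ F
  four : ∀ (u : List L) (a b : L) (v : List L), v ≠ [] → u ++ a :: b :: v ∈ F →
    4 ≤ (univ.filter (fun x : L × L => u ++ x.1 :: x.2 :: v ∈ F)).card
  two : ∀ (u : List L) (a b : L), u ++ [a, b] ∈ F →
    2 ≤ (univ.filter (fun x : L × L => u ++ [x.1, x.2] ∈ F)).card

lemma LG.slice {F : Finset (List L)} {n : ℕ} (h : LG F (n + 1)) (l : L) : LG (sl F l) n where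
  len w hw := by
    have := h.len _ (mem_sl.1 hw)
    simpa using this
  rect u a b c d v v' h1 h2 h3 := by
    rw [mem_sl] at *
    exact h.rect (l :: u) a b c d v v' h1 h2 h3
  four u a b v hv h1 := by
    rw [mem_sl] at h1
    have := h.four (l :: u) a b v hv h1
    simp_rw [mem_sl]
    exact this
  two u a b h1 := by
    rw [mem_sl] at h1
    have := h.two (l :: u) a b h1
    simp_rw [mem_sl]
    exact this

lemma cl_card {F : Finset (List L)} {n : ℕ} (h : LG F n) {x : L × L} {v : List L}
    (hv : v ∈ sp F x) : (univ.filter (fun y : L × L => y.1 :: y.2 :: v ∈ F)).card ≤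
      (cl F (sp F x)).card := by
  refine Finset.card_le_card fun y hy => ?_
  rw [Finset.mem_filter] at hy
  rw [mem_sp] at hv
  rw [cl, Finset.mem_filter]
  refine ⟨Finset.mem_univ _, ?_⟩
  ext v'
  rw [mem_sp, mem_sp]
  exact ⟨h.rect [] _ _ _ _ v v' hy.2 hv, h.rect [] _ _ _ _ v v' hv hy.2⟩

/-- **The dimension is positive.** -/
theorem LG.pos (n : ℕ) : ∀ F : Finset (List L), LG F (n + 1) →
    (∑ l : L, U 𝕜 (sl F l) ≤ 2 * U 𝕜 F) ∧ (F.Nonempty → 0 < U 𝕜 F) := by
  induction n with
  | zero =>
    intro F hF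
    have h1 : U 𝕜 F = F.card := U_short fun w hw => (hF.len w hw).le
    have h2 : ∀ l : L, U 𝕜 (sl F l) =
        (sl F l).card := fun l =>
      U_short fun w hw => ((hF.slice l).len w hw).le.trans (by norm_num)
    refine ⟨?_, fun h => by rw [h1]; exact h.card_pos⟩
    rw [Finset.sum_congr rfl fun l _ => h2 l, h1]
    have h3 : ∑ l : L, (sl F l).card = F.card := by
      rw [← Finset.card_sigma]
      refine Finset.card_bij (fun x _ => x.1 :: x.2) ?_ ?_ ?_
      · rintro ⟨l, v⟩ h
        exact mem_sl.1 (Finset.mem_sigma.1 h).2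
      · rintro ⟨l, v⟩ _ ⟨l', v'⟩ _ h
        simp only [List.cons.injEq] at h
        obtain ⟨rfl, rfl⟩ := h
        rfl
      · intro w hw
        rcases w with _ | ⟨l, v⟩
        · have := hF.len _ hw
          simp at this
        · exact ⟨⟨l, v⟩, Finset.mem_sigma.2 ⟨Finset.mem_univ _, mem_sl.2 hw⟩, rfl⟩
    omega
  | succ n ih =>
    intro F hF
    have hnil : [] ∉ F := fun h => by
      have := hF.len _ h
      simp at this
    have h1 := U_ge (𝕜 := 𝕜) (hF.rect [])
    have key : 2 * ∑ P ∈ cs F, U 𝕜 P ≤ ∑ l : L, U 𝕜 (sl F l) := by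
      rcases n with _ | n
      · -- words of length two
        have h2 : ∀ l : L, U 𝕜 (sl F l) =
            (sl F l).card := fun l =>
          U_short fun w hw => ((hF.slice l).len w hw).le
        have h3 : ∀ a c : L, U 𝕜 (sl (sl F a) c) =
            (sl (sl F a) c).card := fun a c =>
          U_short fun w hw => (((hF.slice a).slice c).len w hw).le.trans (by norm_num)
        have h4 := classes_le (𝕜 := 𝕜) (F := F) (b := 2) (fun x hx => by
          obtain ⟨v, hv⟩ := hx
          have hv0 : v = [] := by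
            have := hF.len _ (mem_sp.1 hv)
            simpa using this
          subst hv0
          exact (hF.two [] _ _ (mem_sp.1 hv)).trans (cl_card hF hv))
        refine h4.trans ?_
        refine Finset.sum_le_sum fun a _ => ?_
        rw [Finset.sum_congr rfl fun c _ => h3 a c, h2 a, ← Finset.card_sigma]
        refine (Finset.card_le_card_of_injOn (fun x => x.1 :: x.2) ?_ ?_)
        · rintro ⟨l, v⟩ h
          exact mem_sl.1 (Finset.mem_sigma.1 h).2
        · rintro ⟨l, v⟩ _ ⟨l', v'⟩ _ h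
          simp only [List.cons.injEq] at h
          obtain ⟨rfl, rfl⟩ := h
          rfl
      · have h4 := classes_le (𝕜 := 𝕜) (F := F) (b := 4) (fun x hx => by
          obtain ⟨v, hv⟩ := hx
          have hv0 : v ≠ [] := by
            rintro rfl
            have := hF.len _ (mem_sp.1 hv)
            simp at this
          exact (hF.four [] _ _ v hv0 (mem_sp.1 hv)).trans (cl_card hF hv))
        have h5 : ∑ a : L, ∑ c : L, U 𝕜 (sl
            (sl F a) c) ≤
            ∑ a : L, 2 * U 𝕜 (sl F a) :=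
          Finset.sum_le_sum fun a _ => (ih _ (hF.slice a)).1
        rw [← Finset.mul_sum] at h5
        omega
    refine ⟨by omega, fun hne => ?_⟩
    obtain ⟨w, hw⟩ := hne
    rcases w with _ | ⟨l, v⟩
    · exact absurd hw hnil
    · have h6 := (ih _ (hF.slice l)).2 ⟨v, mem_sl.2 hw⟩
      have h7 := Finset.single_le_sum (f := fun l : L => U 𝕜 (sl F l))
        (fun _ _ => Nat.zero_le _) (Finset.mem_univ l)
      omega

/-- a nonzero function -/
theorem LG.exists_nonzero {n : ℕ} {F : Finset (List L)} (h : LG F n) (hne : F.Nonempty) :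
    ∃ z ∈ SL 𝕜 F, ∃ f ∈ F, z f ≠ 0 := by
  have hpos : 0 < U 𝕜 F := by
    rcases n with _ | n
    · rw [U_short fun w hw => (h.len w hw).le.trans (by norm_num)]
      exact hne.card_pos
    · exact (LG.pos n F h).2 hne
  have : Nontrivial (SL 𝕜 F) := Module.nontrivial_of_finrank_pos hpos
  obtain ⟨z, hz⟩ := exists_ne (0 : SL 𝕜 F)
  refine ⟨z.1, z.2, ?_⟩
  by_contra hcon
  push Not at hcon
  apply hz
  apply Subtype.ext
  funext w
  by_cases hw : w ∈ F
  · exact hcon w hw
  · exact z.2.1 w hw

end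

end Vale.Agent.P240.R2.H401
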