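import Vale.Agent.P240.R2.H401.Lin1
import Vale.Agent.P240.R2.H775.Top1

/-!
Top cycles from functions on words with all sums over two adjacent letters zero, for frames whose
last letter has another type than the others: the coefficients are the values of the function
itself.
-/

set_option autoImplicit false

namespace Vale.Agent.P240.R2.H401

open Finsupp hiding cons
open Subgroup Vale.Agent.P240.K Vale.Agent.P240.H195
open Vale.Agent.P240.R2 Vale.Agent.P240.R2.H938

universe u v w

section coeff

variable {𝕜 : Type w} [Field 𝕜] {Λ : Type*} [SemilatticeSup Λ] [OrderBot Λ] {X : Type*}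

/-- the separation property -/
def LSep (C : List X → Λ) (F : Set (List X)) : Prop :=
  ∀ (A u v : List X) (l : X) (g : List X), A ++ (u ++ v) ∈ F → A ++ (l :: g) ∈ F →
    u ≠ [] → v ≠ [] → g ≠ [] → (bs C ⊥ A ⊔ C (A ++ u) = bs C ⊥ A ⊔ C [l] ↔ u = [l])

/-- the sign -/
def lsg (𝕜 : Type w) [Field 𝕜] : ℕ → 𝕜
  | 0 => 1
  | 1 => 1
  | k + 2 => (-1) ^ k * lsg 𝕜 (k + 1)

lemma lsg_ne : ∀ n, lsg 𝕜 n ≠ 0
  | 0 => one_ne_zero
  | 1 => one_ne_zero
  | k + 2 => by
    rw [lsg]
    exact mul_ne_zero (pow_ne_zero _ (by simp)) (lsg_ne (k + 1))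

open Classical in
/-- **The coefficients at the comb chains.** -/
theorem lin_coeff (C : List X → Λ) (F : Set (List X))
    (hlen : ∀ m ∈ F, ∀ m' ∈ F, m.length = m'.length)
    (huniq : ∀ (A : List X) (x y : X), A ++ [x] ∈ F → A ++ [y] ∈ F → x = y) (hsep : LSep C F)
    (f : List X) : ∀ (A m : List X), f ≠ [] → A ++ m ∈ F → A ++ f ∈ F →
    (mp (fun t => bs C ⊥ A ⊔ t) (AL 𝕜 ((pfx m).map fun u => C (A ++ u)))) (comb C (bs C ⊥ A) f) =
      lsg 𝕜 f.length * (if m = f then 1 else 0) := by
  induction f with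
  | nil => intro A m h; exact absurd rfl h
  | cons l L ih =>
    intro A m _ hm hf
    have hmlen : m.length = L.length + 1 := by
      have h1 := hlen _ hm _ hf
      simp only [List.length_append, List.length_cons] at h1
      omega
    obtain ⟨x, m', rfl⟩ := List.exists_cons_of_ne_nil (l := m) (by
      rintro rfl
      simp at hmlen)
    have hm'len : m'.length = L.length := by simpa using hmlen
    by_cases hL : L = []
    · subst hL
      have hm' : m' = [] := List.length_eq_zero_iff.1 hm'len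
      subst hm'
      have hxl : x = l := huniq A x l hm hf
      subst hxl
      simp [pfx, AL, comb, lsg]
    · have hm'ne : m' ≠ [] := by
        rintro rfl
        exact hL (List.length_eq_zero_iff.1 hm'len.symm)
      have hLlen : L.length ≠ 0 := fun h => hL (List.length_eq_zero_iff.1 h)
      set S : List Λ := (pfx (x :: m')).map fun u => C (A ++ u) with hSdef
      have hpl : S.length = L.length := by
        rw [hSdef, List.length_map, pfx_length, hmlen]
        rfl
      have hpne : S ≠ [] := by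
        intro h0
        rw [h0] at hpl
        exact hLlen hpl.symm
      rw [comb_cons C _ l hL, K_snoc _ _ hpne, hpl]
      have hcase : ∀ j ∈ Finset.range L.length, bs C ⊥ A ⊔ S.getD j ⊥ =
          bs C ⊥ A ⊔ C [l] → j = 0 ∧ x = l := by
        intro j hj h
        obtain ⟨u, v, h1, h2, h3, h4⟩ := getD_pre (fun u => C (A ++ u)) (m := x :: m') (j := j)
          (by rw [← hSdef, hpl]; exact Finset.mem_range.1 hj)
        rw [hSdef, h4] at h
        have h5 := (hsep A u v l L (h1 ▸ hm) hf (by rintro rfl; simp at h2) h3 hL).1 h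
        subst h5
        rw [List.singleton_append, List.cons.injEq] at h1
        simp at h2
        exact ⟨h2, h1.1⟩
      by_cases hx : x = l
      · subst hx
        rw [Finset.sum_eq_single_of_mem 0 (Finset.mem_range.2 (Nat.pos_of_ne_zero hLlen))]
        · have hb : bs C ⊥ A ⊔ C [x] = bs C ⊥ (A ++ [x]) := by
            have := bs_mid C ⊥ A x []
            rw [List.append_nil] at this
            exact this.symm
          have hm1 : (A ++ [x]) ++ m' ∈ F := by simpa using hm
          have hf1 : (A ++ [x]) ++ L ∈ F := by simpa using hf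
          have hcond : bs C ⊥ A ⊔ S.getD 0 ⊥ = bs C ⊥ A ⊔ C [x] := by
            rw [hSdef, pfx_cons x hm'ne, List.map_cons, List.getD_cons_zero]
            exact (hsep A [x] m' x L hm hf (by simp) hm'ne hL).2 rfl
          rw [if_pos hcond, hSdef, pfx_cons x hm'ne, List.map_cons, List.eraseIdx_cons_zero,
            Nat.sub_zero, hb, List.map_map]
          have h3 : (fun u => C (A ++ u)) ∘ List.cons x = fun u => C ((A ++ [x]) ++ u) := by
            funext u
            simp
          rw [h3, ih (A ++ [x]) m' hL hm1 hf1]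
          obtain ⟨k, hk⟩ := Nat.exists_eq_succ_of_ne_zero hLlen
          rw [List.length_cons, hk, Nat.succ_eq_add_one, Nat.add_sub_cancel, lsg]
          have h4 : (x :: m' = x :: L) = (m' = L) := by simp
          simp only [h4, mul_assoc]
        · intro j hj hj0
          rw [if_neg, mul_zero]
          exact fun h => hj0 (hcase j hj h).1
      · rw [if_neg (fun h => hx (List.cons.inj h).1), mul_zero]
        refine Finset.sum_eq_zero fun j hj => ?_
        rw [if_neg, mul_zero]
        exact fun h => hx (hcase j hj h).2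

end coeff

section groups

variable {G : Type u} [Group G] {X : Type v}

/-- the hypotheses on the elements `e W`, `W` = initial segment of a frame -/
structure LComb (p n : ℕ) (F : Finset (List X)) (e : List X → G) : Prop where
  len : ∀ w ∈ F, w.length = n
  plane : ∀ (u : List X) (a b c d : X) (v w : List X), u ++ a :: b :: (v ++ w) ∈ F →
    u ++ c :: d :: (v ++ w) ∈ F → e (u ++ a :: b :: v) = e (u ++ c :: d :: v)
  comm : ∀ u v w : List X, u ++ (v ++ w) ∈ F → e u * e (u ++ v) = e (u ++ v) * e u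
  pow : ∀ u v : List X, u ++ v ∈ F → e u ^ p = 1
  nil : e [] = 1
  full : ∀ w ∈ F, e w = 1
  card : ∀ w ∈ F, Nat.card (closure {y | ∃ u v, w = u ++ v ∧ y = e u}) = p ^ (n - 1)
  uniq : ∀ (A : List X) (x y : X), A ++ [x] ∈ F → A ++ [y] ∈ F → x = y
  sep : ∀ (A u v : List X) (l : X) (g : List X), A ++ (u ++ v) ∈ F → A ++ (l :: g) ∈ F →
    u ≠ [] → v ≠ [] → g ≠ [] →
    (AS.SS e A ⊔ zpowers (e (A ++ u)) = AS.SS e A ⊔ zpowers (e [l]) ↔ u = [l])

variable {p n : ℕ} {F : Finset (List X)} {e : List X → G} {𝕜 : Type w} [Field 𝕜]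

theorem lin_ne (h : LComb p n F e) (hn : 1 ≤ n) (z : List X → 𝕜)
    {f : List X} (hf : f ∈ F) (hz : z f ≠ 0) : mu (fun w => zpowers (e w)) F z ≠ 0 := by
  classical
  intro h0
  have hfne : f ≠ [] := by
    rintro rfl
    have := h.len _ hf
    simp at this
    omega
  have hsep : LSep (fun w => zpowers (e w)) (F : Set (List X)) := by
    intro A u v l g h1 h2 hu hv hg
    rw [bs_SS]
    exact h.sep A u v l g h1 h2 hu hv hg
  have h1 : ∀ m ∈ F, (mp (fun t => ⊥ ⊔ t) (AL 𝕜 (pre (fun w => zpowers (e w)) m)))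
      (comb (fun w => zpowers (e w)) ⊥ f) = lsg 𝕜 f.length * (if m = f then 1 else 0) := by
    intro m hm
    exact lin_coeff (𝕜 := 𝕜) (fun w => zpowers (e w)) (F : Set (List X))
      (fun m hm m' hm' => (h.len m hm).trans (h.len m' hm').symm) h.uniq hsep f [] m hfne
      (by simpa using hm) (by simpa using hf)
  have h2 : (mp (fun t => ⊥ ⊔ t) (mu (fun w => zpowers (e w)) F z))
      (comb (fun w => zpowers (e w)) ⊥ f) = lsg 𝕜 f.length * z f := by
    rw [mu, map_sum, Finsupp.finsetSum_apply]
    have h3 : ∀ m ∈ F, (mp (fun t => ⊥ ⊔ t) (z m • AL 𝕜 (pre (fun w => zpowers (e w)) m)))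
        (comb (fun w => zpowers (e w)) ⊥ f) = if m = f then lsg 𝕜 f.length * z f else 0 := by
      intro m hm
      rw [map_smul, Finsupp.smul_apply, smul_eq_mul, h1 m hm]
      by_cases hmf : m = f
      · rw [if_pos hmf, if_pos hmf, hmf]
        ring
      · rw [if_neg hmf, if_neg hmf]
        ring
    rw [Finset.sum_congr rfl h3, Finset.sum_ite_eq' F f, if_pos hf]
  rw [h0, map_zero, Finsupp.coe_zero, Pi.zero_apply] at h2
  exact mul_ne_zero (lsg_ne _) hz h2.symm

/-- a cycle over `𝕜` whose chains have their largest groups in a family is a top cycle -/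
theorem top_of_cycle {H : Subgroup G} {T : Set (Subgroup G)} {m : ℕ}
    (hT : ∀ B ∈ T, Nat.card B = p ^ m) {c : Ch 𝕜 (Subgroup G)}
    (hc : c ∈ Sp 𝕜 (fun l : List (Subgroup G) => (st (Ain p H) l ∧ l.length = m) ∧
      ∃ B ∈ T, l.head? = some B)) (hb : bd c = 0) (h0 : c ≠ 0) :
    ∃ B ∈ T, ∃ φ, TopCycle 𝕜 p H B c φ := by
  obtain ⟨φ, hφ⟩ := Finsupp.ne_iff.1 h0
  have hφ' : c φ ≠ 0 := hφ
  obtain ⟨⟨h1, h2⟩, B, hB, h3⟩ := mem_Sp.1 hc φ (Finsupp.mem_support_iff.2 hφ')
  refine ⟨B, hB, φ, ?_, hb, hφ', ?_, ?_⟩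
  · refine Sp_mono (fun l hl => ⟨hl.1.1, ?_⟩) hc
    rw [hl.1.2, h2]
  · right
    cases φ with
    | nil => simp at h3
    | cons a φ =>
      simp at h3
      exact ⟨φ, by rw [h3]⟩
  · rw [hT B hB, h2]

/-- **Top cycles** from linear data. -/
theorem top_of_lin [Fintype X] [Finite G] [hp : Fact p.Prime] (hn : 2 ≤ n) (h : LComb p n F e)
    (hg : LG F n) (hne : F.Nonempty) (𝕜 : Type w) [Field 𝕜] (H : Subgroup G)
    (hH : ∀ u v : List X, u ++ v ∈ F → e u ∈ H) :
    ∃ w ∈ F, ∃ (α : Ch 𝕜 (Subgroup G)) (φ : List (Subgroup G)),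
      TopCycle 𝕜 p H (closure {y | ∃ u v, w = u ++ v ∧ y = e u}) α φ := by
  obtain ⟨z, hz, f, hf, hzf⟩ := hg.exists_nonzero (𝕜 := 𝕜) hne
  have hz' : (∀ w, w ∉ F → z w = 0) ∧ ∀ u v : List X, ∑ x : X × X, z (u ++ x.1 :: x.2 :: v) = 0 :=
    hz
  have hmem := H775.mu_head (𝕜 := 𝕜) (p := p) hn e F z H hH h.len h.comm h.pow h.nil h.full
    h.card
  have hbd : bd (mu (fun w => zpowers (e w)) F z) = 0 := by
    refine bd_mu (n := n) _ F h.len (fun u a b c d v w h1 h2 => ?_) z hz'.1 hz'.2
    show zpowers (e (u ++ a :: b :: v)) = zpowers (e (u ++ c :: d :: v))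
    rw [h.plane u a b c d v w h1 h2]
  have hmu := lin_ne h (by omega) z hf hzf
  obtain ⟨B, ⟨w, hw, rfl⟩, φ, hT⟩ := top_of_cycle (𝕜 := 𝕜) (p := p) (m := n - 1)
    (T := {B : Subgroup G | ∃ w ∈ F, B = Dm e w}) (by
      rintro _ ⟨w, hw, rfl⟩
      exact h.card w hw) hmem hbd hmu
  exact ⟨w, hw, _, φ, hT⟩

/-- linear data from `Comb` data for a larger set of frames, if the last letters have another type
than all others -/
theorem LComb.of_comb {F₁ : Finset (List X)} (hn : 2 ≤ n) (hc : AS.Comb p n F₁ e) (hF : F ⊆ F₁)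
    (T : X → Prop) (hT : ∀ (w : List X) (x : X), w ++ [x] ∈ F → T x ∧ ∀ y ∈ w, ¬ T y) :
    LComb p n F e where
  len w hw := hc.len w (hF hw)
  plane u a b c d v w h1 h2 := hc.plane u a b c d v w (hF h1) (hF h2)
  comm u v w h1 := hc.comm u v w (hF h1)
  pow u v h1 := hc.pow u v (hF h1)
  nil := hc.nil
  full w hw := hc.full w (hF hw)
  card w hw := hc.card w (hF hw)
  uniq A x y h1 h2 := by
    classical
    have hs := sep_of_comb hc
    have hlen : (A ++ [x]).length = n := hc.len _ (hF h1)
    rcases A with _ | ⟨a, A⟩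
    · simp at hlen
      omega
    · refine hs.uniq (fun w hw => hc.nodup w hw) (fun w hw w' h => hc.perm w hw w' h) (l := a)
        (R := A) ?_ ?_
      · refine hc.perm _ (hF h1) _ (List.perm_iff_count.2 fun b => ?_)
        simp only [List.count_append, List.count_cons, List.count_nil]
        omega
      · refine hc.perm _ (hF h2) _ (List.perm_iff_count.2 fun b => ?_)
        simp only [List.count_append, List.count_cons, List.count_nil]
        omega
  sep A u v l g h1 h2 hu hv hg := by
    have h3 := hc.sep A u v [] l g (by simpa using hF h1) (by simpa using hF h2) hu hv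
    rw [List.append_nil] at h3
    rw [h3]
    refine ⟨fun h => h.resolve_right fun hvl => ?_, Or.inl⟩
    subst hvl
    rcases List.eq_nil_or_concat' g with rfl | ⟨g', x, rfl⟩
    · exact hg rfl
    · have h4 := hT (A ++ u) l (by simpa using h1)
      have h5 := hT (A ++ l :: g') x (by simpa using h2)
      exact h5.2 l (by simp) h4.1

end groups

end Vale.Agent.P240.R2.H401
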