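import Vale.Agent.P240.R2.H401.Lin2
import Vale.Agent.P240.R2.H945.SemiF

/-!
Top cycles from linear data for the elements of one coset.
-/

set_option autoImplicit false

namespace Vale.Agent.P240.R2.H401

open Finsupp hiding cons
open Subgroup Vale.Agent.P240.K Vale.Agent.P240.H195
open Vale.Agent.P240.R2 Vale.Agent.P240.R2.H938

universe u v w

variable {G : Type u} [Group G] {X : Type v} {p n : ℕ} {F : Finset (List X)} {e : List X → G}

lemma LComb.mono (h : LComb p n F e) {F' : Finset (List X)} (hF : F' ⊆ F) : LComb p n F' e where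
  len w hw := h.len w (hF hw)
  plane u a b c d v w h1 h2 := h.plane u a b c d v w (hF h1) (hF h2)
  comm u v w h1 := h.comm u v w (hF h1)
  pow u v h1 := h.pow u v (hF h1)
  nil := h.nil
  full w hw := h.full w (hF hw)
  card w hw := h.card w (hF hw)
  uniq A x y h1 h2 := h.uniq A x y (hF h1) (hF h2)
  sep A u v l g h1 h2 := h.sep A u v l g (hF h1) (hF h2)

lemma SL_mono [Fintype X] {𝕜 : Type w} [Field 𝕜] {F' : Finset (List X)} (hF : F' ⊆ F) :
    SL 𝕜 F' ≤ SL 𝕜 F := fun _ hz => ⟨fun w hw => hz.1 w fun h => hw (hF h), hz.2⟩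

/-- the data -/
structure LSemi (p : ℕ) (F : Finset (List X)) (e : List X → G) (N M : Subgroup G)
    (Y : Finset G) (Fy : G → Finset (List X)) : Prop where
  memN : ∀ u v : List X, u ++ v ∈ F → e u ∈ N
  le : N ≤ M
  pow : ∀ y ∈ Y, y ^ p = 1
  memM : ∀ y ∈ Y, y ∈ M
  notN : ∀ y ∈ Y, y ∉ N
  coset : ∀ y ∈ Y, ∀ y' ∈ Y, y⁻¹ * y' ∈ N
  sub : ∀ y ∈ Y, Fy y ⊆ F
  fix : ∀ y ∈ Y, ∀ u v : List X, u ++ v ∈ Fy y → e u * y = y * e u

/-- **Top cycles from linear data for the elements of one coset.** The obstruction space is the space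
of all solutions for `F`. -/
theorem top_of_lin_semi [hp : Fact p.Prime] [Finite G] [Fintype X] (hn : 2 ≤ n)
    (hc : LComb p n F e) {N M : Subgroup G} {Y : Finset G} {Fy : G → Finset (List X)}
    (hd : LSemi p F e N M Y Fy) (hcount : U ℚ F < ∑ y ∈ Y, U ℚ (Fy y)) (𝕜 : Type w) [Field 𝕜] :
    ∃ y ∈ Y, ∃ w ∈ Fy y, ∃ (α : Ch 𝕜 (Subgroup G)) (l : List (Subgroup G)),
      TopCycle 𝕜 p M (zpowers y ⊔ closure {z | ∃ u v, w = u ++ v ∧ z = e u}) α l ∧
        l.length = n := by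
  classical
  have hcy : ∀ y ∈ Y, LComb p n (Fy y) e := fun y hy => hc.mono (hd.sub y hy)
  have hmem : ∀ y ∈ Y, ∀ u v : List X, u ++ v ∈ Fy y →
      e u ∈ N ⊓ centralizer (zpowers y : Set G) := by
    intro y hy u v h
    refine ⟨hd.memN u v (hd.sub y hy h), mem_centralizer_iff.2 ?_⟩
    rintro _ ⟨k, rfl⟩
    have h1 : Commute (e u) y := hd.fix y hy u v h
    exact (h1.zpow_right k).eq.symm
  have hSL : ∀ y ∈ Y, ∀ z ∈ SL ℚ (Fy y), (∀ w, w ∉ Fy y → z w = 0) ∧
      ∀ u v : List X, ∑ x : X × X, z (u ++ x.1 :: x.2 :: v) = 0 := fun y _ z hz => hz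
  have hmu : ∀ y ∈ Y, ∀ z ∈ SL ℚ (Fy y), H945.muL (fun w => zpowers (e w)) F z =
      H938.mu (fun w => zpowers (e w)) (Fy y) z := fun y hy z hz => by
    rw [H945.muL_apply, H945.mu_sub _ (hd.sub y hy) (hSL y hy z hz).1]
  have hfull : ∀ y ∈ Y, ∀ z ∈ SL ℚ (Fy y), H938.mu (fun w => zpowers (e w)) (Fy y) z ∈
      Sp ℚ (fun l : List (Subgroup G) =>
        (st (Ain p (N ⊓ centralizer (zpowers y : Set G))) l ∧ l.length = n - 1) ∧
        ∃ B ∈ {B : Subgroup G | ∃ w ∈ Fy y, B = Dm e w}, l.head? = some B) := by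
    intro y hy z _
    have h := hcy y hy
    exact H775.mu_head (𝕜 := ℚ) (p := p) hn e (Fy y) z _ (hmem y hy) h.len h.comm h.pow h.nil
      h.full h.card
  obtain ⟨y, hy, B, ⟨w, hw, rfl⟩, α, l, h1, h2⟩ := H945.semi_top (p := p) 𝕜 (K := M) (r := n - 1) Y
    hd.le hd.memM hd.pow hd.notN hd.coset (LinearMap.id : (List X → ℚ) →ₗ[ℚ] (List X → ℚ))
    (H945.muL (fun w => zpowers (e w)) F)
    (fun y => SL ℚ (Fy y)) (fun y _ => inferInstance)
    ((SL ℚ F).map (H945.muL (fun w => zpowers (e w)) F))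
    (fun y hy z hz => ⟨z, SL_mono (hd.sub y hy) hz, rfl⟩)
    (fun y => {B | ∃ w ∈ Fy y, B = Dm e w})
    (fun y hy B hB => by
      obtain ⟨w, hw, rfl⟩ := hB
      refine ⟨?_, (hcy y hy).card w hw⟩
      rw [Dm, closure_le]
      rintro _ ⟨u, v, h, rfl⟩
      exact hmem y hy u v (h ▸ hw))
    (fun y hy z hz => by
      rw [hmu y hy z hz]
      exact Sp_mono (fun l hl => hl.2) (hfull y hy z hz))
    (fun y hy z hz => by
      rw [hmu y hy z hz]
      exact Sp_mono (fun l hl => hl.1) (hfull y hy z hz))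
    (fun y hy z hz => by
      rw [hmu y hy z hz]
      refine bd_mu (n := n) _ (Fy y) (hcy y hy).len (fun u a b c d v w h1 h2 => ?_) z
        (hSL y hy z hz).1 (hSL y hy z hz).2
      show zpowers (e (u ++ a :: b :: v)) = zpowers (e (u ++ c :: d :: v))
      rw [(hcy y hy).plane u a b c d v w h1 h2])
    (fun y hy z hz hb => by
      rw [hmu y hy z hz]
      obtain ⟨f, hf⟩ : ∃ f, z f ≠ 0 := by
        by_contra hcon
        push Not at hcon
        exact hb (funext hcon)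
      have hfF : f ∈ Fy y := by
        by_contra hfF
        exact hf ((hSL y hy z hz).1 f hfF)
      exact lin_ne (hcy y hy) (by omega) z hfF hf)
    (by
      have h3 : ∀ y, Module.finrank ℚ ((SL ℚ (Fy y)).map
          (LinearMap.id : (List X → ℚ) →ₗ[ℚ] (List X → ℚ))) = U ℚ (Fy y) := fun y => by
        rw [Submodule.map_id]
        rfl
      refine lt_of_le_of_lt (Submodule.finrank_map_le _ _) ?_
      exact hcount.trans_le (le_of_eq (Finset.sum_congr rfl fun y _ => (h3 y).symm)))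
  exact ⟨y, hy, w, hw, α, l, h1, by omega⟩

end Vale.Agent.P240.R2.H401
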