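import Vale.Agent.P240.R2.H401.Lin1

/-!
The dimension of the space of solutions compared with the number of words, for planes with many
pairs.
-/

set_option autoImplicit false

namespace Vale.Agent.P240.R2.H401

open Finset
open scoped Classical

universe u v

noncomputable section

variable {L : Type u} [Fintype L] {𝕜 : Type v} [Field 𝕜]

/-- the dimension is at most the number of words -/
lemma U_le_card (F : Finset (List L)) : U 𝕜 F ≤ F.card := by
  let f : SL 𝕜 F →ₗ[𝕜] (F → 𝕜) :=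
    { toFun := fun z w => z.1 w.1
      map_add' := fun _ _ => rfl
      map_smul' := fun _ _ => rfl }
  have hinj : Function.Injective f := by
    rw [injective_iff_map_eq_zero]
    intro z hz
    apply Subtype.ext
    funext w
    by_cases hw : w ∈ F
    · exact congrFun hz ⟨w, hw⟩
    · exact z.2.1 w hw
  have h := LinearMap.finrank_le_finrank_of_injective hinj
  rwa [Module.finrank_fintype_fun_eq_card, Fintype.card_coe] at h

/-- the number of words by the first letter -/
lemma sum_card_sl {F : Finset (List L)} {n : ℕ} (hF : ∀ w ∈ F, w.length = n + 1) :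
    ∑ l : L, (sl F l).card = F.card := by
  rw [← Finset.card_sigma]
  refine Finset.card_bij (fun x _ => x.1 :: x.2) ?_ ?_ ?_
  · rintro ⟨l, v⟩ h
    exact mem_sl.1 (Finset.mem_sigma.1 h).2
  · rintro ⟨l, v⟩ _ ⟨l', v'⟩ _ h
    simp only [List.cons.injEq] at h
    obtain ⟨rfl, rfl⟩ := h
    rfl
  · intro w hw
    rcases w with _ | ⟨l, v⟩
    · have := hF _ hw
      simp at this
    · exact ⟨⟨l, v⟩, Finset.mem_sigma.2 ⟨Finset.mem_univ _, mem_sl.2 hw⟩, rfl⟩

/-- the hypotheses with numbers: the last pair belongs to planes with at least `c` pairs, the other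
pairs to planes with at least `b` -/
structure LGb (F : Finset (List L)) (n b c : ℕ) : Prop where
  len : ∀ w ∈ F, w.length = n
  rect : ∀ (u : List L) (a b c d : L) (v v' : List L), u ++ a :: b :: v ∈ F →
    u ++ c :: d :: v ∈ F → u ++ a :: b :: v' ∈ F → u ++ c :: d :: v' ∈ F
  inner : ∀ (u : List L) (x y : L) (v : List L), v ≠ [] → u ++ x :: y :: v ∈ F →
    b ≤ (univ.filter (fun z : L × L => u ++ z.1 :: z.2 :: v ∈ F)).card
  last : ∀ (u : List L) (x y : L), u ++ [x, y] ∈ F →
    c ≤ (univ.filter (fun z : L × L => u ++ [z.1, z.2] ∈ F)).card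

lemma LGb.slice {F : Finset (List L)} {n b c : ℕ} (h : LGb F (n + 1) b c) (l : L) :
    LGb (sl F l) n b c where
  len w hw := by
    have := h.len _ (mem_sl.1 hw)
    simpa using this
  rect u a b c d v v' h1 h2 h3 := by
    rw [mem_sl] at *
    exact h.rect (l :: u) a b c d v v' h1 h2 h3
  inner u x y v hv h1 := by
    rw [mem_sl] at h1
    have := h.inner (l :: u) x y v hv h1
    simp_rw [mem_sl]
    exact this
  last u x y h1 := by
    rw [mem_sl] at h1
    have := h.last (l :: u) x y h1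
    simp_rw [mem_sl]
    exact this

lemma LGb.cl_card {F : Finset (List L)} {n b c : ℕ} (h : LGb F n b c) {x : L × L} {v : List L}
    (hv : v ∈ sp F x) : (univ.filter (fun y : L × L => y.1 :: y.2 :: v ∈ F)).card ≤
      (cl F (sp F x)).card := by
  refine Finset.card_le_card fun y hy => ?_
  rw [Finset.mem_filter] at hy
  rw [mem_sp] at hv
  rw [cl, Finset.mem_filter]
  refine ⟨Finset.mem_univ _, ?_⟩
  ext v'
  rw [mem_sp, mem_sp]
  exact ⟨h.rect [] _ _ _ _ v v' hy.2 hv, h.rect [] _ _ _ _ v v' hv hy.2⟩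

/-- **The dimension compared with the number of words**, with a free ratio `0 < x ≤ 1`. -/
theorem LGb.main {b c : ℕ} {x : ℚ} (hx : 0 < x) (hx1 : x ≤ 1) (hb : 1 ≤ (1 - x) * (b * x))
    (hc : 1 ≤ (1 - x) * c) (n : ℕ) : ∀ F : Finset (List L), LGb F (n + 1) b c →
    (x * ∑ l : L, (U 𝕜 (sl F l) : ℚ) ≤ U 𝕜 F) ∧ (x ^ n * F.card ≤ U 𝕜 F) := by
  have hb0 : (0 : ℚ) < b := by
    rcases Nat.eq_zero_or_pos b with rfl | h
    · norm_num at hb
    · exact_mod_cast h
  have hc0 : (0 : ℚ) < c := by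
    rcases Nat.eq_zero_or_pos c with rfl | h
    · norm_num at hc
    · exact_mod_cast h
  induction n with
  | zero =>
    intro F hF
    have h1 : U 𝕜 F = F.card := U_short fun w hw => (hF.len w hw).le
    have h2 : ∀ l : L, U 𝕜 (sl F l) = (sl F l).card := fun l =>
      U_short fun w hw => ((hF.slice l).len w hw).le.trans (by norm_num)
    have h3 := sum_card_sl hF.len
    refine ⟨?_, by rw [h1, pow_zero, one_mul]⟩
    rw [Finset.sum_congr rfl fun l _ => by rw [h2 l], h1, ← h3]
    push_cast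
    have h4 : (0 : ℚ) ≤ ∑ l : L, ((sl F l).card : ℚ) := Finset.sum_nonneg fun _ _ => by positivity
    nlinarith
  | succ n ih =>
    intro F hF
    have h1 := U_ge (𝕜 := 𝕜) (hF.rect [])
    have h1' : ∑ l : L, (U 𝕜 (sl F l) : ℚ) ≤ U 𝕜 F + ∑ P ∈ cs F, (U 𝕜 P : ℚ) := by
      exact_mod_cast h1
    have key : ∑ P ∈ cs F, (U 𝕜 P : ℚ) ≤ (1 - x) * ∑ l : L, (U 𝕜 (sl F l) : ℚ) := by
      rcases n with _ | n
      · have h2 : ∀ l : L, U 𝕜 (sl F l) = (sl F l).card := fun l =>
          U_short fun w hw => ((hF.slice l).len w hw).le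
        have h3 : ∀ a c : L, U 𝕜 (sl (sl F a) c) = (sl (sl F a) c).card := fun a c =>
          U_short fun w hw => (((hF.slice a).slice c).len w hw).le.trans (by norm_num)
        have h4 := classes_le (𝕜 := 𝕜) (F := F) (b := c) (fun x hx => by
          obtain ⟨v, hv⟩ := hx
          have hv0 : v = [] := by
            have := hF.len _ (mem_sp.1 hv)
            simpa using this
          subst hv0
          exact (hF.last [] _ _ (mem_sp.1 hv)).trans (hF.cl_card hv))
        have h5 : c * ∑ P ∈ cs F, U 𝕜 P ≤ ∑ l : L, U 𝕜 (sl F l) := by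
          refine h4.trans ?_
          refine Finset.sum_le_sum fun a _ => ?_
          rw [Finset.sum_congr rfl fun c _ => h3 a c, h2 a]
          exact le_of_eq (sum_card_sl fun w hw => (hF.slice a).len w hw)
        have h6 : (c : ℚ) * ∑ P ∈ cs F, (U 𝕜 P : ℚ) ≤ ∑ l : L, (U 𝕜 (sl F l) : ℚ) := by
          exact_mod_cast h5
        have h7 : (0 : ℚ) ≤ ∑ P ∈ cs F, (U 𝕜 P : ℚ) := Finset.sum_nonneg fun _ _ => by positivity
        calc ∑ P ∈ cs F, (U 𝕜 P : ℚ) ≤ ((1 - x) * c) * ∑ P ∈ cs F, (U 𝕜 P : ℚ) := by nlinarith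
          _ = (1 - x) * (c * ∑ P ∈ cs F, (U 𝕜 P : ℚ)) := by ring
          _ ≤ (1 - x) * ∑ l : L, (U 𝕜 (sl F l) : ℚ) :=
            mul_le_mul_of_nonneg_left h6 (by linarith)
      · have h4 := classes_le (𝕜 := 𝕜) (F := F) (b := b) (fun x hx => by
          obtain ⟨v, hv⟩ := hx
          have hv0 : v ≠ [] := by
            rintro rfl
            have := hF.len _ (mem_sp.1 hv)
            simp at this
          exact (hF.inner [] _ _ v hv0 (mem_sp.1 hv)).trans (hF.cl_card hv))
        have h4' : (b : ℚ) * ∑ P ∈ cs F, (U 𝕜 P : ℚ) ≤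
            ∑ a : L, ∑ c : L, (U 𝕜 (sl (sl F a) c) : ℚ) := by exact_mod_cast h4
        have h5 : x * ∑ a : L, ∑ c : L, (U 𝕜 (sl (sl F a) c) : ℚ) ≤
            ∑ a : L, (U 𝕜 (sl F a) : ℚ) := by
          rw [Finset.mul_sum]
          exact Finset.sum_le_sum fun a _ => (ih _ (hF.slice a)).1
        have h7 : (0 : ℚ) ≤ ∑ P ∈ cs F, (U 𝕜 P : ℚ) := Finset.sum_nonneg fun _ _ => by positivity
        calc ∑ P ∈ cs F, (U 𝕜 P : ℚ) ≤ ((1 - x) * (b * x)) * ∑ P ∈ cs F, (U 𝕜 P : ℚ) := by
              nlinarith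
          _ = (1 - x) * (x * (b * ∑ P ∈ cs F, (U 𝕜 P : ℚ))) := by ring
          _ ≤ (1 - x) * (x * ∑ a : L, ∑ c : L, (U 𝕜 (sl (sl F a) c) : ℚ)) :=
            mul_le_mul_of_nonneg_left (mul_le_mul_of_nonneg_left h4' hx.le) (by linarith)
          _ ≤ (1 - x) * ∑ l : L, (U 𝕜 (sl F l) : ℚ) :=
            mul_le_mul_of_nonneg_left h5 (by linarith)
    have h8 : x * ∑ l : L, (U 𝕜 (sl F l) : ℚ) ≤ U 𝕜 F := by linarith
    refine ⟨h8, ?_⟩
    rw [← sum_card_sl hF.len, pow_succ']
    push_cast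
    rw [mul_assoc, Finset.mul_sum]
    refine le_trans (mul_le_mul_of_nonneg_left (Finset.sum_le_sum fun l _ =>
      (ih _ (hF.slice l)).2) hx.le) h8

/-- at least four pairs in the inner planes, two in the last one: half of the words per letter -/
theorem LG.card_le (n : ℕ) {F : Finset (List L)} (h : LG F (n + 1)) :
    F.card ≤ 2 ^ n * U 𝕜 F := by
  have h1 : LGb F (n + 1) 4 2 := ⟨h.len, h.rect, h.four, h.two⟩
  have h2 := (LGb.main (𝕜 := 𝕜) (b := 4) (c := 2) (x := 1 / 2) (by norm_num) (by norm_num)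
    (by norm_num) (by norm_num) n F h1).2
  have h3 : (F.card : ℚ) ≤ 2 ^ n * U 𝕜 F := by
    have h4 : (2 : ℚ) ^ n * ((1 / 2) ^ n * F.card) ≤ 2 ^ n * U 𝕜 F :=
      mul_le_mul_of_nonneg_left h2 (by positivity)
    rw [← mul_assoc, ← mul_pow] at h4
    norm_num at h4
    exact h4
  exact_mod_cast h3

end

end Vale.Agent.P240.R2.H401
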