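import Vale.Agent.P240.R2.H401.NL5a

/-!
Diagonal hermitian forms over finite fields in odd dimension.
-/

set_option autoImplicit false

namespace Vale.Agent.P240.R2.H401

open Finset Matrix

universe u

section

variable {K : Type u} [Field K] {n : ℕ}

/-- the diagonal form -/
def BB (d : Fin n → K) (v w : Fin n → K) : K := ∑ k, d k * v k * w k

lemma BB_comm (d v w : Fin n → K) : BB d v w = BB d w v := by
  unfold BB
  exact Finset.sum_congr rfl fun k _ => by ring

lemma BB_add (d u v w : Fin n → K) (x y : K) :
    BB d (fun k => x * u k + y * v k) w = x * BB d u w + y * BB d v w := by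
  unfold BB
  rw [Finset.mul_sum, Finset.mul_sum, ← Finset.sum_add_distrib]
  exact Finset.sum_congr rfl fun k _ => by ring

lemma BB_add' (d u v w : Fin n → K) (x y : K) :
    BB d w (fun k => x * u k + y * v k) = x * BB d w u + y * BB d w v := by
  rw [BB_comm, BB_add, BB_comm d u, BB_comm d v]

variable [StarRing K]

/-- `diag(d)` is equivalent to `diag(e)` over the fixed field of `star` -/
def Eqv (d e : Fin n → K) : Prop := ∃ v : Fin n → Fin n → K, (∀ a k, star (v a k) = v a k) ∧
  ∀ a b, BB d (v a) (v b) = if a = b then e a else 0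

lemma Eqv.refl (d : Fin n → K) : Eqv d d := by
  refine ⟨fun a k => if a = k then 1 else 0, fun a k => ?_, fun a b => ?_⟩
  · show star (if a = k then (1 : K) else 0) = if a = k then 1 else 0
    split_ifs <;> simp
  · unfold BB
    rw [Finset.sum_eq_single a]
    · by_cases h : a = b
      · subst h
        simp
      · simp [h, Ne.symm h]
    · intro k _ hk
      simp [Ne.symm hk]
    · simp

lemma Eqv.step {d e : Fin n → K} (h : Eqv d e) (he : ∀ a, star (e a) = e a) {i j : Fin n}
    (hij : i ≠ j) {x y l : K} (hx : star x = x) (hy : star y = y)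
    (hl : e i * x ^ 2 + e j * y ^ 2 = l) :
    Eqv d (Function.update (Function.update e i l) j (e i * e j * l)) := by
  obtain ⟨v, hv, hB⟩ := h
  refine ⟨Function.update (Function.update v i (fun k => x * v i k + y * v j k)) j
    (fun k => (-(y * e j)) * v i k + (x * e i) * v j k), ?_, ?_⟩
  · intro a k
    by_cases haj : a = j
    · subst haj
      simp [Function.update_self, hv, hx, hy, he, mul_comm]
    · by_cases hai : a = i
      · subst hai
        simp [Function.update_of_ne haj, Function.update_self, hv, hx, hy, mul_comm]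
      · simp [Function.update_of_ne haj, Function.update_of_ne hai, hv]
  · have hii := hB i i
    have hjj := hB j j
    have hij' := hB i j
    have hji := hB j i
    rw [if_pos rfl] at hii hjj
    rw [if_neg hij] at hij'
    rw [if_neg (Ne.symm hij)] at hji
    intro a b
    by_cases haj : a = j
    · subst haj
      rw [Function.update_self, Function.update_self]
      by_cases hbj : b = a
      · subst hbj
        rw [Function.update_self, if_pos rfl, BB_add, BB_add', BB_add', hii, hjj, hij', hji, ← hl]
        ring
      · rw [Function.update_of_ne hbj, if_neg (Ne.symm hbj)]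
        by_cases hbi : b = i
        · subst hbi
          rw [Function.update_self, BB_add, BB_add', BB_add', hii, hjj, hij', hji]
          ring
        · rw [Function.update_of_ne hbi, BB_add, hB, hB, if_neg (Ne.symm hbi), if_neg (Ne.symm hbj)]
          ring
    · rw [Function.update_of_ne haj, Function.update_of_ne haj]
      by_cases hai : a = i
      · subst hai
        rw [Function.update_self, Function.update_self]
        by_cases hbj : b = j
        · subst hbj
          rw [Function.update_self, if_neg haj, BB_add, BB_add', BB_add', hii, hjj, hij', hji]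
          ring
        · rw [Function.update_of_ne hbj]
          by_cases hbi : b = a
          · subst hbi
            rw [Function.update_self, if_pos rfl, BB_add, BB_add', BB_add', hii, hjj, hij', hji,
              ← hl]
            ring
          · rw [Function.update_of_ne hbi, BB_add, hB, hB, if_neg (Ne.symm hbi),
              if_neg (Ne.symm hbj), if_neg (Ne.symm hbi)]
            ring
      · rw [Function.update_of_ne hai, Function.update_of_ne hai]
        by_cases hbj : b = j
        · subst hbj
          rw [Function.update_self, if_neg haj, BB_add', hB, hB, if_neg haj, if_neg hai]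
          ring
        · rw [Function.update_of_ne hbj]
          by_cases hbi : b = i
          · subst hbi
            rw [Function.update_self, if_neg hai, BB_add', hB, hB, if_neg haj, if_neg hai]
            ring
          · rw [Function.update_of_ne hbi, hB]

end

section finite

variable {K : Type u} [Field K] [Finite K] [StarRing K]

/-- a binary form over the fixed field represents everything -/
lemma exists_plane (h2 : (2 : K) ≠ 0) {d₁ d₂ l : K} (h₁ : star d₁ = d₁) (h₂ : star d₂ = d₂)
    (hl : star l = l) (hd₁ : d₁ ≠ 0) (hd₂ : d₂ ≠ 0) :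
    ∃ x y : K, star x = x ∧ star y = y ∧ d₁ * x ^ 2 + d₂ * y ^ 2 = l := by
  have := Fintype.ofFinite (selfAdjoint K)
  have hcard : Fintype.card (selfAdjoint K) % 2 = 1 := by
    refine FiniteField.odd_card_of_char_ne_two ?_
    intro hchar
    have h3 : ((2 : ℕ) : selfAdjoint K) = 0 := by
      rw [← hchar]
      exact ringChar.Nat.cast_ringChar
    apply h2
    have h4 : (((2 : ℕ) : selfAdjoint K) : K) = 0 := by rw [h3]; rfl
    rw [← h4]
    push_cast
    rfl
  let D₁ : selfAdjoint K := ⟨d₁, h₁⟩
  let D₂ : selfAdjoint K := ⟨d₂, h₂⟩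
  let L : selfAdjoint K := ⟨l, hl⟩
  have hD₁ : D₁ ≠ 0 := fun h => hd₁ (congrArg (fun x : selfAdjoint K => (x : K)) h)
  have hD₂ : D₂ ≠ 0 := fun h => hd₂ (congrArg (fun x : selfAdjoint K => (x : K)) h)
  obtain ⟨x, y, hxy⟩ := FiniteField.exists_root_sum_quadratic
    (f := Polynomial.C D₁ * Polynomial.X ^ 2 - Polynomial.C L)
    (g := Polynomial.C D₂ * Polynomial.X ^ 2)
    (by rw [Polynomial.degree_sub_C, Polynomial.degree_C_mul_X_pow _ hD₁]; · rfl
        · rw [Polynomial.degree_C_mul_X_pow _ hD₁]; exact WithBot.coe_lt_coe.2 (by norm_num))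
    (by rw [Polynomial.degree_C_mul_X_pow _ hD₂]; rfl) hcard
  refine ⟨x, y, x.2, y.2, ?_⟩
  simp only [Polynomial.eval_sub, Polynomial.eval_mul, Polynomial.eval_C, Polynomial.eval_pow,
    Polynomial.eval_X] at hxy
  have := congrArg (fun x : selfAdjoint K => (x : K)) hxy
  simp only [AddSubgroup.coe_add, AddSubgroup.coe_sub, selfAdjoint.val_mul, selfAdjoint.val_pow,
    AddSubgroup.coe_zero] at this
  linear_combination this

lemma Eqv.main (h2 : (2 : K) ≠ 0) {n : ℕ} (d : Fin n → K) (hd : ∀ a, star (d a) = d a)
    (hd0 : ∀ a, d a ≠ 0) {l : K} (hl : star l = l) (hl0 : l ≠ 0) (i₀ : Fin n)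
    (S : Finset (Fin n)) (hS : i₀ ∉ S) :
    ∃ e : Fin n → K, Eqv d e ∧ (∀ a, star (e a) = e a) ∧ (∀ a, e a ≠ 0) ∧ (∀ j ∈ S, e j = l) ∧
      e i₀ = l ^ S.card * d i₀ * ∏ j ∈ S, d j ∧ ∀ k, k ∉ S → k ≠ i₀ → e k = d k := by
  induction S using Finset.induction_on with
  | empty => exact ⟨d, Eqv.refl d, hd, hd0, by simp, by simp, fun _ _ _ => rfl⟩
  | insert j S hj ih =>
    have hS' : i₀ ∉ S := fun h => hS (Finset.mem_insert_of_mem h)
    have hji : j ≠ i₀ := fun h => hS (h ▸ Finset.mem_insert_self _ _)
    obtain ⟨e, he, hes, he0, heS, hei, hek⟩ := ih hS'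
    obtain ⟨x, y, hx, hy, hxy⟩ := exists_plane h2 (hes j) (hes i₀) hl (he0 j) (he0 i₀)
    refine ⟨_, he.step hes hji hx hy hxy, ?_, ?_, ?_, ?_, ?_⟩
    · intro a
      by_cases h1 : a = i₀
      · subst h1
        rw [Function.update_self, star_mul', star_mul', hes, hes, hl]
      · rw [Function.update_of_ne h1]
        by_cases h3 : a = j
        · subst h3
          rw [Function.update_self, hl]
        · rw [Function.update_of_ne h3, hes]
    · intro a
      by_cases h1 : a = i₀
      · subst h1
        rw [Function.update_self]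
        exact mul_ne_zero (mul_ne_zero (he0 _) (he0 _)) hl0
      · rw [Function.update_of_ne h1]
        by_cases h3 : a = j
        · subst h3
          rw [Function.update_self]
          exact hl0
        · rw [Function.update_of_ne h3]
          exact he0 a
    · intro a ha
      have h1 : a ≠ i₀ := fun h => hS (h ▸ ha)
      rw [Function.update_of_ne h1]
      by_cases h3 : a = j
      · subst h3
        rw [Function.update_self]
      · rw [Function.update_of_ne h3]
        exact heS a (Finset.mem_of_mem_insert_of_ne ha h3)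
    · rw [Function.update_self, hei, hek j hj hji, Finset.card_insert_of_notMem hj,
        Finset.prod_insert hj, pow_succ]
      ring
    · intro k hk hk0
      have h3 : k ≠ j := fun h => hk (h ▸ Finset.mem_insert_self _ _)
      rw [Function.update_of_ne hk0, Function.update_of_ne h3]
      exact hek k (fun h => hk (Finset.mem_insert_of_mem h)) hk0

/-- in odd dimension every diagonal form over the fixed field is similar to the standard one -/
lemma exists_similar (h2 : (2 : K) ≠ 0) {n : ℕ} (hn : Odd n) (d : Fin n → K)
    (hd : ∀ a, star (d a) = d a) (hd0 : ∀ a, d a ≠ 0) :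
    ∃ l : K, l ≠ 0 ∧ star l = l ∧ Eqv d (fun _ => l) := by
  obtain ⟨m, hm⟩ := hn
  let i₀ : Fin n := ⟨0, by omega⟩
  set l : K := ∏ a, d a with hl
  have hl0 : l ≠ 0 := Finset.prod_ne_zero_iff.2 fun a _ => hd0 a
  have hls : star l = l := by
    rw [hl, ← starRingEnd_apply, map_prod]
    exact Finset.prod_congr rfl fun a _ => hd a
  obtain ⟨e, ⟨v, hv, hB⟩, hes, he0, heS, hei, -⟩ := Eqv.main h2 d hd hd0 hls hl0 i₀
    (Finset.univ.erase i₀) (Finset.notMem_erase _ _)
  have hc : (Finset.univ.erase i₀).card = 2 * m := by
    rw [Finset.card_erase_of_mem (Finset.mem_univ _), Finset.card_univ, Fintype.card_fin, hm]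
    rfl
  have hei' : e i₀ = l ^ (2 * m) * l := by
    rw [hei, hc, mul_assoc, Finset.mul_prod_erase _ _ (Finset.mem_univ _)]
  have hlm : l ^ m ≠ 0 := pow_ne_zero _ hl0
  refine ⟨l, hl0, hls, Function.update v i₀ (fun k => (l ^ m)⁻¹ * v i₀ k + 0 * v i₀ k), ?_, ?_⟩
  · intro a k
    by_cases ha : a = i₀
    · subst ha
      simp [Function.update_self, hv, hls]
    · rw [Function.update_of_ne ha, hv]
  · intro a b
    have hBi : BB d (v i₀) (v i₀) = l ^ (2 * m) * l := by rw [hB, if_pos rfl, hei']
    by_cases ha : a = i₀
    · rw [ha, Function.update_self]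
      by_cases hb : b = i₀
      · rw [hb, Function.update_self, if_pos rfl, BB_add, BB_add', hBi, two_mul, pow_add]
        field_simp
        ring
      · rw [Function.update_of_ne hb, if_neg (Ne.symm hb), BB_add, hB, if_neg (Ne.symm hb)]
        ring
    · rw [Function.update_of_ne ha]
      by_cases hb : b = i₀
      · rw [hb, Function.update_self, if_neg ha, BB_add', hB, if_neg ha]
        ring
      · rw [Function.update_of_ne hb, hB]
        by_cases hab : a = b
        · rw [if_pos hab, if_pos hab, heS a (Finset.mem_erase.2 ⟨ha, Finset.mem_univ _⟩)]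
        · rw [if_neg hab, if_neg hab]

variable {q : ℕ}

omit [StarRing K] in
lemma two_ne_zero_of_odd (hK : Nat.card K = q ^ 2) (hq : Odd q) : (2 : K) ≠ 0 := by
  have := Fintype.ofFinite K
  intro h
  have h1 : ringChar K = 2 := by
    have : (ringChar K) ∣ 2 := ringChar.dvd (by exact_mod_cast h)
    rcases (Nat.dvd_prime Nat.prime_two).1 this with h1 | h1
    · exact absurd h1 (CharP.ringChar_ne_one)
    · exact h1
  have h2 := FiniteField.even_card_of_char_two h1
  rw [← Nat.card_eq_fintype_card, hK] at h2
  obtain ⟨m, hm⟩ := hq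
  have : (2 * m + 1) ^ 2 = 2 * (2 * m ^ 2 + 2 * m) + 1 := by ring
  rw [hm, this] at h2
  omega

/-- NL5 (b) -/
theorem hilb_two (hK : Nat.card K = q ^ 2) (hstar : ∀ x : K, star x = x ^ q) (hq : Odd q) {n : ℕ}
    (hn : Odd n) (a : Fin n → K) (ha : ∀ i, a i * star (a i) = 1) :
    ∃ u ∈ Matrix.unitaryGroup (Fin n) K, ∃ c : K, Matrix.diagonal a * u.map star = c • u := by
  have h : ∀ i, ∃ b : K, b ≠ 0 ∧ a i = b / star b := fun i => exists_div_star_eq hK hstar (ha i)
  choose b hb0 hb using h
  obtain ⟨l, hl0, hls, v, hv, hB⟩ := exists_similar (two_ne_zero_of_odd hK hq) hn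
    (fun i => b i * star (b i)) (fun i => by rw [star_mul', star_star, mul_comm])
    (fun i => mul_ne_zero (hb0 i) (by simpa using hb0 i))
  obtain ⟨t, ht0, ht⟩ := exists_norm_eq hK hstar (inv_ne_zero hl0) (by rw [star_inv₀, hls])
  have ht0' : star t ≠ 0 := by simpa using ht0
  refine ⟨Matrix.of fun k i => t * b k * v i k, ?_, star t / t, ?_⟩
  · rw [Matrix.mem_unitaryGroup_iff']
    ext i j
    rw [Matrix.mul_apply]
    have h1 : ∀ k, (star (Matrix.of fun k i => t * b k * v i k) : Matrix (Fin n) (Fin n) K) i k *
        (Matrix.of fun k i => t * b k * v i k) k j =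
        (t * star t) * ((b k * star (b k)) * v i k * v j k) := by
      intro k
      rw [Matrix.star_apply, Matrix.of_apply, Matrix.of_apply, star_mul', star_mul', hv]
      ring
    rw [Finset.sum_congr rfl fun k _ => h1 k, ← Finset.mul_sum]
    have h3 := hB i j
    unfold BB at h3
    rw [h3, ht]
    by_cases hij : i = j
    · subst hij
      rw [if_pos rfl, Matrix.one_apply_eq, inv_mul_cancel₀ hl0]
    · rw [if_neg hij, Matrix.one_apply_ne hij, mul_zero]
  · ext k i
    rw [Matrix.diagonal_mul, Matrix.map_apply, Matrix.smul_apply, Matrix.of_apply, hb k, star_mul',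
      star_mul', hv, smul_eq_mul]
    have : star (b k) ≠ 0 := by simpa using hb0 k
    field_simp

end finite

end Vale.Agent.P240.R2.H401
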