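import Mathlib.FieldTheory.Finite.GaloisField
import Mathlib.FieldTheory.Finite.Basic
import Mathlib.GroupTheory.SpecificGroups.Cyclic
import Vale.Agent.P240.R2.H112.Nm

/-!
Involutions of finite fields of odd characteristic: norms and squares.
-/

set_option autoImplicit false
set_option linter.all false

namespace Vale.Agent.P240.R2.H401.X7

universe u

variable {K : Type u} [Field K]

lemma sq_of [Finite K] (h2 : (2 : K) ≠ 0) {μ ν : K} (hμ : μ ≠ 0) (hν : ν ≠ 0)
    (h1 : ¬ IsSquare μ) (h3 : ¬ IsSquare ν) : IsSquare (μ * ν) := by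
  have := Fintype.ofFinite K
  classical
  have hc : ringChar K ≠ 2 := by
    intro h
    apply h2
    have := ringChar.spec K 2
    rw [h] at this
    exact_mod_cast this.2 dvd_rfl
  rw [FiniteField.isSquare_iff hc hμ] at h1
  rw [FiniteField.isSquare_iff hc hν] at h3
  rw [FiniteField.isSquare_iff hc (mul_ne_zero hμ hν), mul_pow]
  have e1 := (FiniteField.pow_dichotomy hc hμ).resolve_left h1
  have e2 := (FiniteField.pow_dichotomy hc hν).resolve_left h3
  rw [e1, e2]
  ring

/-- the automorphism group of a finite field is cyclic -/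
lemma cyc_aut (K : Type u) [Field K] [Finite K] : IsCyclic (RingAut K) := by
  obtain ⟨l, hl⟩ := CharP.exists K
  have : Fact l.Prime := ⟨CharP.char_is_prime K l⟩
  let _ : Algebra (ZMod l) K := ZMod.algebra K l
  let f : (K ≃ₐ[ZMod l] K) →* RingAut K :=
    { toFun := fun s => s.toRingEquiv
      map_one' := rfl
      map_mul' := fun _ _ => rfl }
  refine isCyclic_of_surjective f fun s => ?_
  refine ⟨AlgEquiv.ofRingEquiv (f := s) fun x => ?_, ?_⟩
  · obtain ⟨k, rfl⟩ := ZMod.intCast_surjective x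
    simp
  · ext x
    rfl

/-- elements of the fixed field of an involution are squares -/
lemma fixed_sq [Finite K] (h2 : (2 : K) ≠ 0) {σ : RingAut K} (hσ : σ * σ = 1) (hσ1 : σ ≠ 1) {z : K}
    (hz : σ z = z) : IsSquare z := by
  obtain ⟨w, hw⟩ : ∃ w : K, σ w ≠ w := by
    by_contra hcon
    push Not at hcon
    exact hσ1 (RingEquiv.ext hcon)
  have hσσ : ∀ x : K, σ (σ x) = x := fun x => by
    change (σ * σ) x = x
    rw [hσ]; rfl
  set s : K := w - σ w with hs
  have hs0 : s ≠ 0 := fun h0 => hw (sub_eq_zero.1 h0).symm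
  have hσs : σ s = -s := by rw [hs, map_sub, hσσ]; ring
  -- the fixed field
  let k : Subfield K := (σ : K ≃+* K).toRingHom.eqLocusField (RingHom.id K)
  have hk : ∀ x : K, x ∈ k ↔ σ x = x := fun x => Iff.rfl
  by_cases hz0 : z = 0
  · exact ⟨0, by rw [hz0, mul_zero]⟩
  let z' : k := ⟨z, hz⟩
  by_cases h3 : IsSquare z'
  · obtain ⟨t, ht⟩ := h3
    exact ⟨t, congrArg Subtype.val ht⟩
  have hd : σ (s * s) = s * s := by rw [map_mul, hσs]; ring
  let d : k := ⟨s * s, hd⟩
  have h4 : ¬ IsSquare d := by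
    rintro ⟨t, ht⟩
    have h5 : s * s = (t : K) * t := congrArg Subtype.val ht
    have h6 : σ (t : K) = t := t.2
    have h7 : s = t ∨ s = -t := mul_self_eq_mul_self_iff.1 h5
    have h8 : σ s = s := by
      rcases h7 with h7 | h7
      · rw [h7, h6]
      · rw [h7, map_neg, h6]
    rw [hσs] at h8
    have h9 : (2 : K) * s = 0 := by linear_combination -h8
    rcases mul_eq_zero.1 h9 with h | h
    · exact h2 h
    · exact hs0 h
  have h2' : (2 : k) ≠ 0 := fun h => h2 (congrArg Subtype.val h)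
  have hz'0 : z' ≠ 0 := fun h => hz0 (congrArg Subtype.val h)
  have hd0 : d ≠ 0 := fun h => mul_ne_zero hs0 hs0 (congrArg Subtype.val h)
  obtain ⟨t, ht⟩ := sq_of h2' hz'0 hd0 h3 h4
  have h5 : z * (s * s) = (t : K) * t := congrArg Subtype.val ht
  refine ⟨t / s, ?_⟩
  field_simp
  linear_combination h5

/-- elements of norm `1` are squares -/
lemma norm_sq [Finite K] (h2 : (2 : K) ≠ 0) {σ : RingAut K} (hσ : σ * σ = 1) (hσ1 : σ ≠ 1)
    {μ : K} (h : μ * σ μ = 1) : IsSquare μ := by
  have hσσ : ∀ x : K, σ (σ x) = x := fun x => by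
    change (σ * σ) x = x
    rw [hσ]; rfl
  have hμ : μ ≠ 0 := left_ne_zero_of_mul_eq_one h
  by_cases h1 : 1 + μ = 0
  · have : μ = -1 := by linear_combination h1
    rw [this]
    exact fixed_sq h2 hσ hσ1 (by rw [map_neg, map_one])
  -- Hilbert 90
  set a : K := 1 + μ with ha
  have hσa : μ * σ a = a := by rw [ha, map_add, map_one]; linear_combination h
  have hσa0 : σ a ≠ 0 := by simpa using h1
  obtain ⟨r, hr⟩ := fixed_sq h2 hσ hσ1 (z := a * σ a) (by rw [map_mul, hσσ, mul_comm])
  have hr0 : r ≠ 0 := by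
    rintro rfl
    rw [mul_zero] at hr
    exact mul_ne_zero h1 hσa0 hr
  refine ⟨a / r, ?_⟩
  have e1 : μ = a / σ a := by
    rw [eq_div_iff hσa0, hσa]
  have e2 : a / r * (a / r) = (a * a) / (r * r) := by field_simp
  rw [e2, ← hr, e1]
  field_simp

/-- there is at most one involution in the automorphism group of a finite field -/
lemma unique_inv [Finite K] {σ τ : RingAut K} (hσ : σ * σ = 1) (hσ1 : σ ≠ 1) (hτ : τ * τ = 1)
    (hτ1 : τ ≠ 1) : σ = τ := by
  classical
  have := cyc_aut K
  have hfin : Finite (RingAut K) := Finite.of_injective (fun f : RingAut K => (f : K → K))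
    DFunLike.coe_injective
  have := Fintype.ofFinite (RingAut K)
  by_contra hne
  have h1 := IsCyclic.card_pow_eq_one_le (α := RingAut K) (n := 2) (by norm_num)
  have h2 : ({1, σ, τ} : Finset (RingAut K)) ⊆ Finset.univ.filter (fun a : RingAut K => a ^ 2 = 1) := by
    intro x hx
    rw [Finset.mem_filter]
    refine ⟨Finset.mem_univ _, ?_⟩
    simp only [Finset.mem_insert, Finset.mem_singleton] at hx
    rcases hx with rfl | rfl | rfl
    · exact one_pow 2
    · rw [pow_two, hσ]
    · rw [pow_two, hτ]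
  have h3 := Finset.card_le_card h2
  have h4 : ({1, σ, τ} : Finset (RingAut K)).card = 3 := by
    rw [Finset.card_eq_three]
    exact ⟨1, σ, τ, hσ1.symm, hτ1.symm, hne, rfl⟩
  omega

/-- norms -/
lemma norm_sur [Finite K] {σ : RingAut K} (hσ : σ * σ = 1) (hσ1 : σ ≠ 1) {d : K} (hd : σ d = d) :
    ∃ A : K, A * σ A = d := by
  obtain ⟨b, hb⟩ := H112.exists_norm σ Nat.prime_two (by rw [pow_two, hσ]) hσ1 hd
  refine ⟨b, ?_⟩
  rw [Finset.prod_range_succ, Finset.prod_range_one, pow_zero, pow_one] at hb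
  exact hb

end Vale.Agent.P240.R2.H401.X7
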