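import Vale.Agent.P240.R2.H684.X3
import Vale.Agent.P240.R2.H112.Br
import Vale.Agent.P240.R2.H112.Cn0
import Vale.Agent.P240.R2.H401.X7n
import Vale.Agent.P240.R2.H986.X.Stm4

/-!
Groups given by Chevalley's relations, the prime `2`: words, the action of `N` and the extension of
automorphisms.
-/

set_option autoImplicit false
set_option linter.all false

namespace Vale.Agent.P240.R2.H401.X7

open Subgroup Vale.Agent.P240.K Vale.Agent.P240.H195 Vale.Agent.P240.R2.H986.X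

section
variable {ι : Type*} {F : Type*} [Field F] {L : Type*} [Group L] {C : RC ι} {x : ι → F → L}

/-- deletion -/
lemma del (h : CS C x) {a : ι} (ha : C.simp a) (m : List ι) (hm : ∀ i ∈ m, C.simp i)
    (h1 : C.ht (wl C m a) < 0) : ∃ m' : List ι, (∀ i ∈ m', C.simp i) ∧ m'.length + 1 = m.length ∧
      ∃ t ∈ TT C x, nl C x (m ++ [a]) = t * nl C x m' := by
  have h2 : ∀ m : List ι, (∀ i ∈ m, C.simp i) → C.ht (wl C m a) < 0 →
      ∃ (A : List ι) (i : ι) (D : List ι), m = A ++ i :: D ∧ wl C D a = i := by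
    intro m
    induction m with
    | nil =>
      intro _ h3
      rw [wl_nil] at h3
      have := C.simp_pos a ha
      omega
    | cons b m ihm =>
      intro hm h3
      by_cases h4 : C.ht (wl C m a) < 0
      · obtain ⟨A, i, D, rfl, h5⟩ := ihm (fun i hi => hm i (by simp [hi])) h4
        exact ⟨b :: A, i, D, by simp, h5⟩
      · refine ⟨[], b, m, rfl, ?_⟩
        by_contra hne
        have h5 := C.ht_ne (wl C m a)
        have h6 := C.s_pos b (wl C m a) (hm b (by simp)) (by omega) hne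
        rw [wl_cons] at h3
        omega
  obtain ⟨A, i, D, rfl, hD⟩ := h2 m hm h1
  obtain ⟨c, hc, h3⟩ := h.nl_nn D a
  have h4 := h3 1 one_ne_zero
  rw [hD, mul_one] at h4
  refine ⟨A ++ D, ?_, by simp; omega, nl C x A * (nn C.neg x i 1 * nn C.neg x i c) * (nl C x A)⁻¹,
    h.nl_conj_T A (h.nn_nn one_ne_zero hc), ?_⟩
  · intro j hj
    rcases List.mem_append.1 hj with h5 | h5
    · exact hm j (by simp [h5])
    · exact hm j (by simp [h5])
  · rw [← h4, nl_append, nl_append, nl_append, nl_cons, nl_cons, nl_nil]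
    group

lemma nl_rev (h : CS C x) (l : List ι) : ∃ t ∈ TT C x, (nl C x l)⁻¹ = t * nl C x l.reverse := by
  induction l with
  | nil => exact ⟨1, one_mem _, by simp [nl_nil]⟩
  | cons i l ih =>
    obtain ⟨t, ht, h1⟩ := ih
    have h2 : (nn C.neg x i 1)⁻¹ * (nn C.neg x i 1)⁻¹ ∈ TT C x := by
      rw [← mul_inv_rev]
      exact inv_mem (h.nn_nn one_ne_zero one_ne_zero)
    have h3 := h.nl_conj_T (l.reverse ++ [i]) h2
    refine ⟨t * (nl C x (l.reverse ++ [i]) * ((nn C.neg x i 1)⁻¹ * (nn C.neg x i 1)⁻¹) *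
      (nl C x (l.reverse ++ [i]))⁻¹), mul_mem ht h3, ?_⟩
    rw [nl_cons, mul_inv_rev, h1, List.reverse_cons, nl_append, nl_cons, nl_nil]
    group

/-- `T` on a root and its negative -/
lemma T_act2 (h : CS C x) {g : L} (hg : g ∈ TT C x) (j : ι) : ∃ c : F, c ≠ 0 ∧ ∀ u,
    g * x j u * g⁻¹ = x j (c * u) ∧ g * x (C.neg j) u * g⁻¹ = x (C.neg j) (c⁻¹ * u) := by
  refine closure_induction (p := fun g _ => ∃ c : F, c ≠ 0 ∧ ∀ u, g * x j u * g⁻¹ = x j (c * u) ∧
    g * x (C.neg j) u * g⁻¹ = x (C.neg j) (c⁻¹ * u)) ?_ ?_ ?_ ?_ hg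
  · rintro _ ⟨i, t, ht, rfl⟩
    refine ⟨t ^ C.pr j i, zpow_ne_zero _ ht, fun u => ⟨h.h_act i j ht u, ?_⟩⟩
    rw [h.h_act i (C.neg j) ht u, C.pr_neg, zpow_neg]
  · exact ⟨1, one_ne_zero, fun u => by simp⟩
  · rintro a b _ _ ⟨c, hc, h1⟩ ⟨d, hd, h2⟩
    refine ⟨c * d, mul_ne_zero hc hd, fun u => ⟨?_, ?_⟩⟩
    · calc a * b * x j u * (a * b)⁻¹ = a * (b * x j u * b⁻¹) * a⁻¹ := by group
        _ = _ := by rw [(h2 u).1, (h1 _).1, mul_assoc]
    · calc a * b * x (C.neg j) u * (a * b)⁻¹ = a * (b * x (C.neg j) u * b⁻¹) * a⁻¹ := by group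
        _ = _ := by rw [(h2 u).2, (h1 _).2, mul_inv, mul_assoc]
  · rintro a _ ⟨c, hc, h1⟩
    refine ⟨c⁻¹, inv_ne_zero hc, fun u => ⟨?_, ?_⟩⟩
    · have h2 := (h1 (c⁻¹ * u)).1
      rw [mul_inv_cancel_left₀ hc] at h2
      rw [← h2]
      group
    · have h2 := (h1 (c⁻¹⁻¹ * u)).2
      rw [mul_inv_cancel_left₀ (inv_ne_zero hc)] at h2
      rw [← h2]
      group

/-- the action of `nl l` on a root and its negative -/
lemma nl_act2 (h : CS C x) (l : List ι) (j : ι) : ∃ c : F, c ≠ 0 ∧ ∀ u,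
    nl C x l * x j u * (nl C x l)⁻¹ = x (wl C l j) (c * u) ∧
    nl C x l * x (C.neg j) u * (nl C x l)⁻¹ = x (C.neg (wl C l j)) (c⁻¹ * u) := by
  induction l with
  | nil => exact ⟨1, one_ne_zero, fun u => by simp [nl_nil, wl_nil]⟩
  | cons i l ih =>
    obtain ⟨c, hc, h1⟩ := ih
    obtain ⟨d, hd, h2⟩ := h.refl i (wl C l j)
    have hd1 : d⁻¹ = d := inv_eq_of_mul_eq_one_right hd
    refine ⟨d * c, mul_ne_zero (left_ne_zero_of_mul_eq_one hd) hc, fun u => ⟨?_, ?_⟩⟩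
    · have e1 : nl C x (i :: l) * x j u * (nl C x (i :: l))⁻¹ =
          nn C.neg x i 1 * (nl C x l * x j u * (nl C x l)⁻¹) * (nn C.neg x i 1)⁻¹ := by
        rw [nl_cons]; group
      rw [e1, (h1 u).1, (h2 1 _ one_ne_zero).1, wl_cons, one_zpow, mul_one, mul_assoc]
    · have e1 : nl C x (i :: l) * x (C.neg j) u * (nl C x (i :: l))⁻¹ =
          nn C.neg x i 1 * (nl C x l * x (C.neg j) u * (nl C x l)⁻¹) * (nn C.neg x i 1)⁻¹ := by
        rw [nl_cons]; group
      rw [e1, (h1 u).2, (h2 1 _ one_ne_zero).2, wl_cons, one_zpow, mul_one, mul_inv, hd1, mul_assoc]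

/-- the action of an element of `N` -/
lemma act2 (h : CS C x) {t : L} (ht : t ∈ TT C x) (l : List ι) (j : ι) : ∃ c : F, c ≠ 0 ∧ ∀ u,
    (t * nl C x l) * x j u * (t * nl C x l)⁻¹ = x (wl C l j) (c * u) ∧
    (t * nl C x l) * x (C.neg j) u * (t * nl C x l)⁻¹ = x (C.neg (wl C l j)) (c⁻¹ * u) := by
  obtain ⟨c, hc, h1⟩ := nl_act2 h l j
  obtain ⟨d, hd, h2⟩ := T_act2 h ht (wl C l j)
  refine ⟨d * c, mul_ne_zero hd hc, fun u => ⟨?_, ?_⟩⟩
  · have e1 : t * nl C x l * x j u * (t * nl C x l)⁻¹ =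
        t * (nl C x l * x j u * (nl C x l)⁻¹) * t⁻¹ := by group
    rw [e1, (h1 u).1, (h2 _).1, mul_assoc]
  · have e1 : t * nl C x l * x (C.neg j) u * (t * nl C x l)⁻¹ =
        t * (nl C x l * x (C.neg j) u * (nl C x l)⁻¹) * t⁻¹ := by group
    rw [e1, (h1 u).2, (h2 _).2, mul_inv, mul_assoc]

/-- the sign of `n_i` on `x_i` -/
lemma sgn [Finite F] (h : CS C x) (hc : ∀ g : L, (∀ y, g * y = y * g) → g = 1)
    (r : ℕ) [Fact r.Prime] [CharP F r] (h2 : (2 : F) ≠ 0) (i : ι) {t : F} (ht : t ≠ 0) (u : F) :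
    nn C.neg x i t * x i u * (nn C.neg x i t)⁻¹ = x (C.neg i) (-(t ^ (-2 : ℤ) * u)) := by
  obtain ⟨c, hcc, h1⟩ := h.refl i i
  rw [C.s_self, C.pr_self] at h1
  have hc1 : c = 1 ∨ c = -1 := mul_self_eq_one_iff.1 hcc
  rcases hc1 with rfl | rfl
  · exfalso
    have e1 := (h1 1 (-1) one_ne_zero).1
    rw [one_zpow, mul_one, one_mul] at e1
    set n := nn C.neg x i 1 with hn
    have e0 : n = x i 1 * x (C.neg i) (-1) * x i 1 := by rw [hn, nn, inv_one]
    have e2 : n = x (C.neg i) 1 * x i 1 * (x (C.neg i) 1)⁻¹ := by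
      have e3 : n * x i (-1) = x i 1 * x (C.neg i) (-1) := by
        rw [h.x_neg, e0]; group
      have e4 : n * x i (-1) = x (C.neg i) (-1) * n := by rw [← e1]; group
      have e5 : n = (x (C.neg i) (-1))⁻¹ * (x i 1 * x (C.neg i) (-1)) := by
        rw [← e3, e4]; group
      rw [e5, h.x_neg]
      group
    have e6 : n ^ r ^ 1 = 1 := by
      have e7 : n ^ r ^ 1 = x (C.neg i) 1 * (x i 1) ^ r ^ 1 * (x (C.neg i) 1)⁻¹ := by
        rw [e2, conj_pow]
      rw [e7, H684.XU.x_pow h, pow_one, CharP.cast_eq_zero, zero_mul, h.x_zero, mul_one,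
        mul_inv_cancel]
    have e8 : n * n ∈ TT C x := h.nn_nn one_ne_zero one_ne_zero
    have e9 : n * n = 1 := by
      refine H684.XB.T_eq_one h hc r e8 (k := 1) ?_
      have e10 : (n * n) ^ r ^ 1 = n ^ r ^ 1 * n ^ r ^ 1 := (Commute.refl n).mul_pow _
      rw [e10, e6, one_mul]
    have e11 : x i 2 = 1 := by
      have e12 : n * n = x (C.neg i) 1 * (x i 1 * x i 1) * (x (C.neg i) 1)⁻¹ := by
        rw [e2]; group
      rw [e12, ← h.add] at e9
      have e13 := mul_inv_eq_one.1 e9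
      have e14 : x i (1 + 1) = 1 := mul_eq_left.1 e13
      rw [show (2 : F) = 1 + 1 by norm_num]
      exact e14
    exact h2 (h.inj i 2 e11)
  · have := (h1 t u ht).1
    rw [this]
    congr 1
    ring

/-- automorphisms fixing the root elements of the simple roots and their negatives -/
lemma eq_one_of_fix (h : CS C x) {e : MulAut L}
    (h1 : ∀ i, C.simp i → ∀ u, e (x i u) = x i u ∧ e (x (C.neg i) u) = x (C.neg i) u) : e = 1 := by
  have key : ∀ j, ∀ u, e (x j u) = x j u ∧ e (x (C.neg j) u) = x (C.neg j) u := by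
    refine C.gen (fun j => ∀ u, e (x j u) = x j u ∧ e (x (C.neg j) u) = x (C.neg j) u) h1 ?_
    intro i j hi hj u
    obtain ⟨c, hc, h2⟩ := h.refl i j
    have hn : e (nn C.neg x i 1) = nn C.neg x i 1 := by
      rw [nn, map_mul, map_mul, (h1 i hi _).1, (h1 i hi _).2]
    have h3 := (h2 1 (c * u) one_ne_zero).1
    have h4 := (h2 1 (c * u) one_ne_zero).2
    rw [one_zpow, mul_one, ← mul_assoc, hc, one_mul] at h3 h4
    constructor
    · rw [← h3, map_mul, map_mul, map_inv, hn, (hj _).1]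
    · rw [← h4, map_mul, map_mul, map_inv, hn, (hj _).2]
  have h2 : (⊤ : Subgroup L) ≤ MonoidHom.eqLocus e.toMonoidHom (MonoidHom.id L) := by
    rw [← h.gen, gr, closure_le]
    rintro _ ⟨j, u, -, rfl⟩
    exact (key j u).1
  refine MulEquiv.ext fun y => ?_
  exact h2 (mem_top y)

/-- composition -/
lemma al_mul {e f : MulAut L} {σ τ : F ≃+* F} {c d : ι → F} (h1 : Al C x e σ c)
    (h2 : Al C x f τ d) : Al C x (e * f) (τ.trans σ) (fun i => c i * σ (d i)) := by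
  intro i hi
  obtain ⟨a1, a2⟩ := h1 i hi
  obtain ⟨b1, b2⟩ := h2 i hi
  refine ⟨mul_ne_zero a1 (by simpa using b1), fun t => ⟨?_, ?_⟩⟩
  · rw [MulAut.mul_apply, (b2 t).1, (a2 _).1, map_mul, RingEquiv.trans_apply, mul_assoc]
  · rw [MulAut.mul_apply, (b2 t).2, (a2 _).2, map_mul, RingEquiv.trans_apply, map_inv₀, mul_inv,
      mul_assoc]

/-- the extension to all roots -/
lemma al_all (h : CS C x) {f : MulAut L} {σ : F ≃+* F} {c : ι → F} (hf : Al C x f σ c) (j : ι) :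
    ∃ d : F, d ≠ 0 ∧ ∀ t : F, f (x j t) = x j (d * σ t) ∧
      f (x (C.neg j) t) = x (C.neg j) (d⁻¹ * σ t) := by
  refine C.gen (fun j => ∃ d : F, d ≠ 0 ∧ ∀ t : F, f (x j t) = x j (d * σ t) ∧
      f (x (C.neg j) t) = x (C.neg j) (d⁻¹ * σ t)) (fun i hi => ⟨c i, hf i hi⟩) ?_ j
  rintro i j hi ⟨d, hd, h1⟩
  obtain ⟨hci, hfi⟩ := hf i hi
  obtain ⟨e, he, h2⟩ := h.refl i j
  have he0 : e ≠ 0 := left_ne_zero_of_mul_eq_one he
  have he1 : e⁻¹ = e := inv_eq_of_mul_eq_one_right he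
  have hσe : σ e = e := by
    rcases mul_self_eq_one_iff.1 he with rfl | rfl
    · exact map_one σ
    · rw [map_neg, map_one]
  have hn : f (nn C.neg x i 1) = nn C.neg x i (c i) := by
    rw [nn, nn, map_mul, map_mul, (hfi 1).1, (hfi _).2, inv_one, map_neg, map_one, mul_one,
      mul_neg, mul_one]
  refine ⟨c i ^ (-C.pr j i) * d, mul_ne_zero (zpow_ne_zero _ hci) hd, fun t => ⟨?_, ?_⟩⟩
  · have h3 := (h2 1 (e * t) one_ne_zero).1
    rw [one_zpow, mul_one, ← mul_assoc, he, one_mul] at h3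
    rw [← h3, map_mul, map_mul, map_inv, hn, (h1 _).1, (h2 (c i) _ hci).1]
    congr 1
    rw [map_mul, hσe]
    linear_combination (c i ^ (-C.pr j i) * d * σ t) * he
  · have h3 := (h2 1 (e * t) one_ne_zero).2
    rw [one_zpow, mul_one, ← mul_assoc, he, one_mul] at h3
    rw [← h3, map_mul, map_mul, map_inv, hn, (h1 _).2, (h2 (c i) _ hci).2]
    congr 1
    rw [map_mul, hσe, mul_inv, zpow_neg, inv_inv]
    linear_combination (c i ^ (C.pr j i) * d⁻¹ * σ t) * he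

variable {f : MulAut L} {σ : F ≃+* F} {c : ι → F}

lemma al_nn (h : CS C x) (hf : Al C x f σ c) (j : ι) : ∃ d : F, d ≠ 0 ∧ ∀ t : F,
    f (nn C.neg x j t) = nn C.neg x j (d * σ t) := by
  obtain ⟨d, hd, h1⟩ := al_all h hf j
  refine ⟨d, hd, fun t => ?_⟩
  rw [nn, nn, map_mul, map_mul, (h1 _).1, (h1 _).2, map_neg, map_inv₀, mul_inv, mul_neg]

lemma al_T (h : CS C x) (hf : Al C x f σ c) {t : L} (ht : t ∈ TT C x) : f t ∈ TT C x := by
  refine closure_induction (p := fun t _ => f t ∈ TT C x) ?_ ?_ ?_ ?_ ht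
  · rintro _ ⟨j, u, hu, rfl⟩
    obtain ⟨d, hd, h1⟩ := al_nn h hf j
    rw [map_mul, map_inv, h1, h1, map_one, mul_one, h.nn_inv]
    exact h.nn_nn (mul_ne_zero hd (by simpa using hu)) (neg_ne_zero.2 hd)
  · rw [map_one]
    exact one_mem _
  · intro a b _ _ ha hb
    rw [map_mul]
    exact mul_mem ha hb
  · intro a _ ha
    rw [map_inv]
    exact inv_mem ha

lemma al_nl (h : CS C x) (hf : Al C x f σ c) (l : List ι) :
    ∃ t ∈ TT C x, f (nl C x l) = t * nl C x l := by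
  induction l with
  | nil => exact ⟨1, one_mem _, by simp [nl_nil]⟩
  | cons i l ih =>
    obtain ⟨t, ht, h1⟩ := ih
    obtain ⟨d, hd, h2⟩ := al_nn h hf i
    have h3 : nn C.neg x i d * (nn C.neg x i 1)⁻¹ ∈ TT C x := h.h_mem hd
    have h4 := h.nn_conj_T i one_ne_zero ht
    refine ⟨nn C.neg x i d * (nn C.neg x i 1)⁻¹ *
      (nn C.neg x i 1 * t * (nn C.neg x i 1)⁻¹), mul_mem h3 h4, ?_⟩
    rw [nl_cons, map_mul, h1, h2, map_one, mul_one]
    group

lemma al_N (h : CS C x) (hf : Al C x f σ c) {n : L} (hn : n ∈ NN C x) : f n ∈ NN C x := by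
  refine closure_induction (p := fun n _ => f n ∈ NN C x) ?_ ?_ ?_ ?_
    (show n ∈ closure (SS C x ∪ (TT C x : Set L)) by
      rw [Subgroup.closure_union, Subgroup.closure_eq]; exact hn)
  · rintro s (⟨i, hi, rfl⟩ | hs)
    · obtain ⟨t, ht, h1⟩ := al_nl h hf [i]
      rw [nl_cons, nl_nil, mul_one] at h1
      rw [h1]
      exact mul_mem (CS.TT_le ht) (h.SS_le _ ⟨i, hi, rfl⟩)
    · exact CS.TT_le (al_T h hf hs)
  · rw [map_one]
    exact one_mem _
  · intro a b _ _ ha hb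
    rw [map_mul]
    exact mul_mem ha hb
  · intro a _ ha
    rw [map_inv]
    exact inv_mem ha

end

end Vale.Agent.P240.R2.H401.X7
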