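import Vale.Agent.P240.R2.H401.X7a

/-!
An automorphism of order two of a group with a split BN-pair of odd characteristic: it is conjugate
to the product of the given automorphism and conjugation by an element of `N`.
-/

set_option autoImplicit false
set_option linter.all false

namespace Vale.Agent.P240.R2.H401.X7

open Subgroup Vale.Agent.P240.K Vale.Agent.P240.H195

section
variable {L : Type*} [Group L] {B N U : Subgroup L} {S : Set L} {r : ℕ}

lemma conj_comm' (f : MulAut L) (y : L) : f * MulAut.conj y = MulAut.conj (f y) * f := by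
  ext z
  simp [MulAut.mul_apply, MulAut.conj_apply]

lemma conj_tw {f f' : MulAut L} {y : L} (g : L) (hf : f = MulAut.conj y * f') :
    (MulAut.conj g)⁻¹ * f * MulAut.conj g = MulAut.conj (g⁻¹ * y * f' g) * f' := by
  rw [hf, ← map_inv]
  ext z
  simp [MulAut.mul_apply, MulAut.conj_apply, mul_assoc]

lemma conj_sq {f f' : MulAut L} {y : L} (hf : f = MulAut.conj y * f') :
    f * f = MulAut.conj (y * f' y) * (f' * f') := by
  rw [hf]
  ext z
  simp [MulAut.mul_apply, MulAut.conj_apply, mul_assoc]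

theorem toN (h : SB r B N U S) [Finite L] (hr : r.Prime) (hr2 : r ≠ 2) {n₀ : L} (hn₀ : n₀ ∈ N)
    (hopp : ∀ x ∈ U, n₀ * x * n₀⁻¹ ∈ U → x = 1) {f f' : MulAut L} {y : L}
    (hf : f = MulAut.conj y * f') (hf2 : f * f = 1) (hB : am f' B = B)
    (hB' : am f' (cj n₀ B) = cj n₀ B) (hN : ∀ n ∈ N, f' n ∈ N) :
    ∃ g : L, ∃ m ∈ N, (MulAut.conj g)⁻¹ * f * MulAut.conj g = MulAut.conj m * f' := by
  obtain ⟨n, hn, b1, hb1, b2, hb2, hy⟩ := h.bruhat y
  have hfB : ∀ b ∈ B, f' b ∈ B := fun b hb => by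
    have := apply_mem_am (f := f') hb
    rwa [hB] at this
  obtain ⟨u, hu, t, htB, htN, hb⟩ := h.split (b2 * f' b1) (mul_mem hb2 (hfB _ hb1))
  obtain ⟨f1, hf1⟩ : ∃ f1, f1 = (MulAut.conj b1)⁻¹ * f * MulAut.conj b1 := ⟨_, rfl⟩
  have e1 : f1 = MulAut.conj (n * u * t) * f' := by
    rw [hf1, conj_tw b1 hf, hy]
    have e0 : b1⁻¹ * (b1 * n * b2) * f' b1 = n * u * t := by
      calc b1⁻¹ * (b1 * n * b2) * f' b1 = n * (b2 * f' b1) := by group
        _ = _ := by rw [hb]; group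
    rw [e0]
  have h11 : f1 * f1 = 1 := by
    rw [hf1]
    calc (MulAut.conj b1)⁻¹ * f * MulAut.conj b1 * ((MulAut.conj b1)⁻¹ * f * MulAut.conj b1)
        = (MulAut.conj b1)⁻¹ * (f * f) * MulAut.conj b1 := by group
      _ = 1 := by rw [hf2]; group
  have hn2N : t * f' n ∈ N := mul_mem htN (hN n hn)
  have h12 : n * u * (t * f' n) ∈ B := by
    have h1 : am (f1 * f1) B = B := by rw [h11, am_one]
    rw [conj_sq e1, am_mul, am_mul, hB, hB, am_conj] at h1
    have h3 := (h.cj_B_eq_iff hr (g := n * u * t * f' (n * u * t)) (g' := 1)).1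
      (by rw [h1, cj_one])
    rw [mul_one] at h3
    have h4 := inv_mem h3
    rw [inv_inv] at h4
    have h5 : n * u * (t * f' n) = n * u * t * f' (n * u * t) * (f' (u * t))⁻¹ := by
      have h6 : f' (n * u * t) = f' n * f' (u * t) := by rw [← map_mul, mul_assoc]
      rw [h6]
      group
    rw [h5]
    exact mul_mem h4 (inv_mem (hfB _ (mul_mem (h.le hu) htB)))
  have h13 : n * (t * f' n) ∈ B := by
    have h1 : DC B n⁻¹ (t * f' n) := by
      refine ⟨u⁻¹, inv_mem (h.le hu), n * u * (t * f' n), h12, ?_⟩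
      group
    have h2 := h.toBN0.inj (inv_mem hn) hn2N h1
    rwa [inv_inv] at h2
  obtain ⟨v, hv⟩ : ∃ v, v = n * u * n⁻¹ := ⟨_, rfl⟩
  have hvB : v ∈ B := by
    have h1 : v = (n * u * (t * f' n)) * (n * (t * f' n))⁻¹ := by rw [hv]; group
    rw [h1]
    exact mul_mem h12 (inv_mem h13)
  have hvU : v ∈ U := by
    rw [hv] at hvB ⊢
    exact h.conj_U hr hu hvB
  have hUf : am f' U = U := am_eq_of_le (by
    intro z hz
    rw [mem_am] at hz
    have h1 := h.apply_U hr hB hz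
    have h2 : f' (f'⁻¹ z) = z := by
      rw [← MulAut.mul_apply, mul_inv_cancel, MulAut.one_apply]
    rwa [h2] at h1)
  have hUcj : ∀ b ∈ B, cj b U = U := by
    intro b hb
    ext z
    rw [mem_cj]
    constructor
    · intro hz
      have h1 := h.normal b hb _ hz
      have h2 : b * (b⁻¹ * z * b) * b⁻¹ = z := by group
      rwa [h2] at h1
    · intro hz
      have h1 := h.normal b⁻¹ (inv_mem hb) _ hz
      rwa [inv_inv] at h1
  have hU1 : am f1 U = cj n U := by
    rw [e1, am_mul, hUf, am_conj, mul_assoc, cj_mul, hUcj _ (mul_mem (h.le hu) htB)]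
  have hU2 : am f1 (cj n U) = U := by rw [← hU1, ← am_mul, h11, am_one]
  obtain ⟨V, hV⟩ : ∃ V : Subgroup L, V = U ⊓ cj n U := ⟨_, rfl⟩
  have hV1 : am f1 V = V := by rw [hV, am_inf, hU1, hU2, inf_comm]
  have hVU : V ≤ U := by rw [hV]; exact inf_le_left
  have hvV : v ∈ V := by
    rw [hV]
    refine mem_inf.2 ⟨hvU, ?_⟩
    rw [mem_cj, hv]
    have h1 : n⁻¹ * (n * u * n⁻¹) * n = u := by group
    rwa [h1]
  have hf1V : ∀ g ∈ V, f1 g ∈ V := fun g hg => by
    have := apply_mem_am (f := f1) hg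
    rwa [hV1] at this
  obtain ⟨m, hm⟩ : ∃ m, m = n * t := ⟨_, rfl⟩
  have hmN : m ∈ N := by rw [hm]; exact mul_mem hn htN
  obtain ⟨E, hE⟩ : ∃ E, E = MulAut.conj m * f' := ⟨_, rfl⟩
  have e2 : f1 = MulAut.conj v * E := by
    rw [e1, hE, ← mul_assoc, ← map_mul]
    have e3 : v * m = n * u * t := by rw [hv, hm]; group
    rw [e3]
  have e4 : ∀ g, v * E g = f1 g * v := by
    intro g
    rw [e2, MulAut.mul_apply, MulAut.conj_apply]
    group
  have hw : f1 v * v = 1 := by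
    have hτN : m * f' m ∈ N := mul_mem hmN (hN m hmN)
    have hτB : m * f' m ∈ B := by
      have h1 : m * f' m = n * (t * f' n) * f' t := by rw [hm, map_mul]; group
      rw [h1]
      exact mul_mem h13 (hfB t htB)
    have h2 : am (E * E) (cj n₀ B) = cj n₀ B := by
      rw [conj_sq hE, am_mul, am_mul, hB', hB', am_conj, ← cj_mul, h.cj_B_eq_iff hr]
      have h3 := h.toBN0.norm' hn₀ (inv_mem hτB) (inv_mem hτN)
      rwa [mul_inv_rev]
    have h3 : am (f1 * f1) (cj n₀ B) = cj n₀ B := by rw [h11, am_one]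
    rw [conj_sq e2, am_mul, h2, am_conj, e4, ← cj_mul, h.cj_B_eq_iff hr] at h3
    have h4 := inv_mem h3
    have h5 : ((f1 v * v * n₀)⁻¹ * n₀)⁻¹ = n₀⁻¹ * (f1 v * v) * n₀ := by group
    rw [h5] at h4
    have hwU : f1 v * v ∈ U := mul_mem (hVU (hf1V v hvV)) hvU
    have h6 := h.conj_U' hr hwU h4
    have h7 := hopp _ h6 (by
      have h8 : n₀ * (n₀⁻¹ * (f1 v * v) * n₀) * n₀⁻¹ = f1 v * v := by group
      rw [h8]
      exact hwU)
    have h8 : f1 v * v = n₀ * (n₀⁻¹ * (f1 v * v) * n₀) * n₀⁻¹ := by group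
    rw [h8, h7]
    group
  obtain ⟨g, hg⟩ : ∃ g : V, f1 g.1 * v = g.1 := by
    have hinv : ∀ g : V, f1 (f1 g.1 * v) * v = g.1 := by
      intro g
      rw [map_mul, mul_assoc, hw, mul_one, ← MulAut.mul_apply, h11, MulAut.one_apply]
    let Θ : Equiv.Perm V :=
      { toFun := fun g => ⟨f1 g.1 * v, mul_mem (hf1V _ g.2) hvV⟩
        invFun := fun g => ⟨f1 g.1 * v, mul_mem (hf1V _ g.2) hvV⟩
        left_inv := fun g => Subtype.ext (hinv g)
        right_inv := fun g => Subtype.ext (hinv g) }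
    have : Fintype V := Fintype.ofFinite V
    have h1 : ¬ 2 ∣ Fintype.card V := by
      intro h2
      have h3 : IsPGroup r V := h.pgroup.to_le hVU
      have : Fact r.Prime := ⟨hr⟩
      obtain ⟨k, hk⟩ := h3.exists_card_eq
      rw [Nat.card_eq_fintype_card] at hk
      rw [hk] at h2
      have h4 := Nat.prime_two.dvd_of_dvd_pow h2
      exact hr2 ((Nat.prime_dvd_prime_iff_eq Nat.prime_two hr).1 h4).symm
    have h2 : Θ ^ 2 ^ 1 = 1 := by
      refine Equiv.ext fun g => ?_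
      rw [pow_one, pow_two]
      exact Subtype.ext (hinv g)
    have : Fact (Nat.Prime 2) := ⟨Nat.prime_two⟩
    obtain ⟨g, hg⟩ := Equiv.Perm.exists_fixed_point_of_prime (p := 2) (n := 1) h1 h2
    exact ⟨g, congrArg Subtype.val hg⟩
  refine ⟨b1 * g.1, m, hmN, ?_⟩
  have h1 : (MulAut.conj (b1 * g.1))⁻¹ * f * MulAut.conj (b1 * g.1) =
      (MulAut.conj g.1)⁻¹ * f1 * MulAut.conj g.1 := by
    rw [hf1, map_mul]
    group
  have h2 : g.1⁻¹ * v * E g.1 = 1 := by
    rw [mul_assoc, e4, hg, inv_mul_cancel]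
  rw [h1, conj_tw g.1 e2, h2, map_one, one_mul, hE]

end

end Vale.Agent.P240.R2.H401.X7
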