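import Vale.Agent.P240.R2.H401.X7b

/-!
An automorphism of order two with a nontrivial field automorphism: reduction to an element of `T`.
-/

set_option autoImplicit false
set_option linter.all false

namespace Vale.Agent.P240.R2.H401.X7

open Subgroup Vale.Agent.P240.K Vale.Agent.P240.H195 Vale.Agent.P240.R2.H986.X

section
variable {ι : Type*} {F : Type*} [Field F] {L : Type*} [Group L] {C : RC ι} {x : ι → F → L}

/-- equality modulo `T` -/
def Eqv (C : RC ι) (x : ι → F → L) (g g' : L) : Prop := ∃ t ∈ TT C x, g = t * g'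

lemma Eqv.refl (g : L) : Eqv C x g g := ⟨1, one_mem _, by rw [one_mul]⟩

lemma Eqv.symm {g g' : L} (h : Eqv C x g g') : Eqv C x g' g := by
  obtain ⟨t, ht, rfl⟩ := h
  exact ⟨t⁻¹, inv_mem ht, by group⟩

lemma Eqv.trans {g g' g'' : L} (h : Eqv C x g g') (h' : Eqv C x g' g'') : Eqv C x g g'' := by
  obtain ⟨t, ht, rfl⟩ := h
  obtain ⟨t', ht', rfl⟩ := h'
  exact ⟨t * t', mul_mem ht ht', by group⟩

lemma Eqv.mulR {g g' : L} (h : Eqv C x g g') (k : L) : Eqv C x (g * k) (g' * k) := by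
  obtain ⟨t, ht, rfl⟩ := h
  exact ⟨t, ht, by group⟩

lemma Eqv.mulL (hC : CS C x) {g g' n : L} (hn : n ∈ NN C x) (h : Eqv C x g g') :
    Eqv C x (n * g) (n * g') := by
  obtain ⟨t, ht, rfl⟩ := h
  exact ⟨n * t * n⁻¹, H684.XB.N_conj_T hC hn ht, by group⟩

lemma Eqv.inv (hC : CS C x) {g g' : L} (hg : g' ∈ NN C x) (h : Eqv C x g g') :
    Eqv C x g⁻¹ g'⁻¹ := by
  obtain ⟨t, ht, rfl⟩ := h
  have h1 := H684.XB.N_conj_T hC (inv_mem hg) (inv_mem ht)
  exact ⟨_, h1, by group⟩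

lemma Eqv.T_right (hC : CS C x) {n t : L} (hn : n ∈ NN C x) (ht : t ∈ TT C x) :
    Eqv C x (n * t) n := ⟨n * t * n⁻¹, H684.XB.N_conj_T hC hn ht, by group⟩

lemma Eqv.mem {g g' : L} (h : Eqv C x g g') (hg : g' ∈ NN C x) : g ∈ NN C x := by
  obtain ⟨t, ht, rfl⟩ := h
  exact mul_mem (CS.TT_le ht) hg

/-- the step of rank one -/
lemma rank_one [Finite F] (h : CS C x) (hc : ∀ g : L, (∀ y, g * y = y * g) → g = 1)
    (r : ℕ) [Fact r.Prime] [CharP F r] (h2 : (2 : F) ≠ 0) {f f' : MulAut L} {σ : RingAut F}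
    (hσ1 : σ ≠ 1) {a : ι} {ca α : F} (hca : ca ≠ 0) (hα : α ≠ 0)
    (hf' : ∀ t, f' (x a t) = x a (ca * σ t) ∧ f' (x (C.neg a) t) = x (C.neg a) (ca⁻¹ * σ t))
    {m : L} (hm : ∀ u, m * x a u * m⁻¹ = x (C.neg a) (α * u) ∧
      m * x (C.neg a) u * m⁻¹ = x a (α⁻¹ * u))
    (hf : f = MulAut.conj m * f') (hf2 : f * f = 1) :
    ∃ (y : L) (t₀ : F), t₀ ≠ 0 ∧ y⁻¹ * m * f' y = m * nn C.neg x a t₀ := by
  obtain ⟨d, hd⟩ : ∃ d, d = α * ca := ⟨_, rfl⟩
  have hd0 : d ≠ 0 := by rw [hd]; exact mul_ne_zero hα hca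
  have hdi : d⁻¹ = α⁻¹ * ca⁻¹ := by rw [hd, mul_inv]
  have hfa : ∀ t, f (x a t) = x (C.neg a) (d * σ t) := by
    intro t
    rw [hf, MulAut.mul_apply, MulAut.conj_apply, (hf' t).1, (hm _).1, hd, mul_assoc]
  have hfn : ∀ t, f (x (C.neg a) t) = x a (d⁻¹ * σ t) := by
    intro t
    rw [hf, MulAut.mul_apply, MulAut.conj_apply, (hf' t).2, (hm _).2, hdi, mul_assoc]
  have key : ∀ t, d⁻¹ * (σ d * σ (σ t)) = t := by
    intro t
    have h1 : f (f (x a t)) = x a t := by
      rw [← MulAut.mul_apply, hf2, MulAut.one_apply]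
    rw [hfa, hfn, map_mul] at h1
    exact h.x_inj h1
  have hσd : σ d = d := by
    have h1 := key 1
    rw [map_one, map_one, mul_one] at h1
    field_simp at h1
    exact h1
  have hσσ : σ * σ = 1 := by
    refine RingEquiv.ext fun t => ?_
    have h1 := key t
    rw [hσd, inv_mul_cancel_left₀ hd0] at h1
    exact h1
  obtain ⟨A, hA⟩ := norm_sur hσσ hσ1 hσd
  have hA0 : A ≠ 0 := by
    rintro rfl
    rw [zero_mul] at hA
    exact hd0 hA.symm
  have hσA0 : σ A ≠ 0 := by simpa using hA0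
  obtain ⟨v, hv⟩ : ∃ v : F, v = -(2 * A)⁻¹ := ⟨_, rfl⟩
  have hσv : σ v = -(2 * σ A)⁻¹ := by
    rw [hv, map_neg, map_inv₀, map_mul, map_ofNat]
  have e1 : d⁻¹ * σ A = A⁻¹ := by
    rw [← hA]; field_simp
  have e2 : d * σ v = -(A / 2) := by
    rw [← hA, hσv]; field_simp
  obtain ⟨ν, hν⟩ : ∃ ν, ν = nn C.neg x (C.neg a) (-A) := ⟨_, rfl⟩
  have hν1 : ν = x (C.neg a) (-A) * x a A⁻¹ * x (C.neg a) (-A) := by
    rw [hν, nn, C.neg_neg, inv_neg, neg_neg]
  have hνx : ∀ w, ν * x (C.neg a) w = x a (-(A ^ (-2 : ℤ) * w)) * ν := by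
    intro w
    have h1 := sgn h hc r h2 (C.neg a) (neg_ne_zero.2 hA0) w
    rw [← hν, C.neg_neg] at h1
    have e3 : (-A) ^ (-2 : ℤ) = A ^ (-2 : ℤ) := by
      rw [zpow_neg, zpow_neg]
      norm_num
    rw [e3] at h1
    rw [← h1]
    group
  have hm1 : ∀ u, m * x a u = x (C.neg a) (α * u) * m := by
    intro u
    rw [← (hm u).1]; group
  have hm2 : ∀ u, m * x (C.neg a) u = x a (α⁻¹ * u) * m := by
    intro u
    rw [← (hm u).2]; group
  have hνm : ν * m = m * nn C.neg x a (-(α⁻¹ * A)) := by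
    have e3 : m * nn C.neg x a (-(α⁻¹ * A)) = (m * x a (-(α⁻¹ * A))) *
        x (C.neg a) (-(-(α⁻¹ * A))⁻¹) * x a (-(α⁻¹ * A)) := by
      rw [nn]; group
    have e4 : (-(-(α⁻¹ * A))⁻¹) = α * A⁻¹ := by
      field_simp
    have e5 : α * (-(α⁻¹ * A)) = -A := by
      field_simp
    have e6 : α⁻¹ * (α * A⁻¹) = A⁻¹ := by
      field_simp
    rw [e3, hm1, e4, e5, hν1]
    calc x (C.neg a) (-A) * x a A⁻¹ * x (C.neg a) (-A) * m
        = x (C.neg a) (-A) * x a A⁻¹ * (x (C.neg a) (-A) * m) := by group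
      _ = x (C.neg a) (-A) * x a A⁻¹ * (m * x a (-(α⁻¹ * A))) := by rw [hm1, e5]
      _ = x (C.neg a) (-A) * (x a (α⁻¹ * (α * A⁻¹)) * m) * x a (-(α⁻¹ * A)) := by
          rw [e6]; group
      _ = x (C.neg a) (-A) * m * x (C.neg a) (α * A⁻¹) * x a (-(α⁻¹ * A)) := by
          rw [← hm2]; group
  refine ⟨x (C.neg a) A * x a v, -(α⁻¹ * A), ?_, ?_⟩
  · exact neg_ne_zero.2 (mul_ne_zero (inv_ne_zero hα) hA0)
  · rw [← hνm, map_mul, (hf' v).1, (hf' A).2, mul_inv_rev, ← h.x_neg, ← h.x_neg]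
    have e3 : α⁻¹ * (ca⁻¹ * σ A) = A⁻¹ := by rw [← e1, hdi]; ring
    have e4 : α * (ca * σ v) = -(A / 2) := by rw [← e2, hd]; ring
    have e5 : x (C.neg a) (-A) * x a A⁻¹ = ν * x (C.neg a) A := by
      rw [hν1, h.x_neg (C.neg a) A]; group
    have e6 : A + -(A / 2) = A / 2 := by field_simp; ring
    calc x a (-v) * x (C.neg a) (-A) * m * (x (C.neg a) (ca⁻¹ * σ A) * x a (ca * σ v))
        = x a (-v) * x (C.neg a) (-A) * (m * x (C.neg a) (ca⁻¹ * σ A)) * x a (ca * σ v) := by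
          group
      _ = x a (-v) * (x (C.neg a) (-A) * x a A⁻¹) * (m * x a (ca * σ v)) := by
          rw [hm2, e3]; group
      _ = x a (-v) * (ν * (x (C.neg a) A * x (C.neg a) (-(A / 2)))) * m := by
          rw [e5, hm1, e4]; group
      _ = x a (-v) * x a (-(A ^ (-2 : ℤ) * (A / 2))) * (ν * m) := by
          rw [← h.add, e6, hνx]; group
      _ = ν * m := by
          rw [← h.add]
          have e7 : -v + -(A ^ (-2 : ℤ) * (A / 2)) = 0 := by
            rw [hv, zpow_neg, zpow_ofNat]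
            field_simp
            ring
          rw [e7, h.x_zero, one_mul]

/-- **descent** -/
theorem desc [Finite ι] [Finite F] [Finite L] (h : CS C x)
    (hc : ∀ g : L, (∀ y, g * y = y * g) → g = 1)
    (r : ℕ) [Fact r.Prime] [CharP F r] (h2 : (2 : F) ≠ 0) {f' : MulAut L} {σ : RingAut F}
    {c : ι → F} (hf' : Al C x f' σ c) (hσ1 : σ ≠ 1) (hB : am f' (BB C x) = BB C x) (k : ℕ) :
    ∀ (f : MulAut L) (m : L) (l : List ι), l.length = k → (∀ i ∈ l, C.simp i) →
      Eqv C x m (nl C x l) → f * f = 1 → f = MulAut.conj m * f' →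
      ∃ g : L, ∃ τ ∈ TT C x, (MulAut.conj g)⁻¹ * f * MulAut.conj g = MulAut.conj τ * f' := by
  have hSB := (H684.XB.splitBN h hc r).toSB
  have hr : r.Prime := Fact.out
  induction k using Nat.strong_induction_on with
  | _ k ih =>
    intro f m l hlen hl hm hf2 hf
    rcases l.eq_nil_or_concat' with rfl | ⟨l', a, rfl⟩
    · obtain ⟨t, ht, rfl⟩ := hm
      rw [nl_nil, mul_one] at hf
      refine ⟨1, t, ht, ?_⟩
      rw [map_one, inv_one, one_mul, mul_one, hf]
    have ha : C.simp a := hl a (by simp)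
    have hl' : ∀ i ∈ l', C.simp i := fun i hi => hl i (by simp [hi])
    have hlen' : l'.length + 1 = k := by rw [← hlen]; simp
    obtain ⟨n, hn⟩ : ∃ n, n = nn C.neg x a 1 := ⟨_, rfl⟩
    have hnN : n ∈ NN C x := h.SS_le _ ⟨a, ha, hn⟩
    have hl'N : nl C x l' ∈ NN C x := CS.nl_mem hl'
    have hlN : nl C x (l' ++ [a]) ∈ NN C x := CS.nl_mem hl
    have hnl : nl C x (l' ++ [a]) = nl C x l' * n := by
      rw [nl_append, nl_cons, nl_nil, mul_one, hn]
    have step : ∀ (g m' : L) (l'' : List ι), l''.length < k → (∀ i ∈ l'', C.simp i) →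
        Eqv C x m' (nl C x l'') → g⁻¹ * m * f' g = m' →
        ∃ g : L, ∃ τ ∈ TT C x, (MulAut.conj g)⁻¹ * f * MulAut.conj g = MulAut.conj τ * f' := by
      intro g m' l'' hk hl'' hm' hg
      have h3 : (MulAut.conj g)⁻¹ * f * MulAut.conj g * ((MulAut.conj g)⁻¹ * f * MulAut.conj g) =
          1 := by
        calc _ = (MulAut.conj g)⁻¹ * (f * f) * MulAut.conj g := by group
          _ = 1 := by rw [hf2]; group
      obtain ⟨g', τ, hτ, h4⟩ := ih _ hk _ m' l'' rfl hl'' hm' h3 (by rw [conj_tw g hf, hg])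
      refine ⟨g * g', τ, hτ, ?_⟩
      rw [← h4, map_mul]
      group
    by_cases hp : 0 < C.ht (wl C (l' ++ [a]) a)
    · have h1 : C.ht (wl C l' a) < 0 := by
        rw [wl_append, wl_cons, wl_nil, C.s_self, wl_neg, C.ht_neg] at hp
        omega
      obtain ⟨m', hm', hlm, t, ht, h3⟩ := del h ha l' hl' h1
      refine step 1 m m' (by omega) hm' (hm.trans ⟨t, ht, h3⟩) ?_
      rw [map_one, inv_one, one_mul, mul_one]
    have hneg : C.ht (wl C (l' ++ [a]) a) < 0 := by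
      have := C.ht_ne (wl C (l' ++ [a]) a)
      omega
    have hmN : m ∈ NN C x := hm.mem hlN
    have h0 : m * f' m ∈ TT C x := by
      have h1 : am (f * f) (BB C x) = BB C x := by rw [hf2, am_one]
      rw [conj_sq hf, am_mul, am_mul, hB, hB, am_conj] at h1
      have h3 := (hSB.cj_B_eq_iff hr (g := m * f' m) (g' := 1)).1 (by rw [h1, cj_one])
      rw [mul_one] at h3
      have h4 := inv_mem h3
      rw [inv_inv] at h4
      exact H684.XB.inf_mem h h4 (mul_mem hmN (al_N h hf' hmN))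
    have hfm : Eqv C x (f' m) (nl C x (l' ++ [a])) := by
      obtain ⟨t, ht, rfl⟩ := hm
      obtain ⟨t', ht', h1⟩ := al_nl h hf' (l' ++ [a])
      refine ⟨f' t * t', mul_mem (al_T h hf' ht) ht', ?_⟩
      rw [map_mul, h1, mul_assoc]
    have hsq : nl C x (l' ++ [a]) * nl C x (l' ++ [a]) ∈ TT C x := by
      obtain ⟨t, ht, h1⟩ := (Eqv.mulL h hmN hfm).trans (hm.mulR _)
      have h3 : nl C x (l' ++ [a]) * nl C x (l' ++ [a]) = t⁻¹ * (m * f' m) := by rw [h1]; group
      rw [h3]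
      exact mul_mem (inv_mem ht) h0
    have h5 : C.ht (wl C (l' ++ [a]).reverse a) < 0 := by
      by_contra hcon
      have h6 : 0 < C.ht (wl C (l' ++ [a]).reverse a) := by
        have := C.ht_ne (wl C (l' ++ [a]).reverse a)
        omega
      obtain ⟨t1, ht1, e1⟩ := nl_rev h (l' ++ [a])
      have e2 : (nl C x (l' ++ [a]))⁻¹ =
          (nl C x (l' ++ [a]) * nl C x (l' ++ [a]))⁻¹ * nl C x (l' ++ [a]) := by group
      obtain ⟨c1, hc1, a1⟩ := act2 h ht1 (l' ++ [a]).reverse a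
      obtain ⟨c2, hc2, a2⟩ := act2 h (inv_mem hsq) (l' ++ [a]) a
      rw [← e1] at a1
      rw [← e2] at a2
      have h7 := (a1 1).1.symm.trans (a2 1).1
      have h8 : x (wl C (l' ++ [a]) a) (c2 * 1) ∈ UU C x := by
        rw [← h7]
        exact CS.x_mem_UU h6 _
      exact hc2 (by simpa using h.x_not_mem hneg h8)
    by_cases heq : wl C (l' ++ [a]) a = C.neg a
    · obtain ⟨t, ht, hmt⟩ := hm
      obtain ⟨α, hα, h6⟩ := act2 h ht (l' ++ [a]) a
      rw [← hmt, heq, C.neg_neg] at h6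
      obtain ⟨hca, hfa⟩ := hf' a ha
      obtain ⟨y, t₀, ht₀, hy⟩ := rank_one h hc r h2 hσ1 hca hα hfa h6 hf hf2
      refine step y _ l' (by omega) hl' ?_ hy
      have h7 : Eqv C x (m * nn C.neg x a t₀) (nl C x l' * n * nn C.neg x a t₀) := by
        refine Eqv.mulR ?_ _
        rw [← hnl]
        exact ⟨t, ht, hmt⟩
      refine h7.trans ?_
      rw [mul_assoc, hn]
      exact Eqv.T_right h hl'N (h.nn_nn one_ne_zero ht₀)
    · have h6 : C.ht (wl C l'.reverse a) < 0 := by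
        by_contra hcon
        have h7 : 0 < C.ht (wl C l'.reverse a) := by
          have := C.ht_ne (wl C l'.reverse a)
          omega
        rw [List.reverse_append, List.reverse_singleton, List.singleton_append, wl_cons] at h5
        by_cases h8 : wl C l'.reverse a = a
        · apply heq
          have h9 := wl_rev' (C := C) l' a
          rw [h8] at h9
          rw [wl_append, wl_cons, wl_nil, C.s_self, wl_neg, h9]
        · have := C.s_pos a _ ha h7 h8
          omega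
      have hrs : ∀ i ∈ l'.reverse, C.simp i := fun i hi => hl' i (List.mem_reverse.1 hi)
      obtain ⟨m', hm', hlm, t, ht, h7⟩ := del h ha l'.reverse hrs h6
      rw [List.length_reverse] at hlm
      have hrs' : ∀ i ∈ m'.reverse, C.simp i := fun i hi => hm' i (List.mem_reverse.1 hi)
      have h8 : Eqv C x (n⁻¹ * nl C x l') (nl C x m'.reverse) := by
        have e1 : Eqv C x (nl C x l'.reverse)⁻¹ (nl C x l') := by
          have := nl_rev h l'.reverse
          rwa [List.reverse_reverse] at this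
        have e2 : Eqv C x (nl C x m')⁻¹ (nl C x m'.reverse) := nl_rev h m'
        have e3 : n⁻¹ * (nl C x l'.reverse)⁻¹ = (nl C x (l'.reverse ++ [a]))⁻¹ := by
          rw [nl_append, nl_cons, nl_nil, mul_one, ← hn, mul_inv_rev]
        have e4 : Eqv C x (nl C x (l'.reverse ++ [a]))⁻¹ (nl C x m')⁻¹ :=
          Eqv.inv h (CS.nl_mem hm') ⟨t, ht, h7⟩
        have e5 := Eqv.mulL h (inv_mem hnN) e1
        rw [e3] at e5
        exact e5.symm.trans (e4.trans e2)
      refine step n (n⁻¹ * m * f' n) m'.reverse (by rw [List.length_reverse]; omega) hrs' ?_ rfl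
      obtain ⟨d, hd, h9⟩ := al_nn h hf' a
      have h10 : f' n = nn C.neg x a d := by
        have := h9 1
        rwa [map_one, mul_one, ← hn] at this
      have h11 : n * f' n ∈ TT C x := by
        rw [h10, hn]
        exact h.nn_nn one_ne_zero hd
      have h12 : Eqv C x (n⁻¹ * m * f' n) (n⁻¹ * nl C x l' * (n * f' n)) := by
        have e1 := (Eqv.mulL h (inv_mem hnN) hm).mulR (f' n)
        rw [hnl] at e1
        have e2 : n⁻¹ * (nl C x l' * n) * f' n = n⁻¹ * nl C x l' * (n * f' n) := by group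
        rwa [e2] at e1
      refine h12.trans ((Eqv.T_right h ?_ h11).trans h8)
      exact mul_mem (inv_mem hnN) hl'N

end

end Vale.Agent.P240.R2.H401.X7
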