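import Vale.Agent.P240.R2.H401.X7c
import Vale.Agent.P240.R2.H401.X7Defs
import Vale.Agent.P240.R2.H164.EX4

/-!
Statement X7 from the connectedness of the poset: among three outer automorphisms of order two, two
agree modulo inner automorphisms.
-/

set_option autoImplicit false
set_option linter.all false

namespace Vale.Agent.P240.R2.H401.X7

open Subgroup Vale.Agent.P240.K Vale.Agent.P240.H195 Vale.Agent.P240.R2.H986.X
  Vale.Agent.P240.R2.H164.EX

universe u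

open scoped Classical

section
variable {ι : Type} {F : Type} [Field F] {L : Type u} [Group L] {C : RC ι} {x : ι → F → L}

/-- the element of `T` with the given character outside `i₀` -/
lemma exists_T' (h : CS C x) {Δ : Finset ι} {D : ι → ι → ℤ} {i₀ : ι} {ε : ι → ℤ}
    (hΔ : ∀ i, i ∈ Δ ↔ C.simp i) (hi₀ : C.simp i₀)
    (hD : ∀ i j, C.simp i → C.simp j →
      ∑ k ∈ Δ, D i k * C.pr j k = (if i = j then 1 else 0) - (if j = i₀ then ε i else 0))
    (c : ι → Fˣ) : ∃ g : L, ∀ j, C.simp j → ∀ u,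
      g * x j u * g⁻¹ = x j ((c j * (if j = i₀ then (∏ i ∈ Δ, c i ^ ε i)⁻¹ else 1) : Fˣ) * u) ∧
      g * x (C.neg j) u * g⁻¹ =
        x (C.neg j) (((c j * (if j = i₀ then (∏ i ∈ Δ, c i ^ ε i)⁻¹ else 1))⁻¹ : Fˣ) * u) := by
  set t : ι → Fˣ := fun k => ∏ i ∈ Δ, c i ^ D i k with ht
  have key : ∀ j, C.simp j → ∏ k ∈ Δ, t k ^ C.pr j k =
      c j * (if j = i₀ then (∏ i ∈ Δ, c i ^ ε i)⁻¹ else 1) := by
    intro j hj
    have e1 : ∀ k, t k ^ C.pr j k = ∏ i ∈ Δ, c i ^ (D i k * C.pr j k) := by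
      intro k
      rw [ht, ← Finset.prod_zpow]
      refine Finset.prod_congr rfl fun i _ => ?_
      rw [zpow_mul]
    rw [Finset.prod_congr rfl fun k _ => e1 k, Finset.prod_comm]
    rw [Finset.prod_congr rfl fun i _ => prod_zpow_sum (c i) Δ fun k => D i k * C.pr j k]
    rw [Finset.prod_congr rfl fun i hi => by rw [hD i j ((hΔ i).1 hi) hj, zpow_sub]]
    rw [Finset.prod_mul_distrib]
    congr 1
    · rw [Finset.prod_eq_single_of_mem j ((hΔ j).2 hj)]
      · rw [if_pos rfl, zpow_one]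
      · intro i hi hij
        rw [if_neg hij, zpow_zero]
    · by_cases hji : j = i₀
      · rw [if_pos hji, ← Finset.prod_inv_distrib]
        refine Finset.prod_congr rfl fun i _ => ?_
        rw [if_pos hji]
      · rw [if_neg hji]
        refine Finset.prod_eq_one fun i _ => ?_
        rw [if_neg hji, zpow_zero, inv_one]
  refine ⟨(Δ.toList.map fun k => nn C.neg x k (t k : F) * (nn C.neg x k 1)⁻¹).prod,
    fun j hj u => ⟨?_, ?_⟩⟩
  · rw [hh_list h, Finset.prod_map_toList, key j hj]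
  · rw [hh_list h, Finset.prod_map_toList]
    have e1 : ∏ k ∈ Δ, t k ^ C.pr (C.neg j) k =
        (c j * (if j = i₀ then (∏ i ∈ Δ, c i ^ ε i)⁻¹ else 1))⁻¹ := by
      rw [← key j hj, ← Finset.prod_inv_distrib]
      refine Finset.prod_congr rfl fun k _ => ?_
      rw [C.pr_neg, zpow_neg]
    rw [e1]

/-- the class of the scalars -/
def chi (Δ : Finset ι) (ε : ι → ℤ) (c : ι → F) : F := ∏ i ∈ Δ, c i ^ ε i

lemma chi_mul (Δ : Finset ι) (ε : ι → ℤ) (c d : ι → F) :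
    chi Δ ε (fun i => c i * d i) = chi Δ ε c * chi Δ ε d := by
  rw [chi, chi, chi, ← Finset.prod_mul_distrib]
  exact Finset.prod_congr rfl fun i _ => mul_zpow _ _ _

lemma chi_ne {Δ : Finset ι} {ε : ι → ℤ} {c : ι → F} (hc : ∀ i ∈ Δ, c i ≠ 0) : chi Δ ε c ≠ 0 :=
  Finset.prod_ne_zero_iff.2 fun i hi => zpow_ne_zero _ (hc i hi)

lemma chi_sq {Δ : Finset ι} {ε : ι → ℤ} {c : ι → F} (hc : ∀ i ∈ Δ, IsSquare (c i)) :
    IsSquare (chi Δ ε c) := by
  rw [chi]
  refine Finset.prod_induction _ (fun z : F => IsSquare z) (fun a b ha hb => ha.mul hb)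
    ⟨1, by rw [mul_one]⟩ fun i hi => ?_
  obtain ⟨b, hb⟩ := hc i hi
  exact ⟨b ^ ε i, by rw [hb, mul_zpow]⟩

/-- scalars whose class is a square give inner automorphisms -/
lemma inner_of (h : CS C x) {Δ : Finset ι} {D : ι → ι → ℤ} {i₀ : ι} {ε : ι → ℤ}
    (hΔ : ∀ i, i ∈ Δ ↔ C.simp i) (hi₀ : C.simp i₀) (hε : ε i₀ = -1)
    (hD : ∀ i j, C.simp i → C.simp j →
      ∑ k ∈ Δ, D i k * C.pr j k = (if i = j then 1 else 0) - (if j = i₀ then ε i else 0))
    {e : MulAut L} {c : ι → F} (he : Al C x e (1 : RingAut F) c) (hsq : IsSquare (chi Δ ε c)) :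
    e ∈ (MulAut.conj (G := L)).range := by
  obtain ⟨b, hb⟩ := hsq
  have hb0 : b ≠ 0 := by
    rintro rfl
    rw [mul_zero] at hb
    exact chi_ne (fun i hi => (he i ((hΔ i).1 hi)).1) hb
  set c' : ι → Fˣ := fun i => if hi : c i = 0 then 1 else Units.mk0 (c i) hi with hc'
  have hcc : ∀ i, C.simp i → (c' i : F) = c i := by
    intro i hi
    rw [hc']
    simp only
    rw [dif_neg (he i hi).1, Units.val_mk0]
  have hχ : ∏ i ∈ Δ, c' i ^ ε i = Units.mk0 b hb0 * Units.mk0 b hb0 := by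
    apply Units.ext
    rw [Units.coe_prod, Units.val_mul, Units.val_mk0, ← hb, chi]
    refine Finset.prod_congr rfl fun i hi => ?_
    rw [Units.val_zpow_eq_zpow_val, hcc i ((hΔ i).1 hi)]
  obtain ⟨g1, hg1⟩ := exists_T' h hΔ hi₀ hD c'
  obtain ⟨g2, hg2⟩ := exists_T' h hΔ hi₀ hD (fun i => if i = i₀ then Units.mk0 b hb0 else 1)
  have h3 : ∏ i ∈ Δ, (if i = i₀ then Units.mk0 b hb0 else 1 : Fˣ) ^ ε i =
      (Units.mk0 b hb0)⁻¹ := by
    rw [Finset.prod_eq_single_of_mem i₀ ((hΔ i₀).2 hi₀)]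
    · rw [if_pos rfl, hε, zpow_neg, zpow_one]
    · intro i _ hi
      rw [if_neg hi, one_zpow]
  have h4 : ∀ j, C.simp j → (c' j * (if j = i₀ then (∏ i ∈ Δ, c' i ^ ε i)⁻¹ else 1)) *
      ((if j = i₀ then Units.mk0 b hb0 else 1) * (if j = i₀ then (∏ i ∈ Δ,
        (if i = i₀ then Units.mk0 b hb0 else 1 : Fˣ) ^ ε i)⁻¹ else 1)) = c' j := by
    intro j hj
    by_cases hji : j = i₀
    · rw [if_pos hji, if_pos hji, if_pos hji, h3, hχ, inv_inv, mul_assoc, inv_mul_cancel, mul_one]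
    · rw [if_neg hji, if_neg hji, if_neg hji, mul_one, mul_one, mul_one]
  refine ⟨g1 * g2, (ext_simple h fun i hi t => ?_).symm⟩
  have e1 : ∀ y : L, g1 * g2 * y * (g1 * g2)⁻¹ = g1 * (g2 * y * g2⁻¹) * g1⁻¹ := by
    intro y; group
  rw [MulAut.conj_apply, MulAut.conj_apply, e1, e1, (hg2 i hi t).1, (hg1 i hi _).1,
    (hg2 i hi t).2, (hg1 i hi _).2, ((he i hi).2 t).1, ((he i hi).2 t).2, RingAut.one_apply,
    ← mul_assoc, ← mul_assoc, ← Units.val_mul, ← Units.val_mul, ← mul_inv, h4 i hi, hcc i hi,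
    Units.val_inv_eq_inv_val, hcc i hi]
  exact ⟨rfl, rfl⟩

variable [Finite ι] [Finite F] [Finite L]

/-- the type of an automorphism of order two with a nontrivial field automorphism -/
lemma inv_type (r : ℕ) [Fact r.Prime] [CharP F r] (h : CS C x) (hs : IsSimpleGroup L)
    (hc : ∀ g : L, (∀ y, g * y = y * g) → g = 1) (h2 : (2 : F) ≠ 0) {l : List ι}
    (hls : ∀ i ∈ l, C.simp i) (hl : ∀ j, 0 < C.ht j → C.ht (wl C l j) < 0) {f f' : MulAut L}
    {a : L} {σ : RingAut F} {c : ι → F} (hf : f = MulAut.conj a * f')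
    (hB : am f' (BB C x) = BB C x) (hB' : am f' (cj (nl C x l) (BB C x)) = cj (nl C x l) (BB C x))
    (hAl : Al C x f' σ c) (hσ : σ ≠ 1) (hf2 : f * f = 1) :
    σ * σ = 1 ∧ ∃ (a' : L) (e : MulAut L) (d : ι → F), f = MulAut.conj a' * e ∧ Al C x e σ d ∧
      ∀ i, C.simp i → IsSquare (d i) := by
  have hr : r.Prime := Fact.out
  have hr2 : r ≠ 2 := by
    rintro rfl
    exact h2 (by exact_mod_cast CharP.cast_eq_zero F 2)
  obtain ⟨g, m, hm, h3⟩ := toN (sb r h hs hc) hr hr2 (CS.nl_mem hls) (opp_nl h hl) hf hf2 hB hB'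
    (fun n hn => al_N h hAl hn)
  obtain ⟨t, ht, w, hw, hmw⟩ := h.mem_NN hm
  have h4 : (MulAut.conj g)⁻¹ * f * MulAut.conj g * ((MulAut.conj g)⁻¹ * f * MulAut.conj g) =
      1 := by
    calc _ = (MulAut.conj g)⁻¹ * (f * f) * MulAut.conj g := by group
      _ = 1 := by rw [hf2]; group
  obtain ⟨g', τ, hτ, h5⟩ := desc h hc r h2 hAl hσ hB w.length _ m w rfl hw ⟨t, ht, hmw⟩ h4 h3
  obtain ⟨c', hc'⟩ := Al_conj_T h hτ
  have h6 := Al_mul hc' hAl
  obtain ⟨e, he⟩ : ∃ e, e = MulAut.conj τ * f' := ⟨_, rfl⟩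
  rw [← he] at h6 h5
  rw [one_mul] at h6
  obtain ⟨d, hd⟩ : ∃ d : ι → F, d = fun i => c' i * (1 : RingAut F) (c i) := ⟨_, rfl⟩
  rw [← hd] at h6
  have h7 : e * e = 1 := by
    rw [← h5]
    calc _ = (MulAut.conj g')⁻¹ * ((MulAut.conj g)⁻¹ * f * MulAut.conj g *
          ((MulAut.conj g)⁻¹ * f * MulAut.conj g)) * MulAut.conj g' := by group
      _ = 1 := by rw [h4]; group
  have h8 : ∀ i, C.simp i → ∀ t : F, d i * (σ (d i) * σ (σ t)) = t := by
    intro i hi t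
    apply h.x_inj (i := i)
    have h9 : e (e (x i t)) = x i t := by rw [← MulAut.mul_apply, h7, MulAut.one_apply]
    rw [((h6 i hi).2 _).1, ((h6 i hi).2 _).1, map_mul] at h9
    exact h9
  have h9 : ∀ i, C.simp i → d i * σ (d i) = 1 := by
    intro i hi
    have := h8 i hi 1
    rwa [map_one, map_one, mul_one] at this
  have hσσ : σ * σ = 1 := by
    obtain ⟨i, hi⟩ := C.ex
    refine RingEquiv.ext fun t => ?_
    have h10 := h8 i hi t
    rw [← mul_assoc, h9 i hi, one_mul] at h10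
    exact h10
  refine ⟨hσσ, g * g' * e (g * g')⁻¹, e, d, ?_, h6, fun i hi => norm_sq h2 hσσ hσ (h9 i hi)⟩
  have h10 : f = MulAut.conj (g * g') * e * (MulAut.conj (g * g'))⁻¹ := by
    rw [← h5, map_mul]; group
  rw [h10, mul_assoc, ← map_inv, conj_comm', ← mul_assoc, ← map_mul]

/-- two outer automorphisms of order two of the same type agree modulo inner automorphisms -/
lemma pair (r : ℕ) [Fact r.Prime] [CharP F r] (h : CS C x) (hs : IsSimpleGroup L)
    (hc : ∀ g : L, (∀ y, g * y = y * g) → g = 1) (h2 : (2 : F) ≠ 0) {l : List ι}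
    (hls : ∀ i ∈ l, C.simp i) (hl : ∀ j, 0 < C.ht j → C.ht (wl C l j) < 0)
    {Δ : Finset ι} {D : ι → ι → ℤ} {i₀ : ι} {ε : ι → ℤ}
    (hΔ : ∀ i, i ∈ Δ ↔ C.simp i) (hi₀ : C.simp i₀) (hε : ε i₀ = -1)
    (hD : ∀ i j, C.simp i → C.simp j →
      ∑ k ∈ Δ, D i k * C.pr j k = (if i = j then 1 else 0) - (if j = i₀ then ε i else 0))
    {f g f' g' : MulAut L} {a b : L} {σ τ : RingAut F} {c d : ι → F}
    (hf : f = MulAut.conj a * f') (hg : g = MulAut.conj b * g')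
    (hB1 : am f' (BB C x) = BB C x) (hB2 : am f' (cj (nl C x l) (BB C x)) = cj (nl C x l) (BB C x))
    (hB3 : am g' (BB C x) = BB C x) (hB4 : am g' (cj (nl C x l) (BB C x)) = cj (nl C x l) (BB C x))
    (hf' : Al C x f' σ c) (hg' : Al C x g' τ d) (hfo : OutAut 2 f) (hgo : OutAut 2 g)
    (hστ : σ = 1 ↔ τ = 1) : g ∈ zpowers f ⊔ (MulAut.conj (G := L)).range := by
  have hff : f * f = 1 := by rw [← pow_two]; exact hfo.1
  have hgg : g * g = 1 := by rw [← pow_two]; exact hgo.1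
  have key : ∀ {e e' : MulAut L} {a b : L}, f = MulAut.conj a * e → g = MulAut.conj b * e' →
      e * e' ∈ (MulAut.conj (G := L)).range → f * g ∈ (MulAut.conj (G := L)).range := by
    intro e e' a b h3 h4 h5
    have h6 : f * g = MulAut.conj (a * e b) * (e * e') := by
      rw [h3, h4, map_mul]
      calc MulAut.conj a * e * (MulAut.conj b * e') = MulAut.conj a * (e * MulAut.conj b) * e' := by
            group
        _ = _ := by rw [conj_comm']; group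
    rw [h6]
    exact mul_mem ⟨_, rfl⟩ h5
  have hfg : f * g ∈ (MulAut.conj (G := L)).range := by
    by_cases h3 : σ = 1
    · have h4 := hστ.1 h3
      subst h3
      subst h4
      have h5 : ¬ IsSquare (chi Δ ε c) := fun h5 => hfo.2 (by
        rw [hf]
        exact mul_mem ⟨_, rfl⟩ (inner_of h hΔ hi₀ hε hD hf' h5))
      have h6 : ¬ IsSquare (chi Δ ε d) := fun h6 => hgo.2 (by
        rw [hg]
        exact mul_mem ⟨_, rfl⟩ (inner_of h hΔ hi₀ hε hD hg' h6))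
      refine key hf hg ?_
      have h7 := Al_mul hf' hg'
      rw [one_mul] at h7
      refine inner_of h hΔ hi₀ hε hD h7 ?_
      have h8 : (fun i => c i * (1 : RingAut F) (d i)) = fun i => c i * d i := rfl
      rw [h8, chi_mul]
      exact sq_of h2 (chi_ne fun i hi => (hf' i ((hΔ i).1 hi)).1)
        (chi_ne fun i hi => (hg' i ((hΔ i).1 hi)).1) h5 h6
    · have h4 : τ ≠ 1 := fun h4 => h3 (hστ.2 h4)
      obtain ⟨hσσ, a', e, c', h5, h6, h7⟩ := inv_type r h hs hc h2 hls hl hf hB1 hB2 hf' h3 hff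
      obtain ⟨hττ, b', e', d', h8, h9, h10⟩ := inv_type r h hs hc h2 hls hl hg hB3 hB4 hg' h4 hgg
      have h11 := unique_inv hσσ h3 hττ h4
      subst h11
      refine key h5 h8 ?_
      have h12 := Al_mul h6 h9
      rw [hσσ] at h12
      refine inner_of h hΔ hi₀ hε hD h12 (chi_sq fun i hi => ?_)
      obtain ⟨s, hs⟩ := h7 i ((hΔ i).1 hi)
      obtain ⟨s', hs'⟩ := h10 i ((hΔ i).1 hi)
      exact ⟨s * σ s', by rw [hs, hs', map_mul]; ring⟩
  have h1 : g = f⁻¹ * (f * g) := by group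
  rw [h1]
  exact mul_mem (mem_sup_left (inv_mem (mem_zpowers f))) (mem_sup_right hfg)

end

/-- the connectedness -/
def StmtConn : Prop := ∀ (ι : Type) [Finite ι] (F : Type) [Field F] [Finite F] (L : Type u)
  [Group L] [Finite L] (r : ℕ) [Fact r.Prime] [CharP F r] (C : RC ι) (x : ι → F → L), CS C x →
  IsSimpleGroup L → (∀ g : L, (∀ y, g * y = y * g) → g = 1) → (2 : F) ≠ 0 →
  (∀ j, C.simp j → ∃ k, Odd (C.pr k j)) →
  ∀ A B : Ap 2 L, Relation.ReflTransGen (fun X Y => X ≤ Y ∨ Y ≤ X) A B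

theorem stmtX7_of (hconn : StmtConn.{u}) : StmtX7.{u} := by
  rintro ι _ F _ _ L _ _ r _ _ C x h hs hc h2 ⟨D, Δ, i₀, ε, hΔ, hi₀, hε, hD⟩ hodd hperm
  obtain ⟨l, hls, hl⟩ := C.long
  refine ⟨fun f g k hf hg hk => ?_, Or.inr (hconn ι F L r C x h hs hc h2 hodd)⟩
  have hperm' : ∀ π : Equiv.Perm {i // C.simp i},
      (∀ i j, C.pr i.1 j.1 = 0 ↔ C.pr (π i).1 (π j).1 = 0) →
      ((r = 2 ∨ r = 3) ∨ ∀ i j, C.pr i.1 j.1 = C.pr (π i).1 (π j).1) → π = 1 :=
    fun π h1 _ => hperm π h1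
  obtain ⟨a, f', σ, c, e1, e2, e3, e4⟩ := exists_Al r h hs hc hperm' hls hl f
  obtain ⟨b, g', τ, d, f1, f2, f3, f4⟩ := exists_Al r h hs hc hperm' hls hl g
  obtain ⟨b', k', υ, d', k1, k2, k3, k4⟩ := exists_Al r h hs hc hperm' hls hl k
  by_cases h3 : (σ = 1 ↔ τ = 1)
  · exact Or.inl (pair r h hs hc h2 hls hl hΔ hi₀ hε hD e1 f1 e2 e3 f2 f3 e4 f4 hf hg h3)
  by_cases h4 : (σ = 1 ↔ υ = 1)
  · exact Or.inr (Or.inl (pair r h hs hc h2 hls hl hΔ hi₀ hε hD e1 k1 e2 e3 k2 k3 e4 k4 hf hk h4))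
  · exact Or.inr (Or.inr (pair r h hs hc h2 hls hl hΔ hi₀ hε hD f1 k1 f2 f3 k2 k3 f4 k4 hg hk
      (by tauto)))

end Vale.Agent.P240.R2.H401.X7
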